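import Vale.Agent.P141.R2.H4.Half

/-!
# The kernel for the distance to a set satisfying Aikawa's condition
-/

namespace Vale.Agent.P141.R2.H4

open MeasureTheory Set Filter Topology
open scoped ENNReal

/-- the hypotheses on the (distance) function `d` -/
structure Aik (d : ℝ → ℝ) (a K : ℝ) : Prop where
  nonneg : ∀ x, 0 ≤ d x
  lip : ∀ x y, d x ≤ d y + |x - y|
  ae_pos : ∀ᵐ x : ℝ, 0 < d x
  a_pos : 0 < a
  a_lt : a < 1
  K_nonneg : 0 ≤ K
  int : ∀ y ρ : ℝ, 0 < ρ → d y ≤ ρ →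
    ∫⁻ z in Icc (y - ρ) (y + ρ), ENNReal.ofReal (d z ^ (-a)) ≤ ENNReal.ofReal (K * ρ ^ (1 - a))

variable {d : ℝ → ℝ} {a K : ℝ}

theorem Aik.cont (h : Aik d a K) : Continuous d := by
  have : LipschitzWith 1 d := LipschitzWith.of_dist_le_mul fun x y => by
    rw [Real.dist_eq, Real.dist_eq, NNReal.coe_one, one_mul, abs_sub_le_iff]
    have h1 := h.lip x y
    have h2 := h.lip y x
    rw [abs_sub_comm] at h2
    exact ⟨by linarith, by linarith⟩
  exact this.continuous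

/-- `1/|t|` as a superposition of intervals -/
theorem inv_eq {t : ℝ} (ht : 0 < t) :
    ENNReal.ofReal t⁻¹ = ∫⁻ ρ in Ioi t, ENNReal.ofReal (ρ ^ (-(2 : ℝ))) := by
  have h1 : IntegrableOn (fun ρ : ℝ => ρ ^ (-(2 : ℝ))) (Ioi t) :=
    integrableOn_Ioi_rpow_of_lt (by norm_num) ht
  rw [← ofReal_integral_eq_lintegral_ofReal h1
    ((ae_restrict_mem measurableSet_Ioi).mono fun ρ hρ => by
      have : 0 < ρ := ht.trans hρ
      positivity), integral_Ioi_rpow_of_lt (by norm_num) ht]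
  congr 1
  have e : (-(2 : ℝ) + 1) = -1 := by norm_num
  rw [e, Real.rpow_neg_one]
  ring

/-- the tail of `ρ^(-1-a)` -/
theorem tail {a ρ₀ : ℝ} (ha : 0 < a) (hρ : 0 < ρ₀) :
    ∫⁻ ρ in Ioi ρ₀, ENNReal.ofReal (ρ ^ (-(2 : ℝ)) * ρ ^ (1 - a)) =
      ENNReal.ofReal (ρ₀ ^ (-a) / a) := by
  have e0 : ∫⁻ ρ in Ioi ρ₀, ENNReal.ofReal (ρ ^ (-(2 : ℝ)) * ρ ^ (1 - a)) =
      ∫⁻ ρ in Ioi ρ₀, ENNReal.ofReal (ρ ^ (-1 - a)) := by
    refine setLIntegral_congr_fun measurableSet_Ioi fun ρ hr => ?_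
    have : 0 < ρ := hρ.trans hr
    rw [← Real.rpow_add this]
    congr 2
    ring
  rw [e0]
  have h1 : IntegrableOn (fun ρ : ℝ => ρ ^ (-1 - a)) (Ioi ρ₀) :=
    integrableOn_Ioi_rpow_of_lt (by linarith) hρ
  rw [← ofReal_integral_eq_lintegral_ofReal h1
    ((ae_restrict_mem measurableSet_Ioi).mono fun ρ hr => by
      have : 0 < ρ := hρ.trans hr
      positivity), integral_Ioi_rpow_of_lt (by linarith) hρ]
  congr 1
  have e : (-1 - a + 1) = -a := by ring
  rw [e]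
  field_simp

/-- the kernel bound -/
theorem Aik.kernel (h : Aik d a K) {b c : ℝ} (hb : b ≠ 0) (hc : 0 < c) {y : ℝ} (hy : 0 < d y) :
    ∫⁻ t : ℝ, {t : ℝ | c * d y ≤ |t|}.indicator (fun t => ENNReal.ofReal |t|⁻¹ *
      (ENNReal.ofReal (d y ^ a) * ENNReal.ofReal (d (y + b * t) ^ (-a)))) t ≤
    ENNReal.ofReal (|b|⁻¹ * K * (|b| + c⁻¹) ^ (1 - a) * c ^ (-a) / a) := by
  have hb' : 0 < |b| := abs_pos.2 hb
  set M : ℝ := |b| + c⁻¹ with hM
  have hM0 : 0 < M := by positivity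
  set ρ₀ : ℝ := c * d y with hρ₀
  have hρ₀0 : 0 < ρ₀ := mul_pos hc hy
  set g : ℝ → ℝ≥0∞ := fun t => ENNReal.ofReal (d (y + b * t) ^ (-a)) with hg
  have hgm : Measurable g := by
    refine ENNReal.measurable_ofReal.comp ?_
    exact ((h.cont.measurable.comp (by fun_prop)).pow_const _)
  -- the mass of `g` on `|t| < ρ`
  have hmass : ∀ ρ : ℝ, ρ₀ < ρ → ∫⁻ t in Icc (-ρ) ρ, g t ≤
      ENNReal.ofReal (|b|⁻¹ * K * M ^ (1 - a) * ρ ^ (1 - a)) := by
    intro ρ hρ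
    have hρ0 : 0 < ρ := hρ₀0.trans hρ
    have h1 := h.int y (M * ρ) (by positivity) (by
      have : c⁻¹ * ρ₀ = d y := by rw [hρ₀, ← mul_assoc, inv_mul_cancel₀ hc.ne', one_mul]
      calc d y = c⁻¹ * ρ₀ := this.symm
        _ ≤ c⁻¹ * ρ := by gcongr
        _ ≤ M * ρ := by rw [hM]; gcongr; linarith)
    have h2 : ∫⁻ t in Icc (-ρ) ρ, g t ≤ ENNReal.ofReal |b|⁻¹ *
        ∫⁻ z in Icc (y - M * ρ) (y + M * ρ), ENNReal.ofReal (d z ^ (-a)) := by
      have h3 := H152.lin1L b y hb ((Icc (y - M * ρ) (y + M * ρ)).indicator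
        fun z => ENNReal.ofReal (d z ^ (-a)))
      rw [lintegral_indicator measurableSet_Icc] at h3
      rw [← h3, ← lintegral_indicator measurableSet_Icc]
      refine lintegral_mono fun t => ?_
      by_cases ht : t ∈ Icc (-ρ) ρ
      · have h4 : |t| ≤ ρ := abs_le.2 ht
        have h5 : |b * t| ≤ M * ρ := by
          rw [abs_mul]
          calc |b| * |t| ≤ |b| * ρ := by gcongr
            _ ≤ M * ρ := by
                have : 0 < c⁻¹ := by positivity
                rw [hM]; gcongr; linarith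
        have h6 := abs_le.1 h5
        rw [indicator_of_mem ht, indicator_of_mem (show b * t + y ∈ Icc (y - M * ρ) (y + M * ρ)
          from ⟨by linarith [h6.1], by linarith [h6.2]⟩), hg]
        simp only
        rw [add_comm y]
      · rw [indicator_of_notMem ht]
        exact bot_le
    refine h2.trans ((mul_le_mul_right h1 _).trans (le_of_eq ?_))
    rw [← ENNReal.ofReal_mul (by positivity), Real.mul_rpow hM0.le hρ0.le]
    congr 1
    ring
  -- Fubini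
  have hstep : ∀ t : ℝ, {t : ℝ | ρ₀ ≤ |t|}.indicator (fun t => ENNReal.ofReal |t|⁻¹ *
      (ENNReal.ofReal (d y ^ a) * g t)) t ≤ ENNReal.ofReal (d y ^ a) *
      ∫⁻ ρ in Ioi ρ₀, (ENNReal.ofReal (ρ ^ (-(2 : ℝ))) * (Icc (-ρ) ρ).indicator g t) := by
    intro t
    by_cases ht : ρ₀ ≤ |t|
    · have ht0 : 0 < |t| := hρ₀0.trans_le ht
      rw [indicator_of_mem (show t ∈ {t : ℝ | ρ₀ ≤ |t|} from ht), inv_eq ht0, mul_left_comm]
      gcongr
      have hm2 : Measurable fun ρ : ℝ => ENNReal.ofReal (ρ ^ (-(2 : ℝ))) := by fun_prop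
      rw [← lintegral_mul_const _ hm2]
      calc ∫⁻ ρ in Ioi |t|, ENNReal.ofReal (ρ ^ (-(2 : ℝ))) * g t
          = ∫⁻ ρ in Ioi |t|, ENNReal.ofReal (ρ ^ (-(2 : ℝ))) * (Icc (-ρ) ρ).indicator g t := by
            refine setLIntegral_congr_fun measurableSet_Ioi fun ρ hr => ?_
            have h7 := abs_le.1 (le_of_lt (show |t| < ρ from hr))
            rw [indicator_of_mem (show t ∈ Icc (-ρ) ρ from h7)]
        _ ≤ _ := lintegral_mono_set (Ioi_subset_Ioi ht)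
    · rw [indicator_of_notMem (show t ∉ {t : ℝ | ρ₀ ≤ |t|} from ht)]
      exact bot_le
  have hjm : Measurable (Function.uncurry fun (t ρ : ℝ) =>
      ENNReal.ofReal (ρ ^ (-(2 : ℝ))) * (Icc (-ρ) ρ).indicator g t) := by
    have e : (Function.uncurry fun (t ρ : ℝ) =>
        ENNReal.ofReal (ρ ^ (-(2 : ℝ))) * (Icc (-ρ) ρ).indicator g t) = fun z : ℝ × ℝ =>
        ENNReal.ofReal (z.2 ^ (-(2 : ℝ))) *
          {z : ℝ × ℝ | -z.2 ≤ z.1 ∧ z.1 ≤ z.2}.indicator (fun z => g z.1) z := by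
      funext z
      simp only [Function.uncurry]
      congr 1
    rw [e]
    refine Measurable.mul (by fun_prop) ?_
    refine (hgm.comp measurable_fst).indicator ?_
    exact (measurableSet_le measurable_snd.neg measurable_fst).inter
      (measurableSet_le measurable_fst measurable_snd)
  calc ∫⁻ t : ℝ, {t : ℝ | c * d y ≤ |t|}.indicator (fun t => ENNReal.ofReal |t|⁻¹ *
      (ENNReal.ofReal (d y ^ a) * ENNReal.ofReal (d (y + b * t) ^ (-a)))) t
      ≤ ∫⁻ t : ℝ, ENNReal.ofReal (d y ^ a) *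
        ∫⁻ ρ in Ioi ρ₀, (ENNReal.ofReal (ρ ^ (-(2 : ℝ))) * (Icc (-ρ) ρ).indicator g t) :=
        lintegral_mono hstep
    _ = ENNReal.ofReal (d y ^ a) * ∫⁻ t : ℝ,
        ∫⁻ ρ in Ioi ρ₀, (ENNReal.ofReal (ρ ^ (-(2 : ℝ))) * (Icc (-ρ) ρ).indicator g t) :=
        lintegral_const_mul' _ _ ENNReal.ofReal_ne_top
    _ = ENNReal.ofReal (d y ^ a) * ∫⁻ ρ in Ioi ρ₀,
        ∫⁻ t : ℝ, (ENNReal.ofReal (ρ ^ (-(2 : ℝ))) * (Icc (-ρ) ρ).indicator g t) := by
        rw [lintegral_lintegral_swap hjm.aemeasurable]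
    _ ≤ ENNReal.ofReal (d y ^ a) * ∫⁻ ρ in Ioi ρ₀,
        ENNReal.ofReal (|b|⁻¹ * K * M ^ (1 - a)) *
          ENNReal.ofReal (ρ ^ (-(2 : ℝ)) * ρ ^ (1 - a)) := by
        refine mul_le_mul_right ?_ _
        refine setLIntegral_mono' measurableSet_Ioi fun ρ hr => ?_
        have hρ0 : 0 < ρ := hρ₀0.trans hr
        rw [lintegral_const_mul' _ _ ENNReal.ofReal_ne_top, lintegral_indicator measurableSet_Icc]
        refine (mul_le_mul_right (hmass ρ hr) _).trans (le_of_eq ?_)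
        have hK := h.K_nonneg
        rw [← ENNReal.ofReal_mul (by positivity), ← ENNReal.ofReal_mul (by positivity)]
        congr 1
        ring
    _ = ENNReal.ofReal (|b|⁻¹ * K * M ^ (1 - a) * c ^ (-a) / a) := by
        have hK := h.K_nonneg
        have ha := h.a_pos
        rw [lintegral_const_mul' _ _ ENNReal.ofReal_ne_top, tail h.a_pos hρ₀0,
          ← ENNReal.ofReal_mul (by positivity), ← ENNReal.ofReal_mul (by positivity)]
        congr 1
        rw [hρ₀, Real.mul_rpow hc.le hy.le]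
        have e9 : d y ^ a * d y ^ (-a) = 1 := by
          rw [← Real.rpow_add hy, add_neg_cancel, Real.rpow_zero]
        calc d y ^ a * (|b|⁻¹ * K * M ^ (1 - a) * (c ^ (-a) * d y ^ (-a) / a))
            = (d y ^ a * d y ^ (-a)) * (|b|⁻¹ * K * M ^ (1 - a) * c ^ (-a) / a) := by ring
          _ = _ := by rw [e9, one_mul]

end Vale.Agent.P141.R2.H4
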