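import Vale.Agent.P141.R2.H4.AvgAll
import Vale.Agent.P141.R2.H131.FormPieces

/-!
# Piecewise regular functions: assembly
-/

namespace Vale.Agent.P141.R2.H4

open MeasureTheory Set Filter Topology Vale.Agent.P141.H97 Vale.Agent.P141.R2.H152
open Vale.Agent.P141.H115
open scoped ENNReal SchwartzMap

/-- one regular piece -/
theorem reg_form {c₁ c₂ c₃ : ℝ} (h12 : c₁ ≠ c₂) (h13 : c₁ ≠ c₃) (h23 : c₂ ≠ c₃) :
    ∃ A : ℝ, 0 ≤ A ∧ ∀ P : ℝ → ℂ, Reg P → ∀ ε R : ℝ, 0 < ε → ε < R →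
      FormBd P A ε R c₁ c₂ c₃ := by
  obtain ⟨C, hC0, hC⟩ := H131.bv_base h12 h13 h23 0
  obtain ⟨A, hA0, hA⟩ := H131.phase_form h12 h13 h23
  refine ⟨18 * (A + C), by positivity, fun P hP ε R hε hR => ?_⟩
  obtain ⟨u, a, b, h1, h2, h⟩ := hP
  have e : P = fun x => u x * H131.ph 1 a b x := by
    funext x
    rw [h x]
    unfold H131.ph
    rw [one_mul]
  rw [e]
  refine H131.QB_iff.1 (hC A ε R hA0 hε _ (H131.ph_meas 1 a b) (fun x => ?_)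
    (H131.QB_iff.2 (hA 1 a b (by simp) ε R hε hR)) u h1 h2)
  rw [H131.norm_ph]
  simp

theorem log_bd {N : ℕ} (hN : 0 < N) : ((Nat.log 2 N + 1 : ℕ) : ℝ) ≤ 1 + 2 * Real.log N := by
  have h1 : 2 ^ Nat.log 2 N ≤ N := Nat.pow_log_le_self 2 hN.ne'
  have h2 : ((2 : ℝ) ^ Nat.log 2 N) ≤ N := by exact_mod_cast h1
  have h3 := Real.log_le_log (by positivity) h2
  rw [Real.log_pow] at h3
  have h4 : (1 : ℝ) / 2 ≤ Real.log 2 := by
    have := Real.log_two_gt_d9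
    linarith
  have h5 : (0 : ℝ) ≤ (Nat.log 2 N : ℝ) := Nat.cast_nonneg _
  push_cast
  nlinarith

/-- **`N` pieces: the logarithm of `N`** -/
theorem pw {c₁ c₂ c₃ : ℝ} (h12 : c₁ ≠ c₂) (h13 : c₁ ≠ c₃) (h23 : c₂ ≠ c₃) :
    ∃ C : ℝ, 0 ≤ C ∧ ∀ (N : ℕ) (D : ℝ → ℂ), Pieces N D → ∀ ε R : ℝ, 0 < ε → ε < R →
      FormBd D (C * (1 + Real.log N)) ε R c₁ c₂ c₃ := by
  obtain ⟨A, hA0, hA⟩ := reg_form h12 h13 h23
  obtain ⟨B, hB0, hB⟩ := H131.pieces h12 h13 h23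
  refine ⟨A + 2 * B, by positivity, fun N D hD ε R hε hR => ?_⟩
  obtain ⟨k, P, hk, hkN, hP, hDP⟩ := hD
  have hN : 0 < N := (Nat.zero_le _).trans_lt (hkN 0)
  have key := hB A ε R hA0 hε hR (Nat.log 2 N + 1) k P hk
    (fun x => (hkN x).trans (Nat.lt_pow_succ_log_self (by norm_num) N)) (fun j => (hP j).meas)
    (fun j => (hP j).le) (fun j => hA (P j) (hP j) ε R hε hR)
  have e : D = fun x => P (k x) x := funext hDP
  rw [e]
  have hl := log_bd hN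
  have hN1 : (1 : ℝ) ≤ N := by exact_mod_cast hN
  have hlog : 0 ≤ Real.log N := Real.log_nonneg hN1
  have hle : A + B * ((Nat.log 2 N + 1 : ℕ) : ℝ) ≤ (A + 2 * B) * (1 + Real.log N) := by
    calc A + B * ((Nat.log 2 N + 1 : ℕ) : ℝ) ≤ A + B * (1 + 2 * Real.log N) := by gcongr
      _ ≤ _ := by nlinarith [mul_nonneg hA0 hlog]
  intro f₁ f₂ f₃ h₁ h₂ h₃
  exact (key f₁ f₂ f₃ h₁ h₂ h₃).trans (mul_le_mul_of_nonneg_right hle (by positivity))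

/-- the operator, the piecewise function in the first place -/
theorem pw_oper {α₁ α₂ α₃ : ℝ} (h2 : α₂ ≠ 0) (h3 : α₃ ≠ 0) (h23 : α₂ ≠ α₃) :
    ∃ C : ℝ, 0 ≤ C ∧ ∀ (N : ℕ) (D : ℝ → ℂ), Pieces N D → ∀ f g : 𝓢(ℝ, ℂ), ∀ ε R : ℝ, 0 < ε →
      ε < R → eLpNorm (TT ε R α₁ α₂ α₃ D f g) (3 / 2) volume ≤
        ENNReal.ofReal (C * (1 + Real.log N)) * eLpNorm f 3 volume * eLpNorm g 3 volume := by
  obtain ⟨C, hC0, hC⟩ := pw (c₁ := -α₁) (c₂ := α₂ - α₁) (c₃ := α₃ - α₁)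
    (fun h => h2 (by linarith)) (fun h => h3 (by linarith)) (fun h => h23 (by linarith))
  refine ⟨C, hC0, fun N D hD f g ε R hε hR => ?_⟩
  have hlog : 0 ≤ Real.log N := Real.log_natCast_nonneg N
  exact oper hD.meas hD.le (by positivity) hε (hC N D hD ε R hε hR) (nice_schwartz f)
    (nice_schwartz g)

end Vale.Agent.P141.R2.H4
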