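import Vale.Agent.P141.R2.H4.Lim

/-!
# Averages over intervals: the part `|t| < b - a`
-/

namespace Vale.Agent.P141.R2.H4

open MeasureTheory Set Filter Topology Vale.Agent.P141.H97 Vale.Agent.P141.R2.H152
open Vale.Agent.P141.H115
open scoped ENNReal SchwartzMap

theorem FormBd.sub {D₁ D₂ : ℝ → ℂ} {A B ε R c₁ c₂ c₃ : ℝ} (hε : 0 < ε) (m₁ : Measurable D₁)
    (m₂ : Measurable D₂) (b₁ : ∀ x, ‖D₁ x‖ ≤ 1) (b₂ : ∀ x, ‖D₂ x‖ ≤ 1)
    (h₁ : FormBd D₁ A ε R c₁ c₂ c₃) (h₂ : FormBd D₂ B ε R c₁ c₂ c₃) :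
    FormBd (fun x => D₁ x - D₂ x) (A + B) ε R c₁ c₂ c₃ := by
  intro f₁ f₂ f₃ n₁ n₂ n₃
  have i1 := Dph_int (R := R) (c₁ := c₁) (c₂ := c₂) (c₃ := c₃) m₁ b₁ hε n₁ n₂ n₃
  have i2 := Dph_int (R := R) (c₁ := c₁) (c₂ := c₂) (c₃ := c₃) m₂ b₂ hε n₁ n₂ n₃
  simp only [sub_mul]
  rw [integral_sub i1 i2, add_mul]
  exact (norm_sub_le _ _).trans (add_le_add (h₁ _ _ _ n₁ n₂ n₃) (h₂ _ _ _ n₁ n₂ n₃))

/-- the indicator of `(a, b]` -/
theorem pos_sub {a b x : ℝ} (hab : a ≤ b) : pos a x - pos b x = (Ioc a b).indicator 1 x := by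
  by_cases h1 : a < x
  · by_cases h2 : x ≤ b
    · rw [indicator_of_mem (show x ∈ Ioc a b from ⟨h1, h2⟩), pos_of_lt h1, pos_of_le h2]; simp
    · rw [indicator_of_notMem (fun h => h2 h.2), pos_of_lt h1, pos_of_lt (not_le.1 h2)]; simp
  · rw [indicator_of_notMem (fun h => h1 h.1), pos_of_le (not_lt.1 h1),
      pos_of_le ((not_lt.1 h1).trans hab)]; simp

theorem nice_ind {f : ℝ → ℂ} (h : Nice f) {S : Set ℝ} (hS : MeasurableSet S) :
    Nice (S.indicator f) := by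
  obtain ⟨B, hB⟩ := h.bdd
  exact ⟨h.meas.indicator hS, ⟨B, fun x => (norm_indicator_le_norm_self _ _).trans (hB x)⟩,
    h.int.indicator hS⟩

/-- Hoelder for a localised function -/
theorem loc_norm {f : ℝ → ℂ} (h : Nice f) {S : Set ℝ} (hS : MeasurableSet S) {m : ℝ} (hm : 0 < m)
    (hv : volume S = ENNReal.ofReal m) {p : ℝ≥0∞} (hp : 3 ≤ p) (hf : eLpNorm f p volume ≠ ∞) :
    (eLpNorm (S.indicator f) 3 volume).toReal ≤
      (eLpNorm f p volume).toReal * m ^ (1 / 3 - 1 / p.toReal) := by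
  have h1 := eLpNorm_le_eLpNorm_mul_rpow_measure_univ (μ := volume.restrict S) hp
    h.meas.aestronglyMeasurable (f := f)
  rw [← eLpNorm_indicator_eq_eLpNorm_restrict hS, Measure.restrict_apply_univ, hv] at h1
  have h2 : eLpNorm f p (volume.restrict S) ≤ eLpNorm f p volume :=
    eLpNorm_mono_measure _ Measure.restrict_le_self
  have e3 : (3 : ℝ≥0∞).toReal = 3 := by norm_num
  rw [e3, ENNReal.ofReal_rpow_of_pos hm] at h1
  have h3 : eLpNorm (S.indicator f) 3 volume ≤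
      eLpNorm f p volume * ENNReal.ofReal (m ^ (1 / 3 - 1 / p.toReal)) :=
    h1.trans (by gcongr)
  have h4 := ENNReal.toReal_mono (ENNReal.mul_ne_top hf ENNReal.ofReal_ne_top) h3
  rw [ENNReal.toReal_mul, ENNReal.toReal_ofReal (by positivity)] at h4
  exact h4

theorem schwartz_top (f : 𝓢(ℝ, ℂ)) (p : ℝ≥0∞) : eLpNorm f p volume ≠ ∞ :=
  (f.memLp p volume).2.ne

theorem tuple_real {p₁ p₂ p₃ r : ℝ≥0∞} (h : IsHolderTuple p₁ p₂ p₃ r) :
    1 / r.toReal = 1 / p₁.toReal + 1 / p₂.toReal + 1 / p₃.toReal := by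
  have hh := h.holder
  have f₁ : p₁⁻¹ ≠ ∞ := ENNReal.inv_ne_top.2 (zero_lt_one.trans h.one_lt_p₁).ne'
  have f₂ : p₂⁻¹ ≠ ∞ := ENNReal.inv_ne_top.2 (zero_lt_one.trans h.one_lt_p₂).ne'
  have f₃ : p₃⁻¹ ≠ ∞ := ENNReal.inv_ne_top.2 (zero_lt_one.trans h.one_lt_p₃).ne'
  have h2 := congrArg ENNReal.toReal hh
  rw [ENNReal.toReal_add (ENNReal.add_ne_top.2 ⟨f₁, f₂⟩) f₃, ENNReal.toReal_add f₁ f₂,
    ENNReal.toReal_inv, ENNReal.toReal_inv, ENNReal.toReal_inv, ENNReal.toReal_inv] at h2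
  simp only [one_div]
  exact h2

theorem inv_le_third {p : ℝ≥0∞} (hp : 3 ≤ p) : 1 / p.toReal ≤ 1 / 3 := by
  by_cases ht : p = ∞
  · rw [ht]; norm_num
  · have := ENNReal.toReal_mono ht hp
    have e3 : (3 : ℝ≥0∞).toReal = 3 := by norm_num
    rw [e3] at this
    exact one_div_le_one_div_of_le (by norm_num) this

/-- the localised part -/
theorem avg_small : ∃ A : ℝ, 0 ≤ A ∧ ∀ (p₁ p₂ p₃ r : ℝ≥0∞), IsHolderTuple p₁ p₂ p₃ r → 3 ≤ p₁ →
    3 ≤ p₂ → 3 ≤ p₃ → ∀ (f₁ f₂ f₃ : 𝓢(ℝ, ℂ)) (a b ε : ℝ), 0 < ε → ε < b - a →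
    ‖∫ x in a..b, TT ε (b - a) 1 2 3 f₁ f₂ f₃ x‖ ≤ A * (b - a) ^ (1 - 1 / r.toReal) *
      ((eLpNorm f₁ p₁ volume).toReal * (eLpNorm f₂ p₂ volume).toReal *
        (eLpNorm f₃ p₃ volume).toReal) := by
  obtain ⟨A, hA0, hA⟩ := half (c₁ := 1) (c₂ := 2) (c₃ := 3) (by norm_num) (by norm_num)
    (by norm_num)
  refine ⟨2 * A * 7, by positivity, ?_⟩
  intro p₁ p₂ p₃ r h q₁ q₂ q₃ f₁ f₂ f₃ a b ε hε hs
  set s : ℝ := b - a with hsdef
  have hs0 : 0 < s := hε.trans hs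
  have hab : a ≤ b := by linarith
  set S : Set ℝ := Icc (a - 3 * s) (b + 3 * s) with hS
  have hSm : MeasurableSet S := measurableSet_Icc
  have hv : volume S = ENNReal.ofReal (7 * s) := by
    rw [hS, Real.volume_Icc]; congr 1; rw [hsdef]; ring
  have g₁ := nice_ind (nice_schwartz f₁) hSm
  have g₂ := nice_ind (nice_schwartz f₂) hSm
  have g₃ := nice_ind (nice_schwartz f₃) hSm
  have key := pairing (D := fun x => pos a x - pos b x) ((pos_meas a).sub (pos_meas b))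
    (fun x => by
      rw [pos_sub hab]
      by_cases hx : x ∈ Ioc a b
      · rw [indicator_of_mem hx]; simp
      · rw [indicator_of_notMem hx]; simp) hε
    (FormBd.sub hε (pos_meas a) (pos_meas b) (pos_le a) (pos_le b) (hA a ε s hε hs)
      (hA b ε s hε hs)) g₁ g₂ g₃
  have e : ∫ x in a..b, TT ε s 1 2 3 f₁ f₂ f₃ x =
      ∫ x, (pos a x - pos b x) *
        TT ε s 1 2 3 (S.indicator f₁) (S.indicator f₂) (S.indicator f₃) x := by
    rw [intervalIntegral.integral_of_le hab, ← integral_indicator measurableSet_Ioc]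
    congr 1
    funext x
    rw [pos_sub hab]
    by_cases hx : x ∈ Ioc a b
    · rw [indicator_of_mem hx, indicator_of_mem hx, Pi.one_apply, one_mul]
      unfold TT
      congr 1
      funext t
      unfold ph uu
      by_cases ht : ε < |t| ∧ |t| < s
      · have h1 := abs_lt.1 ht.2
        have m : ∀ c : ℝ, 0 ≤ c → c ≤ 3 → x - c * t ∈ S := by
          intro c hc0 hc3
          have u1 : c * t ≤ 3 * s := by nlinarith [h1.2, h1.1]
          have u2 : -(3 * s) ≤ c * t := by nlinarith [h1.2, h1.1]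
          exact ⟨by linarith [hx.1], by linarith [hx.2]⟩
        unfold FF
        rw [indicator_of_mem (m 1 (by norm_num) (by norm_num)),
          indicator_of_mem (m 2 (by norm_num) (by norm_num)),
          indicator_of_mem (m 3 (by norm_num) (by norm_num))]
      · rw [indicator_of_notMem (show t ∉ {t : ℝ | ε < |t| ∧ |t| < s} from ht), zero_mul,
          zero_mul]
    · rw [indicator_of_notMem hx, indicator_of_notMem hx, zero_mul]
  rw [e]
  refine key.trans ?_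
  have h7 : 0 < 7 * s := by positivity
  have n₁ := loc_norm (nice_schwartz f₁) hSm h7 hv q₁ (schwartz_top f₁ p₁)
  have n₂ := loc_norm (nice_schwartz f₂) hSm h7 hv q₂ (schwartz_top f₂ p₂)
  have n₃ := loc_norm (nice_schwartz f₃) hSm h7 hv q₃ (schwartz_top f₃ p₃)
  set a₁ := (eLpNorm f₁ p₁ volume).toReal
  set a₂ := (eLpNorm f₂ p₂ volume).toReal
  set a₃ := (eLpNorm f₃ p₃ volume).toReal
  have ha₁ : 0 ≤ a₁ := ENNReal.toReal_nonneg
  have ha₂ : 0 ≤ a₂ := ENNReal.toReal_nonneg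
  have ha₃ : 0 ≤ a₃ := ENNReal.toReal_nonneg
  have hr := tuple_real h
  have t₁ := inv_le_third q₁
  have t₂ := inv_le_third q₂
  have t₃ := inv_le_third q₃
  have r0 : 0 ≤ 1 / r.toReal := by positivity
  calc (A + A) * ((eLpNorm (S.indicator f₁) 3 volume).toReal *
        (eLpNorm (S.indicator f₂) 3 volume).toReal * (eLpNorm (S.indicator f₃) 3 volume).toReal)
      ≤ (A + A) * ((a₁ * (7 * s) ^ (1 / 3 - 1 / p₁.toReal)) *
        (a₂ * (7 * s) ^ (1 / 3 - 1 / p₂.toReal)) * (a₃ * (7 * s) ^ (1 / 3 - 1 / p₃.toReal))) := by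
        gcongr
    _ = (A + A) * ((7 * s) ^ (1 - 1 / r.toReal)) * (a₁ * a₂ * a₃) := by
        have e4 : (7 * s) ^ (1 - 1 / r.toReal) = (7 * s) ^ (1 / 3 - 1 / p₁.toReal) *
            (7 * s) ^ (1 / 3 - 1 / p₂.toReal) * (7 * s) ^ (1 / 3 - 1 / p₃.toReal) := by
          rw [← Real.rpow_add h7, ← Real.rpow_add h7]
          congr 1
          rw [hr]
          ring
        rw [e4]
        ring
    _ ≤ (A + A) * (7 * s ^ (1 - 1 / r.toReal)) * (a₁ * a₂ * a₃) := by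
        have e5 : (7 * s) ^ (1 - 1 / r.toReal) ≤ 7 * s ^ (1 - 1 / r.toReal) := by
          rw [Real.mul_rpow (by norm_num) hs0.le]
          gcongr
          calc (7 : ℝ) ^ (1 - 1 / r.toReal) ≤ 7 ^ (1 : ℝ) :=
                Real.rpow_le_rpow_of_exponent_le (by norm_num) (by linarith)
            _ = 7 := Real.rpow_one 7
        gcongr
    _ = _ := by ring

end Vale.Agent.P141.R2.H4
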