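import Vale.Agent.P141.R2.H4.Half

/-!
# One function of bounded variation
-/

namespace Vale.Agent.P141.R2.H4

open MeasureTheory Set Filter Topology Vale.Agent.P141.H97 Vale.Agent.P141.R2.H152
open scoped ENNReal SchwartzMap

theorem deriv_int (f : 𝓢(ℝ, ℂ)) : Integrable (deriv f) volume :=
  (SchwartzMap.derivCLM ℂ ℂ f).integrable

theorem pos_joint : Measurable fun q : ℝ × ℝ => pos q.1 q.2 := by
  have h : (fun q : ℝ × ℝ => pos q.1 q.2) = {q : ℝ × ℝ | q.1 < q.2}.indicator 1 := by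
    funext q
    unfold pos
    by_cases hq : q.1 < q.2
    · rw [indicator_of_mem (show q.2 ∈ Ioi q.1 from hq),
        indicator_of_mem (show q ∈ {q : ℝ × ℝ | q.1 < q.2} from hq)]; rfl
    · rw [indicator_of_notMem (show q.2 ∉ Ioi q.1 from hq),
        indicator_of_notMem (show q ∉ {q : ℝ × ℝ | q.1 < q.2} from hq)]
  rw [h]
  exact measurable_one.indicator (measurableSet_lt measurable_fst measurable_snd)

theorem repr (f : 𝓢(ℝ, ℂ)) (x : ℝ) : ∫ s, deriv f s * pos s x = f x := by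
  have hz : Tendsto f atBot (𝓝 0) :=
    (f.tendsto_cocompact).mono_left atBot_le_cocompact
  have h1 : ∫ s in Iic x, deriv f s = f x - 0 :=
    integral_Iic_of_hasDerivAt_of_tendsto f.continuous.continuousWithinAt
      (fun s _ => (f.differentiable s).hasDerivAt) (deriv_int f).integrableOn hz
  rw [sub_zero, integral_Iic_eq_integral_Iio, ← integral_indicator measurableSet_Iio] at h1
  rw [← h1]
  congr 1
  funext s
  by_cases hs : s < x
  · rw [pos_of_lt hs, indicator_of_mem (show s ∈ Iio x from hs), mul_one]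
  · rw [pos_of_le (not_lt.1 hs), indicator_of_notMem (show s ∉ Iio x from hs), mul_zero]

theorem le_var (f : 𝓢(ℝ, ℂ)) (x : ℝ) : ‖f x‖ ≤ ∫ s, ‖deriv f s‖ := by
  rw [← repr f x]
  refine norm_integral_le_of_norm_le (deriv_int f).norm (ae_of_all _ fun s => ?_)
  rw [norm_mul]
  exact mul_le_of_le_one_right (norm_nonneg _) (pos_le s x)

theorem var_form {A ε R c₁ c₂ c₃ : ℝ} (hε : 0 < ε)
    (hA : ∀ s, FormBd (pos s) A ε R c₁ c₂ c₃) (f : 𝓢(ℝ, ℂ)) :
    FormBd f (A * ∫ s, ‖deriv f s‖) ε R c₁ c₂ c₃ := by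
  intro f₁ f₂ f₃ h₁ h₂ h₃
  have i0 := ph_integrable (R := R) (c₁ := c₁) (c₂ := c₂) (c₃ := c₃) hε h₁ h₂ h₃
  have i1 : Integrable (fun z : ℝ × (ℝ × ℝ) => deriv f z.1 *
      ph ε R c₁ c₂ c₃ f₁ f₂ f₃ z.2.1 z.2.2) (volume.prod volume) :=
    (deriv_int f).mul_prod i0
  have hm : AEStronglyMeasurable (fun z : ℝ × (ℝ × ℝ) => deriv f z.1 * (pos z.1 z.2.1 *
      ph ε R c₁ c₂ c₃ f₁ f₂ f₃ z.2.1 z.2.2)) (volume.prod volume) := by
    refine Measurable.aestronglyMeasurable ?_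
    refine ((measurable_deriv f).comp measurable_fst).mul ((pos_joint.comp
      (measurable_fst.prodMk (measurable_fst.comp measurable_snd))).mul
      ((ph_meas h₁.meas h₂.meas h₃.meas).comp measurable_snd))
  have i2 : Integrable (fun z : ℝ × (ℝ × ℝ) => deriv f z.1 * (pos z.1 z.2.1 *
      ph ε R c₁ c₂ c₃ f₁ f₂ f₃ z.2.1 z.2.2)) (volume.prod volume) := by
    refine i1.mono hm (ae_of_all _ fun z => ?_)
    rw [norm_mul, norm_mul, norm_mul]
    gcongr
    exact mul_le_of_le_one_left (norm_nonneg _) (pos_le _ _)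
  have e1 : ∫ p : ℝ × ℝ, f p.1 * ph ε R c₁ c₂ c₃ f₁ f₂ f₃ p.1 p.2 =
      ∫ s : ℝ, deriv f s * ∫ p : ℝ × ℝ, pos s p.1 * ph ε R c₁ c₂ c₃ f₁ f₂ f₃ p.1 p.2 := by
    have hsw := integral_integral_swap (f := fun (s : ℝ) (p : ℝ × ℝ) => deriv f s * (pos s p.1 *
      ph ε R c₁ c₂ c₃ f₁ f₂ f₃ p.1 p.2)) (μ := volume) (ν := volume) i2
    simp only [integral_const_mul] at hsw
    rw [hsw]
    congr 1
    funext p
    have e2 : ∀ s, deriv f s * (pos s p.1 * ph ε R c₁ c₂ c₃ f₁ f₂ f₃ p.1 p.2) =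
        (deriv f s * pos s p.1) * ph ε R c₁ c₂ c₃ f₁ f₂ f₃ p.1 p.2 := fun s => by ring
    simp only [e2]
    rw [integral_mul_const, repr]
  rw [e1]
  have hb : ∀ s, ‖deriv f s * ∫ p : ℝ × ℝ, pos s p.1 * ph ε R c₁ c₂ c₃ f₁ f₂ f₃ p.1 p.2‖ ≤
      ‖deriv f s‖ * (A * ((eLpNorm f₁ 3 volume).toReal * (eLpNorm f₂ 3 volume).toReal *
        (eLpNorm f₃ 3 volume).toReal)) := by
    intro s
    rw [norm_mul]
    gcongr
    exact hA s f₁ f₂ f₃ h₁ h₂ h₃
  refine (norm_integral_le_of_norm_le ((deriv_int f).norm.mul_const _)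
    (ae_of_all _ hb)).trans (le_of_eq ?_)
  rw [integral_mul_const]
  ring

/-- **the truncated operator with one function of bounded variation in the first place** -/
theorem var_oper {α₁ α₂ α₃ : ℝ} (h2 : α₂ ≠ 0) (h3 : α₃ ≠ 0) (h23 : α₂ ≠ α₃) :
    ∃ A : ℝ, 0 ≤ A ∧ ∀ ε R : ℝ, 0 < ε → ε < R → ∀ f f₂ f₃ : 𝓢(ℝ, ℂ),
      eLpNorm (TT ε R α₁ α₂ α₃ f f₂ f₃) (3 / 2) volume ≤
        ENNReal.ofReal (A * ∫ s, ‖deriv f s‖) * eLpNorm f₂ 3 volume * eLpNorm f₃ 3 volume := by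
  obtain ⟨A, hA0, hA⟩ := half (c₁ := -α₁) (c₂ := α₂ - α₁) (c₃ := α₃ - α₁)
    (fun h => h2 (by linarith)) (fun h => h3 (by linarith)) (fun h => h23 (by linarith))
  refine ⟨A, hA0, fun ε R hε hR f f₂ f₃ => ?_⟩
  set V : ℝ := ∫ s, ‖deriv f s‖ with hV
  have hV0 : 0 ≤ V := integral_nonneg fun s => norm_nonneg _
  rcases eq_or_lt_of_le hV0 with hz | hpos
  · have hf : (f : ℝ → ℂ) = 0 := by
      funext x
      have := le_var f x
      rw [← hV, ← hz] at this
      simpa using this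
    have e0 : TT ε R α₁ α₂ α₃ f f₂ f₃ = 0 := by
      funext x
      unfold TT ph FF
      rw [hf]
      simp
    rw [e0, eLpNorm_zero]
    exact bot_le
  · set D : ℝ → ℂ := fun x => ((V⁻¹ : ℝ) : ℂ) * f x with hD
    have mD : Measurable D := measurable_const.mul f.continuous.measurable
    have D1 : ∀ x, ‖D x‖ ≤ 1 := by
      intro x
      rw [hD]
      simp only
      rw [norm_mul, Complex.norm_real, Real.norm_of_nonneg (by positivity), inv_mul_le_iff₀ hpos,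
        mul_one]
      exact le_var f x
    have bD : FormBd D A ε R (-α₁) (α₂ - α₁) (α₃ - α₁) := by
      intro g₁ g₂ g₃ h₁ h₂ h₃
      have key := var_form hε (fun s => hA s ε R hε hR) f g₁ g₂ g₃ h₁ h₂ h₃
      have e : ∫ p : ℝ × ℝ, D p.1 * ph ε R (-α₁) (α₂ - α₁) (α₃ - α₁) g₁ g₂ g₃ p.1 p.2 =
          ((V⁻¹ : ℝ) : ℂ) * ∫ p : ℝ × ℝ, f p.1 *
            ph ε R (-α₁) (α₂ - α₁) (α₃ - α₁) g₁ g₂ g₃ p.1 p.2 := by
        rw [← integral_const_mul]
        congr 1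
        funext p
        rw [hD]
        ring
      rw [e, norm_mul, Complex.norm_real, Real.norm_of_nonneg (by positivity),
        inv_mul_le_iff₀ hpos]
      refine key.trans (le_of_eq ?_)
      ring
    have key := oper mD D1 hA0 hε bD (Vale.Agent.P141.H115.nice_schwartz f₂) (Vale.Agent.P141.H115.nice_schwartz f₃)
    have e : TT ε R α₁ α₂ α₃ f f₂ f₃ = ((V : ℝ) : ℂ) • TT ε R α₁ α₂ α₃ D f₂ f₃ := by
      funext x
      rw [Pi.smul_apply, smul_eq_mul]
      unfold TT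
      rw [← integral_const_mul]
      congr 1
      funext t
      unfold ph FF
      rw [hD]
      simp only
      have hc : ((V : ℝ) : ℂ) * ((V⁻¹ : ℝ) : ℂ) = 1 := by
        rw [← Complex.ofReal_mul, mul_inv_cancel₀ hpos.ne', Complex.ofReal_one]
      linear_combination (-(uu ε R t * (f (x - α₁ * t) * f₂ (x - α₂ * t) * f₃ (x - α₃ * t)))) * hc
    rw [e, eLpNorm_const_smul]
    have e2 : ‖((V : ℝ) : ℂ)‖ₑ = ENNReal.ofReal V := by
      rw [← ofReal_norm, Complex.norm_real, Real.norm_of_nonneg hV0]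
    rw [e2, mul_comm A, ENNReal.ofReal_mul hV0, mul_assoc, mul_assoc]
    gcongr
    rw [← mul_assoc]
    exact key

end Vale.Agent.P141.R2.H4
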