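import Vale.Agent.P141.R2.H4.Cls
import Vale.Agent.P141.R2.H4.Var
import Vale.Agent.P141.R2.H864.LargeT

/-!
# Averages over intervals, all exponents at least `3`
-/

namespace Vale.Agent.P141.R2.H4

open MeasureTheory Set Filter Topology Vale.Agent.P141.H97 Vale.Agent.P141.R2.H152
open Vale.Agent.P141.H115
open scoped ENNReal SchwartzMap

/-- **averages of `T`** -/
theorem avg_all : ∃ C : ℝ, 0 ≤ C ∧ ∀ (p₁ p₂ p₃ r : ℝ≥0∞), IsHolderTuple p₁ p₂ p₃ r → 3 ≤ p₁ →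
    3 ≤ p₂ → 3 ≤ p₃ → ∀ (f₁ f₂ f₃ : 𝓢(ℝ, ℂ)) (a b : ℝ), a ≤ b →
    ‖∫ x in a..b, THT f₁ f₂ f₃ x‖ ≤ C * r.toReal * (b - a) ^ (1 - 1 / r.toReal) *
      ((eLpNorm f₁ p₁ volume).toReal * (eLpNorm f₂ p₂ volume).toReal *
        (eLpNorm f₃ p₃ volume).toReal) := by
  obtain ⟨A, hA0, hA⟩ := avg_small
  refine ⟨A + 4, by positivity, ?_⟩
  intro p₁ p₂ p₃ r h q₁ q₂ q₃ f₁ f₂ f₃ a b hab
  set Q : ℝ := (eLpNorm f₁ p₁ volume).toReal * (eLpNorm f₂ p₂ volume).toReal *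
        (eLpNorm f₃ p₃ volume).toReal with hQ
  have hQn : 0 ≤ Q := by positivity
  rcases eq_or_lt_of_le hab with heq | hlt
  · rw [heq, intervalIntegral.integral_same, norm_zero, sub_self]
    have : (0 : ℝ) ≤ (0 : ℝ) ^ (1 - 1 / r.toReal) := Real.rpow_nonneg le_rfl _
    have := ENNReal.toReal_nonneg (a := r)
    positivity
  have hs : 0 < b - a := by linarith
  have hr := tuple_real h
  have t₁ := inv_le_third q₁
  have t₂ := inv_le_third q₂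
  have t₃ := inv_le_third q₃
  have hr0 : 0 < r.toReal := ENNReal.toReal_pos h.r_pos.ne' h.r_lt_top.ne
  have hr1 : 1 ≤ r.toReal := by
    have h1 : 1 / r.toReal ≤ 1 := by rw [hr]; linarith
    rwa [div_le_one hr0] at h1
  refine tht_interval f₁ f₂ f₃ hs (le_refl (b - a)) fun ε R hε hεs hR => ?_
  have n₁ := nice_schwartz f₁
  have n₂ := nice_schwartz f₂
  have n₃ := nice_schwartz f₃
  have i1 : IntervalIntegrable (TT ε (b - a) 1 2 3 f₁ f₂ f₃) volume a b :=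
    (TT_integrable hε n₁ n₂ n₃).intervalIntegrable
  have i2 : IntervalIntegrable (TT (b - a) R 1 2 3 f₁ f₂ f₃) volume a b :=
    (TT_integrable hs n₁ n₂ n₃).intervalIntegrable
  have e : ∫ x in a..b, TT ε R 1 2 3 f₁ f₂ f₃ x =
      (∫ x in a..b, TT ε (b - a) 1 2 3 f₁ f₂ f₃ x) +
        ∫ x in a..b, TT (b - a) R 1 2 3 f₁ f₂ f₃ x := by
    rw [← intervalIntegral.integral_add i1 i2]
    congr 1
    funext x
    exact H115.TT_split hε hεs hR n₁ n₂ n₃ x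
  have b1 := hA p₁ p₂ p₃ r h q₁ q₂ q₃ f₁ f₂ f₃ a b ε hε hεs
  have b2 : ‖∫ x in a..b, TT (b - a) R 1 2 3 f₁ f₂ f₃ x‖ ≤
      (4 * r.toReal * (b - a) ^ (-(1 / r.toReal)) * Q) * |b - a| :=
    intervalIntegral.norm_integral_le_of_norm_le_const fun x _ =>
      H864.large_t h q₁ q₂ q₃ n₁ n₂ n₃ hs x
  rw [abs_of_pos hs] at b2
  have e2 : (b - a) ^ (1 - 1 / r.toReal) = (b - a) ^ (-(1 / r.toReal)) * (b - a) := by
    rw [← Real.rpow_add_one hs.ne']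
    congr 1
    ring
  have b3 : (4 * r.toReal * (b - a) ^ (-(1 / r.toReal)) * Q) * (b - a) =
      4 * r.toReal * (b - a) ^ (1 - 1 / r.toReal) * Q := by rw [e2]; ring
  rw [b3] at b2
  rw [e]
  have hp : 0 ≤ (b - a) ^ (1 - 1 / r.toReal) := by positivity
  calc _ ≤ A * (b - a) ^ (1 - 1 / r.toReal) * Q +
        4 * r.toReal * (b - a) ^ (1 - 1 / r.toReal) * Q := (norm_add_le _ _).trans (add_le_add b1 b2)
    _ ≤ A * r.toReal * (b - a) ^ (1 - 1 / r.toReal) * Q +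
        4 * r.toReal * (b - a) ^ (1 - 1 / r.toReal) * Q := by
        have : A * 1 ≤ A * r.toReal := by gcongr
        rw [mul_one] at this
        gcongr
    _ = _ := by ring

theorem var_norm (f : 𝓢(ℝ, ℂ)) :
    ENNReal.ofReal (∫ s, ‖deriv f s‖) = eLpNorm (deriv f) 1 volume := by
  rw [eLpNorm_one_eq_lintegral_enorm, ofReal_integral_norm_eq_lintegral_enorm (deriv_int f)]

/-- **`T` with one function of bounded variation** -/
theorem tht_var {α₁ α₂ α₃ : ℝ} (h2 : α₂ ≠ 0) (h3 : α₃ ≠ 0) (h23 : α₂ ≠ α₃) :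
    ∃ A : ℝ, 0 ≤ A ∧ ∀ f f₂ f₃ : 𝓢(ℝ, ℂ), ∀ ε R : ℝ, 0 < ε → ε < R →
      eLpNorm (TT ε R α₁ α₂ α₃ f f₂ f₃) (3 / 2) volume ≤
        ENNReal.ofReal A * eLpNorm (deriv f) 1 volume * eLpNorm f₂ 3 volume *
          eLpNorm f₃ 3 volume := by
  obtain ⟨A, hA0, hA⟩ := var_oper (α₁ := α₁) h2 h3 h23
  refine ⟨A, hA0, fun f f₂ f₃ ε R hε hR => (hA ε R hε hR f f₂ f₃).trans (le_of_eq ?_)⟩
  rw [ENNReal.ofReal_mul hA0, var_norm]

end Vale.Agent.P141.R2.H4
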