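import Vale.Agent.P141.R2.H4.Avg
import Vale.Agent.P141.R2.H131.Bv

/-!
# Piecewise regular functions
-/

namespace Vale.Agent.P141.R2.H4

open MeasureTheory Set Filter Topology Vale.Agent.P141.H97 Vale.Agent.P141.R2.H152
open Vale.Agent.P141.H115
open scoped ENNReal SchwartzMap

/-- an amplitude bounded by one and of total variation at most one, times a quadratic phase -/
def Reg (P : ℝ → ℂ) : Prop :=
  ∃ (u : ℝ → ℂ) (a b : ℝ), (∀ x, ‖u x‖ ≤ 1) ∧ eVariationOn u univ ≤ 1 ∧
    ∀ x, P x = u x * Complex.exp (Complex.I * ((a * x ^ 2 + b * x : ℝ) : ℂ))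

/-- `N` consecutive intervals, a regular function on each -/
def Pieces (N : ℕ) (D : ℝ → ℂ) : Prop :=
  ∃ (k : ℝ → ℕ) (P : ℕ → ℝ → ℂ), Monotone k ∧ (∀ x, k x < N) ∧ (∀ j, Reg (P j)) ∧
    ∀ x, D x = P (k x) x

theorem Reg.meas {P : ℝ → ℂ} (h : Reg P) : Measurable P := by
  obtain ⟨u, a, b, h1, h2, hP⟩ := h
  have : P = fun x => u x * Complex.exp (Complex.I * ((a * x ^ 2 + b * x : ℝ) : ℂ)) := funext hP
  rw [this]
  have h3 : Measurable fun x : ℝ => Complex.exp (Complex.I * ((a * x ^ 2 + b * x : ℝ) : ℂ)) :=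
    Continuous.measurable (by fun_prop)
  exact (H131.bv_meas h1 h2).mul h3

theorem norm_phase (y : ℝ) : ‖Complex.exp (Complex.I * (y : ℂ))‖ = 1 := by
  rw [mul_comm]; exact Complex.norm_exp_ofReal_mul_I y

theorem Reg.le {P : ℝ → ℂ} (h : Reg P) (x : ℝ) : ‖P x‖ ≤ 1 := by
  obtain ⟨u, a, b, h1, -, hP⟩ := h
  rw [hP, norm_mul, norm_phase, mul_one]
  exact h1 x

theorem var_const (z : ℂ) : eVariationOn (fun _ : ℝ => z) univ ≤ 1 := by
  have : eVariationOn (fun _ : ℝ => z) univ = 0 := eVariationOn.constant_on (by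
    rintro _ ⟨_, -, rfl⟩ _ ⟨_, -, rfl⟩
    rfl)
  rw [this]
  exact zero_le_one

theorem reg_zero : Reg fun _ => 0 :=
  ⟨fun _ => 0, 0, 0, fun x => by simp, var_const 0, fun x => by simp⟩

theorem reg_phase (a b c : ℝ) :
    Reg fun x => Complex.exp (Complex.I * ((a * x ^ 2 + b * x + c : ℝ) : ℂ)) := by
  refine ⟨fun _ => Complex.exp (Complex.I * (c : ℂ)), a, b, fun x => by rw [norm_phase],
    var_const _, fun x => ?_⟩
  simp only
  rw [← Complex.exp_add]
  congr 1
  push_cast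
  ring

theorem Pieces.le {N : ℕ} {D : ℝ → ℂ} (h : Pieces N D) (x : ℝ) : ‖D x‖ ≤ 1 := by
  obtain ⟨k, P, -, -, hP, hD⟩ := h
  rw [hD]
  exact (hP _).le x

theorem Pieces.meas {N : ℕ} {D : ℝ → ℂ} (h : Pieces N D) : Measurable D := by
  obtain ⟨k, P, hk, -, hP, hD⟩ := h
  have e : D = fun x => P (k x) x := funext hD
  rw [e]
  have hkm : Measurable k := hk.measurable
  have : Measurable fun z : ℕ × ℝ => P z.1 z.2 := measurable_from_prod_countable_right
    fun j => (hP j).meas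
  exact this.comp (hkm.prodMk measurable_id)

/-- the number of breakpoints to the left of `x` -/
noncomputable def cnt (N : ℕ) (a : ℕ → ℝ) (x : ℝ) : ℕ :=
  ((Finset.range (N + 1)).filter fun j => a j < x).card

theorem cnt_mono (N : ℕ) (a : ℕ → ℝ) : Monotone (cnt N a) := by
  intro x y hxy
  apply Finset.card_le_card
  intro j hj
  rw [Finset.mem_filter] at hj ⊢
  exact ⟨hj.1, hj.2.trans_le hxy⟩

theorem cnt_lt (N : ℕ) (a : ℕ → ℝ) (x : ℝ) : cnt N a x < N + 2 := by
  have := Finset.card_filter_le (Finset.range (N + 1)) (fun j => a j < x)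
  rw [Finset.card_range] at this
  unfold cnt
  omega

theorem cnt_mem {N : ℕ} {a : ℕ → ℝ} (ha : Monotone a) {x : ℝ} {j : ℕ} (hj : j < N)
    (hx : x ∈ Ioc (a j) (a (j + 1))) : cnt N a x = j + 1 := by
  have : (Finset.range (N + 1)).filter (fun i => a i < x) = Finset.range (j + 1) := by
    ext i
    rw [Finset.mem_filter, Finset.mem_range, Finset.mem_range]
    constructor
    · rintro ⟨-, h⟩
      by_contra hc
      exact absurd (h.trans_le hx.2) (not_lt.2 (ha (by omega)))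
    · intro h
      exact ⟨by omega, (ha (by omega)).trans_lt hx.1⟩
  unfold cnt
  rw [this, Finset.card_range]

theorem cnt_left {N : ℕ} {a : ℕ → ℝ} (ha : Monotone a) {x : ℝ} (hx : x ≤ a 0) :
    cnt N a x = 0 := by
  unfold cnt
  rw [Finset.card_eq_zero, Finset.filter_eq_empty_iff]
  intro i _
  exact not_lt.2 (hx.trans (ha (Nat.zero_le i)))

theorem cnt_right {N : ℕ} {a : ℕ → ℝ} (ha : Monotone a) {x : ℝ} (hx : a N < x) :
    cnt N a x = N + 1 := by
  unfold cnt
  rw [Finset.filter_true_of_mem, Finset.card_range]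
  intro i hi
  rw [Finset.mem_range] at hi
  exact (ha (by omega)).trans_lt hx

theorem cnt_cases {N : ℕ} {a : ℕ → ℝ} (x : ℝ) :
    x ≤ a 0 ∨ a N < x ∨ ∃ j < N, x ∈ Ioc (a j) (a (j + 1)) := by
  induction N with
  | zero => rcases le_or_gt x (a 0) with h | h
            · exact Or.inl h
            · exact Or.inr (Or.inl h)
  | succ n ih =>
    rcases ih with h | h | ⟨j, hj, hx⟩
    · exact Or.inl h
    · rcases le_or_gt x (a (n + 1)) with h2 | h2
      · exact Or.inr (Or.inr ⟨n, by omega, h, h2⟩)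
      · exact Or.inr (Or.inl h2)
    · exact Or.inr (Or.inr ⟨j, by omega, hx⟩)

/-- the pieces of a sum over `N` intervals -/
noncomputable def pc (N : ℕ) (Q : ℕ → ℝ → ℂ) (i : ℕ) : ℝ → ℂ :=
  if i = 0 ∨ i = N + 1 then fun _ => 0 else Q (i - 1)

theorem pc_reg (N : ℕ) {Q : ℕ → ℝ → ℂ} (hQ : ∀ j, Reg (Q j)) (i : ℕ) : Reg (pc N Q i) := by
  unfold pc
  by_cases h : i = 0 ∨ i = N + 1
  · rw [if_pos h]; exact reg_zero
  · rw [if_neg h]; exact hQ _

theorem sum_rep (N : ℕ) {a : ℕ → ℝ} (ha : Monotone a) (Q : ℕ → ℝ → ℂ) (x : ℝ) :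
    ∑ j ∈ Finset.range N, (Ioc (a j) (a (j + 1))).indicator (Q j) x = pc N Q (cnt N a x) x := by
  unfold pc
  rcases cnt_cases (N := N) (a := a) x with h | h | ⟨j, hj, hx⟩
  · rw [cnt_left ha h, if_pos (Or.inl rfl)]
    refine Finset.sum_eq_zero fun j _ => indicator_of_notMem (fun hc => ?_) _
    exact absurd (hc.1.trans_le h) (not_lt.2 (ha (Nat.zero_le j)))
  · rw [cnt_right ha h, if_pos (Or.inr rfl)]
    refine Finset.sum_eq_zero fun j hj => indicator_of_notMem (fun hc => ?_) _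
    rw [Finset.mem_range] at hj
    exact absurd (h.trans_le hc.2) (not_lt.2 (ha (by omega)))
  · rw [cnt_mem ha hj hx, if_neg (by omega), Nat.add_sub_cancel]
    rw [Finset.sum_eq_single j, indicator_of_mem hx]
    · intro i _ hij
      refine indicator_of_notMem (fun hc => ?_) _
      rcases lt_or_gt_of_ne hij with h | h
      · exact absurd (hx.1.trans_le hc.2) (not_lt.2 (ha (by omega)))
      · exact absurd (hc.1.trans_le hx.2) (not_lt.2 (ha (by omega)))
    · intro h
      exact absurd (Finset.mem_range.2 hj) h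

/-- a sum over `N` intervals is a piecewise function with `N + 2` pieces -/
theorem pieces_sum (N : ℕ) {a : ℕ → ℝ} (ha : Monotone a) (Q : ℕ → ℝ → ℂ) (hQ : ∀ j, Reg (Q j)) :
    Pieces (N + 2) fun x => ∑ j ∈ Finset.range N, (Ioc (a j) (a (j + 1))).indicator (Q j) x :=
  ⟨cnt N a, pc N Q, cnt_mono N a, cnt_lt N a, pc_reg N hQ, sum_rep N ha Q⟩

theorem TT_integrable {ε R c₁ c₂ c₃ : ℝ} (hε : 0 < ε) {f₁ f₂ f₃ : ℝ → ℂ} (h₁ : Nice f₁)
    (h₂ : Nice f₂) (h₃ : Nice f₃) : Integrable (TT ε R c₁ c₂ c₃ f₁ f₂ f₃) volume := by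
  have h := ph_integrable (R := R) (c₁ := c₁) (c₂ := c₂) (c₃ := c₃) hε h₁ h₂ h₃
  rw [Measure.volume_eq_prod] at h
  exact h.integral_prod_left

/-- a unimodular factor -/
theorem unimod (z : ℂ) : ∃ φ : ℝ, Complex.exp (Complex.I * (φ : ℂ)) * z = (‖z‖ : ℂ) := by
  refine ⟨-Complex.arg z, ?_⟩
  nth_rewrite 2 [← Complex.norm_mul_exp_arg_mul_I z]
  rw [mul_left_comm, ← Complex.exp_add]
  have : Complex.I * ((-Complex.arg z : ℝ) : ℂ) + (Complex.arg z : ℂ) * Complex.I = 0 := by
    push_cast; ring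
  rw [this, Complex.exp_zero, mul_one]

/-- the averages over `N` intervals of the truncated operator -/
theorem sum_trunc {N : ℕ} {A ε R : ℝ} (hε : 0 < ε) {a : ℕ → ℝ} (ha : Monotone a)
    (H : ∀ Q : ℕ → ℝ → ℂ, (∀ j, Reg (Q j)) → FormBd (fun x => ∑ j ∈ Finset.range N,
      (Ioc (a j) (a (j + 1))).indicator (Q j) x) A ε R 1 2 3)
    (α β : ℕ → ℝ) (f g h : 𝓢(ℝ, ℂ)) :
    ∑ k ∈ Finset.range N, ‖∫ x in a k..a (k + 1),
      Complex.exp (Complex.I * ((α k * x ^ 2 + β k * x : ℝ) : ℂ)) * TT ε R 1 2 3 f g h x‖ ≤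
      A * ((eLpNorm f 3 volume).toReal * (eLpNorm g 3 volume).toReal *
        (eLpNorm h 3 volume).toReal) := by
  set z : ℕ → ℂ := fun k => ∫ x in a k..a (k + 1),
      Complex.exp (Complex.I * ((α k * x ^ 2 + β k * x : ℝ) : ℂ)) * TT ε R 1 2 3 f g h x with hz
  choose φ hφ using fun k => unimod (z k)
  set Q : ℕ → ℝ → ℂ := fun k x =>
    Complex.exp (Complex.I * ((α k * x ^ 2 + β k * x + φ k : ℝ) : ℂ)) with hQ
  have hD := pieces_sum N ha Q fun j => reg_phase _ _ _
  have key := pairing hD.meas hD.le hε (H _ fun j => reg_phase _ _ _) (nice_schwartz f) (nice_schwartz g)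
    (nice_schwartz h)
  have hT := TT_integrable (R := R) (c₁ := 1) (c₂ := 2) (c₃ := 3) hε (nice_schwartz f)
    (nice_schwartz g) (nice_schwartz h)
  have hi : ∀ k, Integrable (fun x => (Ioc (a k) (a (k + 1))).indicator (Q k) x *
      TT ε R 1 2 3 f g h x) volume := by
    intro k
    have hm : Measurable ((Ioc (a k) (a (k + 1))).indicator (Q k)) :=
      (reg_phase _ _ _).meas.indicator measurableSet_Ioc
    refine hT.mono (hm.aestronglyMeasurable.mul hT.1) (ae_of_all _ fun x => ?_)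
    rw [norm_mul]
    refine mul_le_of_le_one_left (norm_nonneg _) ((norm_indicator_le_norm_self _ _).trans ?_)
    exact (reg_phase _ _ _).le x
  have e1 : ∀ k, ∫ x, (Ioc (a k) (a (k + 1))).indicator (Q k) x * TT ε R 1 2 3 f g h x =
      (‖z k‖ : ℂ) := by
    intro k
    rw [← hφ k, hz]
    simp only
    rw [intervalIntegral.integral_of_le (ha (Nat.le_succ k)), ← integral_const_mul,
      ← integral_indicator measurableSet_Ioc]
    congr 1
    funext x
    by_cases hx : x ∈ Ioc (a k) (a (k + 1))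
    · rw [indicator_of_mem hx, indicator_of_mem hx, hQ]
      simp only
      rw [← mul_assoc, ← Complex.exp_add]
      congr 2
      push_cast
      ring
    · rw [indicator_of_notMem hx, indicator_of_notMem hx, zero_mul]
  have e2 : ∫ x, (∑ k ∈ Finset.range N, (Ioc (a k) (a (k + 1))).indicator (Q k) x) *
      TT ε R 1 2 3 f g h x = ∑ k ∈ Finset.range N, (‖z k‖ : ℂ) := by
    simp only [Finset.sum_mul]
    rw [integral_finsetSum _ fun k _ => hi k]
    exact Finset.sum_congr rfl fun k _ => e1 k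
  rw [e2, ← Complex.ofReal_sum, Complex.norm_real, Real.norm_of_nonneg
    (Finset.sum_nonneg fun k _ => norm_nonneg _)] at key
  exact key

/-- the averages over `N` intervals of `T` -/
theorem sum_tht {N : ℕ} {A : ℝ} {a : ℕ → ℝ} (ha : Monotone a)
    (H : ∀ ε R : ℝ, 0 < ε → ε < R → ∀ Q : ℕ → ℝ → ℂ, (∀ j, Reg (Q j)) →
      FormBd (fun x => ∑ j ∈ Finset.range N,
        (Ioc (a j) (a (j + 1))).indicator (Q j) x) A ε R 1 2 3) (α β : ℕ → ℝ) (f g h : 𝓢(ℝ, ℂ)) :
    ∑ k ∈ Finset.range N, ‖∫ x in a k..a (k + 1),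
      Complex.exp (Complex.I * ((α k * x ^ 2 + β k * x : ℝ) : ℂ)) * THT f g h x‖ ≤
      A * ((eLpNorm f 3 volume).toReal * (eLpNorm g 3 volume).toReal *
        (eLpNorm h 3 volume).toReal) := by
  obtain ⟨e, r, he0, he1, hr1, t1, t2⟩ := seqs 1 1 one_pos
  obtain ⟨K, hK⟩ := TT_unif f g h
  have hl : ∀ k, Tendsto (fun n => ∫ x in a k..a (k + 1),
      Complex.exp (Complex.I * ((α k * x ^ 2 + β k * x : ℝ) : ℂ)) *
        TT (e n) (r n) 1 2 3 f g h x) atTop
      (𝓝 (∫ x in a k..a (k + 1),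
        Complex.exp (Complex.I * ((α k * x ^ 2 + β k * x : ℝ) : ℂ)) * THT f g h x)) := by
    intro k
    have hm : Measurable fun x : ℝ =>
        Complex.exp (Complex.I * ((α k * x ^ 2 + β k * x : ℝ) : ℂ)) :=
      Continuous.measurable (by fun_prop)
    refine intervalIntegral.tendsto_integral_filter_of_dominated_convergence (fun _ => K)
      (Eventually.of_forall fun n => (hm.mul (TT_meas (nice_schwartz f)
        (nice_schwartz g) (nice_schwartz h))).aestronglyMeasurable)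
      (Eventually.of_forall fun n => ae_of_all _ fun x _ => ?_)
      intervalIntegrable_const (ae_of_all _ fun x _ => (lim_pt f g h t1 t2 x).const_mul _)
    rw [norm_mul, norm_phase, one_mul]
    exact hK _ _ x (he0 n) ((he1 n).trans (hr1 n))
  refine le_of_tendsto (tendsto_finsetSum _ fun k _ => (hl k).norm)
    (Eventually.of_forall fun n => ?_)
  exact sum_trunc (he0 n) ha (H _ _ (he0 n) ((he1 n).trans (hr1 n))) α β f g h

end Vale.Agent.P141.R2.H4
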