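import Vale.Agent.P141.R2.H4.Hardy
import Vale.Agent.P141.H115.Final

/-!
# The quadrilinear form with the indicator of a half-line in one place
-/

namespace Vale.Agent.P141.R2.H4

open MeasureTheory Set Filter Topology Vale.Agent.P141.H97 Vale.Agent.P141.R2.H152
open scoped ENNReal

theorem bk_ph (ε R c₁ c₂ c₃ : ℝ) (f₁ f₂ f₃ : ℝ → ℂ) (p : ℝ × ℝ) :
    bk ε R c₁ c₂ c₃ f₁ f₂ f₃ p = ph ε R c₁ c₂ c₃ f₁ f₂ f₃ p.1 p.2 := by
  unfold bk ph FF uu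
  by_cases ht : ε < |p.2| ∧ |p.2| < R
  · rw [if_pos ht, indicator_of_mem (show p.2 ∈ {t : ℝ | ε < |t| ∧ |t| < R} from ht),
      div_eq_mul_inv]
    ring
  · rw [if_neg ht, indicator_of_notMem (show p.2 ∉ {t : ℝ | ε < |t| ∧ |t| < R} from ht),
      zero_mul]

/-- the indicator of the half-line -/
noncomputable def pos (s : ℝ) : ℝ → ℂ := (Ioi s).indicator 1

theorem pos_meas (s : ℝ) : Measurable (pos s) := measurable_one.indicator measurableSet_Ioi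

theorem pos_01 (s y : ℝ) : pos s y = 0 ∨ pos s y = 1 := by
  unfold pos
  by_cases h : y ∈ Ioi s
  · right; rw [indicator_of_mem h]; rfl
  · left; rw [indicator_of_notMem h]

theorem pos_of_lt {s y : ℝ} (h : s < y) : pos s y = 1 := by
  unfold pos; rw [indicator_of_mem (show y ∈ Ioi s from h)]; rfl

theorem pos_of_le {s y : ℝ} (h : y ≤ s) : pos s y = 0 := by
  unfold pos; rw [indicator_of_notMem (show y ∉ Ioi s from not_lt.2 h)]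

theorem pos_le (s y : ℝ) : ‖pos s y‖ ≤ 1 := by
  rcases pos_01 s y with h | h <;> rw [h] <;> simp

theorem nice_pos {f : ℝ → ℂ} (h : Nice f) (s : ℝ) : Nice fun y => pos s y * f y := by
  obtain ⟨B, hB⟩ := h.bdd
  refine ⟨(pos_meas s).mul h.meas, ⟨B, fun x => ?_⟩, ?_⟩
  · rw [norm_mul]
    exact (mul_le_of_le_one_left (norm_nonneg _) (pos_le s x)).trans (hB x)
  · refine h.int.mono ((pos_meas s).mul h.meas).aestronglyMeasurable (ae_of_all _ fun x => ?_)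
    rw [norm_mul]
    exact mul_le_of_le_one_left (norm_nonneg _) (pos_le s x)

theorem norm_pos {f : ℝ → ℂ} (s : ℝ) (p : ℝ≥0∞) :
    eLpNorm (fun y => pos s y * f y) p volume ≤ eLpNorm f p volume := by
  refine eLpNorm_mono fun x => ?_
  rw [norm_mul]
  exact mul_le_of_le_one_left (norm_nonneg _) (pos_le s x)

/-- the sign of `x - c t` for small `t` -/
theorem sign {c κ x t : ℝ} (h : |c| * κ < 1) (ht : |t| < κ * |x|) :
    pos 0 (x - c * t) = pos 0 x := by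
  have hx : 0 < |x| := by
    by_contra h0
    have h1 : |x| = 0 := le_antisymm (not_lt.1 h0) (abs_nonneg _)
    rw [h1, mul_zero] at ht
    exact absurd ht (not_lt.2 (abs_nonneg _))
  have h1 : |c * t| < |x| := by
    rw [abs_mul]
    calc |c| * |t| ≤ |c| * (κ * |x|) := by gcongr
      _ = (|c| * κ) * |x| := by ring
      _ < 1 * |x| := mul_lt_mul_of_pos_right h hx
      _ = |x| := one_mul _
  rcases lt_or_ge 0 x with h0 | h0
  · rw [abs_of_pos h0] at h1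
    have h2 := abs_lt.1 h1
    rw [pos_of_lt h0, pos_of_lt (by linarith)]
  · rw [abs_of_nonpos h0] at h1
    have h2 := abs_lt.1 h1
    rw [pos_of_le h0, pos_of_le (by linarith)]

/-- the difference of the form with a half-line and the form of the restricted functions -/
theorem diff_le {c₁ c₂ c₃ κ ε R : ℝ} (h₁ : |c₁| * κ < 1) (h₂ : |c₂| * κ < 1) (h₃ : |c₃| * κ < 1)
    (f₁ f₂ f₃ : ℝ → ℂ) (p : ℝ × ℝ) :
    ‖pos 0 p.1 * ph ε R c₁ c₂ c₃ f₁ f₂ f₃ p.1 p.2 -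
      ph ε R c₁ c₂ c₃ (fun y => pos 0 y * f₁ y) (fun y => pos 0 y * f₂ y)
        (fun y => pos 0 y * f₃ y) p.1 p.2‖ₑ ≤
      kk κ p * (‖f₁ (p.1 - c₁ * p.2)‖ₑ * ‖f₂ (p.1 - c₂ * p.2)‖ₑ * ‖f₃ (p.1 - c₃ * p.2)‖ₑ) := by
  have e : pos 0 p.1 * ph ε R c₁ c₂ c₃ f₁ f₂ f₃ p.1 p.2 -
      ph ε R c₁ c₂ c₃ (fun y => pos 0 y * f₁ y) (fun y => pos 0 y * f₂ y)
        (fun y => pos 0 y * f₃ y) p.1 p.2 =
      (pos 0 p.1 - pos 0 (p.1 - c₁ * p.2) * pos 0 (p.1 - c₂ * p.2) * pos 0 (p.1 - c₃ * p.2)) *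
        (uu ε R p.2 * (f₁ (p.1 - c₁ * p.2) * f₂ (p.1 - c₂ * p.2) * f₃ (p.1 - c₃ * p.2))) := by
    unfold ph FF
    ring
  rw [e]
  by_cases h : κ * |p.1| ≤ |p.2|
  · unfold kk
    rw [indicator_of_mem (show p ∈ {p : ℝ × ℝ | κ * |p.1| ≤ |p.2|} from h), enorm_mul, enorm_mul,
      enorm_mul, enorm_mul]
    have a1 : ‖pos 0 p.1 - pos 0 (p.1 - c₁ * p.2) * pos 0 (p.1 - c₂ * p.2) *
        pos 0 (p.1 - c₃ * p.2)‖ₑ ≤ 1 := by
      rcases pos_01 0 p.1 with q0 | q0 <;> rcases pos_01 0 (p.1 - c₁ * p.2) with q1 | q1 <;>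
      rcases pos_01 0 (p.1 - c₂ * p.2) with q2 | q2 <;>
      rcases pos_01 0 (p.1 - c₃ * p.2) with q3 | q3 <;> rw [q0, q1, q2, q3] <;> simp
    have a2 : ‖uu ε R p.2‖ₑ ≤ ENNReal.ofReal |p.2|⁻¹ := by
      rw [← ofReal_norm, uu_norm]
      apply ENNReal.ofReal_le_ofReal
      unfold av
      by_cases ht : p.2 ∈ {t : ℝ | ε < |t| ∧ |t| < R}
      · rw [indicator_of_mem ht]
      · rw [indicator_of_notMem ht]; positivity
    calc _ ≤ 1 * (ENNReal.ofReal |p.2|⁻¹ * (‖f₁ (p.1 - c₁ * p.2)‖ₑ * ‖f₂ (p.1 - c₂ * p.2)‖ₑ *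
          ‖f₃ (p.1 - c₃ * p.2)‖ₑ)) := by gcongr
      _ = _ := one_mul _
  · have ht : |p.2| < κ * |p.1| := not_le.1 h
    rw [sign h₁ ht, sign h₂ ht, sign h₃ ht]
    have : pos 0 p.1 - pos 0 p.1 * pos 0 p.1 * pos 0 p.1 = 0 := by
      rcases pos_01 0 p.1 with q0 | q0 <;> rw [q0] <;> simp
    rw [this, zero_mul, enorm_zero]
    exact bot_le

/-- the half-line at the origin -/
theorem half0 {c₁ c₂ c₃ : ℝ} (h12 : c₁ ≠ c₂) (h13 : c₁ ≠ c₃) (h23 : c₂ ≠ c₃) :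
    ∃ A : ℝ, 0 ≤ A ∧ ∀ ε R : ℝ, 0 < ε → ε < R → FormBd (pos 0) A ε R c₁ c₂ c₃ := by
  obtain ⟨C₁, hC₁0, hC₁⟩ := Vale.Agent.P141.H115.bht
  set κ : ℝ := (1 + |c₁| + |c₂| + |c₃|)⁻¹ with hκ
  have hκ0 : 0 < κ := by positivity
  have hs : ∀ c : ℝ, |c| < 1 + |c₁| + |c₂| + |c₃| → |c| * κ < 1 := by
    intro c hc
    rw [hκ, ← div_eq_mul_inv, div_lt_one (by positivity)]
    exact hc
  have k₁ := hs c₁ (by have := abs_nonneg c₂; have := abs_nonneg c₃; linarith)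
  have k₂ := hs c₂ (by have := abs_nonneg c₁; have := abs_nonneg c₃; linarith)
  have k₃ := hs c₃ (by have := abs_nonneg c₂; have := abs_nonneg c₁; linarith)
  obtain ⟨C₂, hC₂t, hC₂⟩ := hardy hκ0 h12 h13 h23
  refine ⟨C₁ + C₂.toReal, by positivity, ?_⟩
  intro ε R hε hR f₁ f₂ f₃ h₁ h₂ h₃
  have l₁ := h₁.memLp (p := 3) (by norm_num) (by norm_num)
  have l₂ := h₂.memLp (p := 3) (by norm_num) (by norm_num)
  have l₃ := h₃.memLp (p := 3) (by norm_num) (by norm_num)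
  have g₁ := nice_pos h₁ 0
  have g₂ := nice_pos h₂ 0
  have g₃ := nice_pos h₃ 0
  have i1 := Dph_int (R := R) (c₁ := c₁) (c₂ := c₂) (c₃ := c₃) (pos_meas 0) (pos_le 0) hε h₁ h₂ h₃
  have i2 := ph_integrable (R := R) (c₁ := c₁) (c₂ := c₂) (c₃ := c₃) hε g₁ g₂ g₃
  have b1 : ‖∫ p : ℝ × ℝ, ph ε R c₁ c₂ c₃ (fun y => pos 0 y * f₁ y) (fun y => pos 0 y * f₂ y)
        (fun y => pos 0 y * f₃ y) p.1 p.2‖ ≤ C₁ * ((eLpNorm f₁ 3 volume).toReal *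
          (eLpNorm f₂ 3 volume).toReal * (eLpNorm f₃ 3 volume).toReal) := by
    have := hC₁ c₁ c₂ c₃ _ _ _ g₁ g₂ g₃ ε R hε hR
    simp only [bk_ph] at this
    refine this.trans ?_
    have n₁ := ENNReal.toReal_mono l₁.2.ne (norm_pos (f := f₁) 0 3)
    have n₂ := ENNReal.toReal_mono l₂.2.ne (norm_pos (f := f₂) 0 3)
    have n₃ := ENNReal.toReal_mono l₃.2.ne (norm_pos (f := f₃) 0 3)
    gcongr
  have b2 : ‖∫ p : ℝ × ℝ, (pos 0 p.1 * ph ε R c₁ c₂ c₃ f₁ f₂ f₃ p.1 p.2 -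
      ph ε R c₁ c₂ c₃ (fun y => pos 0 y * f₁ y) (fun y => pos 0 y * f₂ y)
        (fun y => pos 0 y * f₃ y) p.1 p.2)‖ ≤ C₂.toReal * ((eLpNorm f₁ 3 volume).toReal *
          (eLpNorm f₂ 3 volume).toReal * (eLpNorm f₃ 3 volume).toReal) := by
    have h0 := (enorm_integral_le_lintegral_enorm (μ := (volume : Measure (ℝ × ℝ)))
      (fun p : ℝ × ℝ => pos 0 p.1 * ph ε R c₁ c₂ c₃ f₁ f₂ f₃ p.1 p.2 -
      ph ε R c₁ c₂ c₃ (fun y => pos 0 y * f₁ y) (fun y => pos 0 y * f₂ y)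
        (fun y => pos 0 y * f₃ y) p.1 p.2)).trans ((lintegral_mono fun p =>
        diff_le k₁ k₂ k₃ f₁ f₂ f₃ p).trans (hC₂ f₁ f₂ f₃ h₁.meas h₂.meas h₃.meas))
    have ht : C₂ * (eLpNorm f₁ 3 volume * eLpNorm f₂ 3 volume * eLpNorm f₃ 3 volume) ≠ ∞ :=
      ENNReal.mul_ne_top hC₂t.ne (ENNReal.mul_ne_top (ENNReal.mul_ne_top l₁.2.ne l₂.2.ne) l₃.2.ne)
    have h2 := ENNReal.toReal_mono ht h0
    rw [ENNReal.toReal_mul, ENNReal.toReal_mul, ENNReal.toReal_mul, toReal_enorm] at h2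
    exact h2
  have e : ∫ p : ℝ × ℝ, pos 0 p.1 * ph ε R c₁ c₂ c₃ f₁ f₂ f₃ p.1 p.2 =
      (∫ p : ℝ × ℝ, ph ε R c₁ c₂ c₃ (fun y => pos 0 y * f₁ y) (fun y => pos 0 y * f₂ y)
        (fun y => pos 0 y * f₃ y) p.1 p.2) +
      ∫ p : ℝ × ℝ, (pos 0 p.1 * ph ε R c₁ c₂ c₃ f₁ f₂ f₃ p.1 p.2 -
      ph ε R c₁ c₂ c₃ (fun y => pos 0 y * f₁ y) (fun y => pos 0 y * f₂ y)
        (fun y => pos 0 y * f₃ y) p.1 p.2) := by
    rw [integral_sub i1 i2]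
    ring
  rw [e, add_mul]
  exact (norm_add_le _ _).trans (add_le_add b1 b2)

/-- **the half-line bound** -/
theorem half {c₁ c₂ c₃ : ℝ} (h12 : c₁ ≠ c₂) (h13 : c₁ ≠ c₃) (h23 : c₂ ≠ c₃) :
    ∃ A : ℝ, 0 ≤ A ∧ ∀ s ε R : ℝ, 0 < ε → ε < R → FormBd (pos s) A ε R c₁ c₂ c₃ := by
  obtain ⟨A, hA0, hA⟩ := half0 h12 h13 h23
  refine ⟨A, hA0, fun s ε R hε hR f₁ f₂ f₃ h₁ h₂ h₃ => ?_⟩
  have key := hA ε R hε hR _ _ _ (h₁.shift (-s)) (h₂.shift (-s)) (h₃.shift (-s))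
  rw [eLpNorm_shift h₁.meas, eLpNorm_shift h₂.meas, eLpNorm_shift h₃.meas] at key
  refine le_trans (le_of_eq ?_) key
  congr 1
  have mp : MeasurePreserving (fun p : ℝ × ℝ => p + (s, 0)) volume volume :=
    measurePreserving_add_right volume (s, 0)
  have emb : MeasurableEmbedding fun p : ℝ × ℝ => p + (s, 0) :=
    (MeasurableEquiv.addRight (s, (0 : ℝ))).measurableEmbedding
  rw [← mp.integral_comp emb]
  congr 1
  funext p
  have e0 : pos s (p + (s, 0)).1 = pos 0 p.1 := by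
    simp only [Prod.fst_add]
    rcases lt_or_ge 0 p.1 with h | h
    · rw [pos_of_lt h, pos_of_lt (by linarith)]
    · rw [pos_of_le h, pos_of_le (by linarith)]
  rw [e0]
  unfold ph FF
  simp only [Prod.fst_add, Prod.snd_add, add_zero]
  have e1 : ∀ c : ℝ, p.1 + s - c * p.2 = p.1 - c * p.2 - -s := fun c => by ring
  rw [e1, e1, e1]

end Vale.Agent.P141.R2.H4
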