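import Vale.Agent.P141.R2.H152.Oper
import Vale.Agent.P141.R2.H152.Bound

/-!
# A positive form supported away from the diagonal: `|t| ≥ κ |x|`
-/

namespace Vale.Agent.P141.R2.H4

open MeasureTheory Set Filter Topology
open scoped ENNReal

/-- the weight `|y|^(1/4)` -/
noncomputable def w (y : ℝ) : ℝ≥0∞ := ENNReal.ofReal (|y| ^ ((1 : ℝ) / 4))

/-- `|y|^(-1/2)` -/
noncomputable def v (y : ℝ) : ℝ≥0∞ := ENNReal.ofReal (|y| ^ (-(1 : ℝ) / 2))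

/-- the majorant of the kernel -/
noncomputable def G (A B u : ℝ) : ℝ :=
  (Iic (2 : ℝ)).indicator (fun u => A * u ^ (-(1 : ℝ) / 2)) u +
    (Ioi (2 : ℝ)).indicator (fun u => B * u ^ (-(3 : ℝ) / 2)) u

theorem G_int (A B : ℝ) : IntegrableOn (G A B) (Ioi 0) := by
  unfold G
  refine Integrable.add ?_ ?_
  · rw [integrable_indicator_iff measurableSet_Iic]
    have h : IntegrableOn (fun u : ℝ => A * u ^ (-(1 : ℝ) / 2)) (Ioc 0 2) :=
      ((intervalIntegrable_iff_integrableOn_Ioc_of_le (by norm_num)).1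
        (intervalIntegral.intervalIntegrable_rpow' (by norm_num))).const_mul A
    rw [IntegrableOn, Measure.restrict_restrict measurableSet_Iic]
    refine h.mono_set ?_
    rintro x ⟨h1, h2⟩
    exact ⟨h2, h1⟩
  · rw [integrable_indicator_iff measurableSet_Ioi]
    have h : IntegrableOn (fun u : ℝ => B * u ^ (-(3 : ℝ) / 2)) (Ioi 2) :=
      (integrableOn_Ioi_rpow_of_lt (by norm_num) (by norm_num)).const_mul B
    rw [IntegrableOn, Measure.restrict_restrict measurableSet_Ioi]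
    exact h.mono_set inter_subset_left

theorem G_abs_int (A B : ℝ) : Integrable fun u : ℝ => G A B |u| := by
  have h0 := G_int A B
  have hf : IntegrableOn (fun x => G A B |x|) (Ioi 0) :=
    h0.congr_fun (fun x hx => by rw [abs_of_pos hx]) measurableSet_Ioi
  have int_Iic : IntegrableOn (fun x ↦ G A B |x|) (Iic 0) := by
    rw [← Measure.map_neg_eq_self (volume : Measure ℝ)]
    let m : MeasurableEmbedding fun x : ℝ => -x := (Homeomorph.neg ℝ).measurableEmbedding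
    rw [m.integrableOn_map_iff]
    simp_rw [Function.comp_def, abs_neg, neg_preimage, neg_Iic, neg_zero]
    exact Iff.mpr integrableOn_Ici_iff_integrableOn_Ioi hf
  rw [← integrableOn_univ, ← Iic_union_Ioi (a := (0 : ℝ))]
  exact int_Iic.union hf

/-- the scale-invariant one-dimensional integral -/
theorem J_lt {b c : ℝ} (hb : b ≠ 0) (hc : 0 < c) :
    ∫⁻ τ : ℝ, {τ : ℝ | c ≤ |τ|}.indicator (fun τ => ENNReal.ofReal |τ|⁻¹ * v (1 + b * τ)) τ < ∞ := by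
  have hb' : 0 < |b| := abs_pos.2 hb
  have hG : Integrable (fun τ : ℝ => G c⁻¹ (2 * |b|) |1 + b * τ|) := by
    have := ((G_abs_int c⁻¹ (2 * |b|)).comp_add_left 1).comp_mul_left' hb
    exact this
  refine lt_of_le_of_lt (lintegral_mono fun τ => ?_) hG.lintegral_lt_top
  by_cases hτ : c ≤ |τ|
  · have h0 : 0 < |τ| := hc.trans_le hτ
    rw [indicator_of_mem (show τ ∈ {τ : ℝ | c ≤ |τ|} from hτ)]
    unfold v
    rw [← ENNReal.ofReal_mul (by positivity)]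
    apply ENNReal.ofReal_le_ofReal
    set u := |1 + b * τ| with hu
    have hu0 : 0 ≤ u := abs_nonneg _
    unfold G
    by_cases h2 : u ≤ 2
    · rw [indicator_of_mem (show u ∈ Iic (2 : ℝ) from h2),
        indicator_of_notMem (show u ∉ Ioi (2 : ℝ) from not_lt.2 h2), add_zero]
      have : |τ|⁻¹ ≤ c⁻¹ := inv_anti₀ hc hτ
      gcongr
    · have h2' : 2 < u := not_le.1 h2
      rw [indicator_of_notMem (show u ∉ Iic (2 : ℝ) from h2),
        indicator_of_mem (show u ∈ Ioi (2 : ℝ) from h2'), zero_add]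
      have hupos : 0 < u := by linarith
      have h3 : u ≤ 1 + |b| * |τ| := by
        rw [hu, ← abs_mul]
        calc |1 + b * τ| ≤ |(1 : ℝ)| + |b * τ| := abs_add_le _ _
          _ = _ := by rw [abs_one]
      have h4 : u / 2 ≤ |b| * |τ| := by linarith
      have h5 : |τ|⁻¹ ≤ 2 * |b| * u⁻¹ := by
        rw [inv_le_comm₀ h0 (by positivity), mul_inv, inv_inv, mul_inv]
        calc 2⁻¹ * |b|⁻¹ * u = (u / 2) / |b| := by field_simp
          _ ≤ |τ| := by rw [div_le_iff₀ hb']; linarith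
      have h6 : u ^ (-(3 : ℝ) / 2) = u⁻¹ * u ^ (-(1 : ℝ) / 2) := by
        rw [← Real.rpow_neg_one, ← Real.rpow_add hupos]
        norm_num
      rw [h6, ← mul_assoc]
      gcongr
  · rw [indicator_of_notMem (show τ ∉ {τ : ℝ | c ≤ |τ|} from hτ)]
    exact bot_le

/-- the kernel at `y`: scale invariance -/
theorem J_scale {b c : ℝ} (y : ℝ) (hy : y ≠ 0) :
    ∫⁻ t : ℝ, {t : ℝ | c * |y| ≤ |t|}.indicator (fun t => ENNReal.ofReal |t|⁻¹ *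
      (ENNReal.ofReal (|y| ^ ((1 : ℝ) / 2)) * v (y + b * t))) t =
    ∫⁻ τ : ℝ, {τ : ℝ | c ≤ |τ|}.indicator (fun τ => ENNReal.ofReal |τ|⁻¹ * v (1 + b * τ)) τ := by
  have hy' : 0 < |y| := abs_pos.2 hy
  set F : ℝ → ℝ≥0∞ := fun t => {t : ℝ | c * |y| ≤ |t|}.indicator (fun t => ENNReal.ofReal |t|⁻¹ *
      (ENNReal.ofReal (|y| ^ ((1 : ℝ) / 2)) * v (y + b * t))) t with hF
  have h1 := Vale.Agent.P141.R2.H152.lin1L y 0 hy F
  have h2 : ∫⁻ t, F t = ENNReal.ofReal |y| * ∫⁻ x, F (y * x + 0) := by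
    rw [h1, ← mul_assoc, ← ENNReal.ofReal_mul hy'.le, mul_inv_cancel₀ hy'.ne', ENNReal.ofReal_one,
      one_mul]
  rw [h2, ← lintegral_const_mul' _ _ ENNReal.ofReal_ne_top]
  apply lintegral_congr
  intro τ
  simp only [hF, add_zero]
  by_cases hτ : c ≤ |τ|
  · rw [indicator_of_mem (show τ ∈ {τ : ℝ | c ≤ |τ|} from hτ),
      indicator_of_mem (show y * τ ∈ {t : ℝ | c * |y| ≤ |t|} from by
        simp only [mem_ofPred_eq, abs_mul]; rw [mul_comm]; gcongr)]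
    unfold v
    rw [← ENNReal.ofReal_mul (by positivity), ← ENNReal.ofReal_mul (by positivity),
      ← ENNReal.ofReal_mul (by positivity), ← ENNReal.ofReal_mul (by positivity)]
    congr 1
    have e1 : |y + b * (y * τ)| = |y| * |1 + b * τ| := by rw [← abs_mul]; ring_nf
    rw [e1, abs_mul, Real.mul_rpow hy'.le (abs_nonneg _), mul_inv]
    have e2 : |y| ^ ((1 : ℝ) / 2) * |y| ^ (-(1 : ℝ) / 2) = 1 := by
      rw [← Real.rpow_add hy']; norm_num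
    calc |y| * (|y|⁻¹ * |τ|⁻¹ * (|y| ^ ((1 : ℝ) / 2) * (|y| ^ (-(1 : ℝ) / 2) *
        |1 + b * τ| ^ (-(1 : ℝ) / 2)))) = (|y| * |y|⁻¹) * (|y| ^ ((1 : ℝ) / 2) *
          |y| ^ (-(1 : ℝ) / 2)) * (|τ|⁻¹ * |1 + b * τ| ^ (-(1 : ℝ) / 2)) := by ring
      _ = _ := by rw [e2, mul_inv_cancel₀ hy'.ne']; ring
  · rw [indicator_of_notMem (show τ ∉ {τ : ℝ | c ≤ |τ|} from hτ),
      indicator_of_notMem (show y * τ ∉ {t : ℝ | c * |y| ≤ |t|} from by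
        simp only [mem_ofPred_eq, abs_mul, not_le]
        rw [mul_comm c]; exact mul_lt_mul_of_pos_left (not_le.1 hτ) hy'), mul_zero]

/-- the square root weight -/
noncomputable def r2 (y : ℝ) : ℝ≥0∞ := ENNReal.ofReal (|y| ^ ((1 : ℝ) / 2))

/-- the fourth root weight -/
noncomputable def v4 (y : ℝ) : ℝ≥0∞ := ENNReal.ofReal (|y| ^ (-(1 : ℝ) / 4))

theorem r2_meas : Measurable r2 := by unfold r2; fun_prop
theorem v4_meas : Measurable v4 := by unfold v4; fun_prop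
theorem v_meas : Measurable v := by unfold v; fun_prop

theorem v4_sq (y : ℝ) : v4 y * v4 y ≤ v y := by
  unfold v4 v
  rw [← ENNReal.ofReal_mul (by positivity)]
  apply ENNReal.ofReal_le_ofReal
  rcases eq_or_lt_of_le (abs_nonneg y) with h | h
  · rw [← h, Real.zero_rpow (by norm_num), Real.zero_rpow (by norm_num)]; simp
  · rw [← Real.rpow_add h]; norm_num

theorem v4_mul (y z : ℝ) : v4 y * v4 z ≤ v y + v z := by
  rcases le_total (v4 y) (v4 z) with h | h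
  · calc v4 y * v4 z ≤ v4 z * v4 z := by gcongr
      _ ≤ v z := v4_sq z
      _ ≤ _ := le_add_self
  · calc v4 y * v4 z ≤ v4 y * v4 y := by gcongr
      _ ≤ v y := v4_sq y
      _ ≤ _ := le_self_add

/-- the value of the scale-invariant integral -/
noncomputable def J (b c : ℝ) : ℝ≥0∞ :=
  ∫⁻ τ : ℝ, {τ : ℝ | c ≤ |τ|}.indicator (fun τ => ENNReal.ofReal |τ|⁻¹ * v (1 + b * τ)) τ

/-- the kernel -/
noncomputable def kk (κ : ℝ) (p : ℝ × ℝ) : ℝ≥0∞ :=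
  {p : ℝ × ℝ | κ * |p.1| ≤ |p.2|}.indicator (fun p => ENNReal.ofReal |p.2|⁻¹) p

theorem kk_meas (κ : ℝ) : Measurable (kk κ) := by
  unfold kk
  refine Measurable.indicator (by fun_prop) ?_
  exact measurableSet_le (by fun_prop) (by fun_prop)

theorem one_weight {κ α β γ : ℝ} (hκ : 0 < κ) {F : ℝ → ℝ≥0∞}
    (hF : Measurable F) :
    ∫⁻ p : ℝ × ℝ, kk κ p * (F (p.1 - α * p.2) * (r2 (p.1 - α * p.2) *
      (v4 (p.1 - β * p.2) * v4 (p.1 - γ * p.2)))) ≤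
      (J (α - β) (κ⁻¹ + |α|)⁻¹ + J (α - γ) (κ⁻¹ + |α|)⁻¹) * ∫⁻ x, F x := by
  set c : ℝ := (κ⁻¹ + |α|)⁻¹ with hc
  have hc0 : 0 < c := by positivity
  have hm : Measurable fun p : ℝ × ℝ => kk κ p * (F (p.1 - α * p.2) * (r2 (p.1 - α * p.2) *
      (v4 (p.1 - β * p.2) * v4 (p.1 - γ * p.2)))) := by
    refine (kk_meas κ).mul ((hF.comp (by fun_prop)).mul ((r2_meas.comp (by fun_prop)).mul
      ((v4_meas.comp (by fun_prop)).mul (v4_meas.comp (by fun_prop)))))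
  rw [← (Vale.Agent.P141.H97.cshear α).lintegral_comp hm]
  have hm' : Measurable fun p : ℝ × ℝ => kk κ (p.1 + α * p.2, p.2) *
      (F (p.1 + α * p.2 - α * p.2) * (r2 (p.1 + α * p.2 - α * p.2) *
      (v4 (p.1 + α * p.2 - β * p.2) * v4 (p.1 + α * p.2 - γ * p.2)))) :=
    hm.comp (by fun_prop : Measurable fun p : ℝ × ℝ => (p.1 + α * p.2, p.2))
  rw [Measure.volume_eq_prod, lintegral_prod _ hm'.aemeasurable,
    ← lintegral_const_mul _ hF]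
  refine lintegral_mono_ae ?_
  have h0 : ∀ᵐ x : ℝ, x ≠ 0 := by
    rw [ae_iff]; simp
  filter_upwards [h0] with y hy
  have hP : ∀ t : ℝ, kk κ (y + α * t, t) *
      (F (y + α * t - α * t) * (r2 (y + α * t - α * t) *
      (v4 (y + α * t - β * t) * v4 (y + α * t - γ * t)))) ≤
      F y * ({t : ℝ | c * |y| ≤ |t|}.indicator (fun t => ENNReal.ofReal |t|⁻¹ *
        (ENNReal.ofReal (|y| ^ ((1 : ℝ) / 2)) * v (y + (α - β) * t))) t +
        {t : ℝ | c * |y| ≤ |t|}.indicator (fun t => ENNReal.ofReal |t|⁻¹ *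
        (ENNReal.ofReal (|y| ^ ((1 : ℝ) / 2)) * v (y + (α - γ) * t))) t) := by
    intro t
    have e1 : y + α * t - α * t = y := by ring
    have e2 : y + α * t - β * t = y + (α - β) * t := by ring
    have e3 : y + α * t - γ * t = y + (α - γ) * t := by ring
    rw [e1, e2, e3]
    unfold kk
    by_cases h : κ * |y + α * t| ≤ |t|
    · rw [indicator_of_mem (show (y + α * t, t) ∈ {p : ℝ × ℝ | κ * |p.1| ≤ |p.2|} from h)]
      have h2 : |y| ≤ (κ⁻¹ + |α|) * |t| := by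
        have h3 : |y + α * t| ≤ κ⁻¹ * |t| := by
          rw [← div_eq_inv_mul, le_div_iff₀ hκ]; linarith
        calc |y| = |(y + α * t) - α * t| := by ring_nf
          _ ≤ |y + α * t| + |α * t| := abs_sub _ _
          _ ≤ κ⁻¹ * |t| + |α| * |t| := by rw [abs_mul α t]; gcongr
          _ = _ := by ring
      have h4 : c * |y| ≤ |t| := by
        rw [hc, ← div_eq_inv_mul, div_le_iff₀ (by positivity)]
        linarith
      rw [indicator_of_mem (show t ∈ {t : ℝ | c * |y| ≤ |t|} from h4),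
        indicator_of_mem (show t ∈ {t : ℝ | c * |y| ≤ |t|} from h4)]
      calc ENNReal.ofReal |t|⁻¹ * (F y * (r2 y * (v4 (y + (α - β) * t) * v4 (y + (α - γ) * t))))
          ≤ ENNReal.ofReal |t|⁻¹ * (F y * (r2 y * (v (y + (α - β) * t) + v (y + (α - γ) * t)))) := by
            gcongr
            exact v4_mul _ _
        _ = _ := by unfold r2; ring
    · rw [indicator_of_notMem (show (y + α * t, t) ∉ {p : ℝ × ℝ | κ * |p.1| ≤ |p.2|} from h),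
        zero_mul]
      exact bot_le
  refine (lintegral_mono hP).trans (le_of_eq ?_)
  have mi : ∀ b : ℝ, Measurable fun t : ℝ => {t : ℝ | c * |y| ≤ |t|}.indicator
      (fun t => ENNReal.ofReal |t|⁻¹ * (ENNReal.ofReal (|y| ^ ((1 : ℝ) / 2)) * v (y + b * t))) t := by
    intro b
    refine Measurable.indicator ?_ (measurableSet_le measurable_const measurable_abs)
    exact (by fun_prop : Measurable fun t : ℝ => ENNReal.ofReal |t|⁻¹).mul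
      (measurable_const.mul (v_meas.comp (by fun_prop)))
  have s1 := J_scale (b := α - β) (c := c) y hy
  have s2 := J_scale (b := α - γ) (c := c) y hy
  refine (lintegral_const_mul (F y) ((mi (α - β)).add (mi (α - γ)))).trans ?_
  have s3 := lintegral_add_left (mi (α - β)) (fun t : ℝ => {t : ℝ | c * |y| ≤ |t|}.indicator
      (fun t => ENNReal.ofReal |t|⁻¹ * (ENNReal.ofReal (|y| ^ ((1 : ℝ) / 2)) *
        v (y + (α - γ) * t))) t) (μ := volume)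
  rw [s1, s2] at s3
  rw [mul_comm]
  exact congrArg (· * F y) s3

/-- the product of the weights is `1` off the three lines -/
theorem weights {a b c : ℝ} (ha : a ≠ 0) (hb : b ≠ 0) (hc : c ≠ 0) :
    (r2 a * (v4 b * v4 c)) * (r2 b * (v4 a * v4 c)) * (r2 c * (v4 a * v4 b)) = 1 := by
  have key : ∀ y : ℝ, y ≠ 0 → r2 y * (v4 y * v4 y) = 1 := by
    intro y hy
    have hy' : 0 < |y| := abs_pos.2 hy
    unfold r2 v4
    rw [← ENNReal.ofReal_mul (by positivity), ← ENNReal.ofReal_mul (by positivity),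
      ← Real.rpow_add hy', ← Real.rpow_add hy']
    norm_num
  calc (r2 a * (v4 b * v4 c)) * (r2 b * (v4 a * v4 c)) * (r2 c * (v4 a * v4 b))
      = (r2 a * (v4 a * v4 a)) * (r2 b * (v4 b * v4 b)) * (r2 c * (v4 c * v4 c)) := by ring
    _ = 1 := by rw [key a ha, key b hb, key c hc]; simp

theorem line_ne (α : ℝ) : ∀ᵐ p : ℝ × ℝ, p.1 - α * p.2 ≠ 0 := by
  have h0 : ∀ᵐ x : ℝ, x ≠ 0 := by
    rw [ae_iff]; simp
  have h1 : ∀ᵐ p : ℝ × ℝ, p.1 ≠ 0 := by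
    have : ∀ᵐ p ∂((volume : Measure ℝ).prod (volume : Measure ℝ)), p.1 ≠ 0 :=
      Measure.quasiMeasurePreserving_fst.ae h0
    exact this
  have h2 := (Vale.Agent.P141.H97.cshear (-α)).quasiMeasurePreserving.ae h1
  filter_upwards [h2] with p hp
  intro h
  apply hp
  show p.1 + -α * p.2 = 0
  linarith

/-- Hoelder with weights -/
theorem hardy {c₁ c₂ c₃ κ : ℝ} (hκ : 0 < κ) (h12 : c₁ ≠ c₂) (h13 : c₁ ≠ c₃) (h23 : c₂ ≠ c₃) :
    ∃ C : ℝ≥0∞, C < ∞ ∧ ∀ f₁ f₂ f₃ : ℝ → ℂ, Measurable f₁ → Measurable f₂ → Measurable f₃ →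
      ∫⁻ p : ℝ × ℝ, kk κ p * (‖f₁ (p.1 - c₁ * p.2)‖ₑ * ‖f₂ (p.1 - c₂ * p.2)‖ₑ *
        ‖f₃ (p.1 - c₃ * p.2)‖ₑ) ≤
        C * (eLpNorm f₁ 3 volume * eLpNorm f₂ 3 volume * eLpNorm f₃ 3 volume) := by
  have hJ : ∀ b c : ℝ, b ≠ 0 → 0 < c → J b c < ∞ := fun b c hb hc => J_lt hb hc
  set K₁ : ℝ≥0∞ := J (c₁ - c₂) (κ⁻¹ + |c₁|)⁻¹ + J (c₁ - c₃) (κ⁻¹ + |c₁|)⁻¹ with hK₁
  set K₂ : ℝ≥0∞ := J (c₂ - c₁) (κ⁻¹ + |c₂|)⁻¹ + J (c₂ - c₃) (κ⁻¹ + |c₂|)⁻¹ with hK₂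
  set K₃ : ℝ≥0∞ := J (c₃ - c₁) (κ⁻¹ + |c₃|)⁻¹ + J (c₃ - c₂) (κ⁻¹ + |c₃|)⁻¹ with hK₃
  have l₁ : K₁ < ∞ := ENNReal.add_lt_top.2 ⟨hJ _ _ (sub_ne_zero.2 h12) (by positivity),
    hJ _ _ (sub_ne_zero.2 h13) (by positivity)⟩
  have l₂ : K₂ < ∞ := ENNReal.add_lt_top.2 ⟨hJ _ _ (sub_ne_zero.2 h12.symm) (by positivity),
    hJ _ _ (sub_ne_zero.2 h23) (by positivity)⟩
  have l₃ : K₃ < ∞ := ENNReal.add_lt_top.2 ⟨hJ _ _ (sub_ne_zero.2 h13.symm) (by positivity),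
    hJ _ _ (sub_ne_zero.2 h23.symm) (by positivity)⟩
  refine ⟨K₁ ^ ((1 : ℝ) / 3) * K₂ ^ ((1 : ℝ) / 3) * K₃ ^ ((1 : ℝ) / 3), ?_, ?_⟩
  · exact ENNReal.mul_lt_top (ENNReal.mul_lt_top
      (ENNReal.rpow_lt_top_of_nonneg (by norm_num) l₁.ne)
      (ENNReal.rpow_lt_top_of_nonneg (by norm_num) l₂.ne))
      (ENNReal.rpow_lt_top_of_nonneg (by norm_num) l₃.ne)
  intro f₁ f₂ f₃ m₁ m₂ m₃
  set F₁ : ℝ → ℝ≥0∞ := fun y => ‖f₁ y‖ₑ ^ (3 : ℝ) with hF₁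
  set F₂ : ℝ → ℝ≥0∞ := fun y => ‖f₂ y‖ₑ ^ (3 : ℝ) with hF₂
  set F₃ : ℝ → ℝ≥0∞ := fun y => ‖f₃ y‖ₑ ^ (3 : ℝ) with hF₃
  have n₁ : Measurable F₁ := m₁.enorm.pow_const _
  have n₂ : Measurable F₂ := m₂.enorm.pow_const _
  have n₃ : Measurable F₃ := m₃.enorm.pow_const _
  set M₁ : ℝ × ℝ → ℝ≥0∞ := fun p => kk κ p * (F₁ (p.1 - c₁ * p.2) * (r2 (p.1 - c₁ * p.2) *
      (v4 (p.1 - c₂ * p.2) * v4 (p.1 - c₃ * p.2)))) with hM₁
  set M₂ : ℝ × ℝ → ℝ≥0∞ := fun p => kk κ p * (F₂ (p.1 - c₂ * p.2) * (r2 (p.1 - c₂ * p.2) *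
      (v4 (p.1 - c₁ * p.2) * v4 (p.1 - c₃ * p.2)))) with hM₂
  set M₃ : ℝ × ℝ → ℝ≥0∞ := fun p => kk κ p * (F₃ (p.1 - c₃ * p.2) * (r2 (p.1 - c₃ * p.2) *
      (v4 (p.1 - c₁ * p.2) * v4 (p.1 - c₂ * p.2)))) with hM₃
  have mm : ∀ {F : ℝ → ℝ≥0∞} (_ : Measurable F) (α β γ : ℝ), Measurable fun p : ℝ × ℝ =>
      kk κ p * (F (p.1 - α * p.2) * (r2 (p.1 - α * p.2) *
      (v4 (p.1 - β * p.2) * v4 (p.1 - γ * p.2)))) := fun hF α β γ =>
    (kk_meas κ).mul ((hF.comp (by fun_prop)).mul ((r2_meas.comp (by fun_prop)).mul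
      ((v4_meas.comp (by fun_prop)).mul (v4_meas.comp (by fun_prop)))))
  have q₁ : Measurable M₁ := mm n₁ _ _ _
  have q₂ : Measurable M₂ := mm n₂ _ _ _
  have q₃ : Measurable M₃ := mm n₃ _ _ _
  set M : Fin 3 → ℝ × ℝ → ℝ≥0∞ := ![M₁, M₂, M₃] with hM
  have key := ENNReal.lintegral_prod_norm_pow_le (μ := (volume : Measure (ℝ × ℝ)))
    (Finset.univ : Finset (Fin 3)) (f := M) (p := fun _ => (1 : ℝ) / 3) (fun i _ => by
      fin_cases i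
      · exact q₁.aemeasurable
      · exact q₂.aemeasurable
      · exact q₃.aemeasurable) (by simp) (fun _ _ => by norm_num)
  simp only [Fin.prod_univ_three] at key
  have k0 : M 0 = M₁ := rfl
  have k1 : M 1 = M₂ := rfl
  have k2 : M 2 = M₃ := rfl
  rw [k0, k1, k2] at key
  have b₁ : ∫⁻ p, M₁ p ≤ K₁ * ∫⁻ x, F₁ x := one_weight hκ n₁
  have b₂ : ∫⁻ p, M₂ p ≤ K₂ * ∫⁻ x, F₂ x := one_weight hκ n₂
  have b₃ : ∫⁻ p, M₃ p ≤ K₃ * ∫⁻ x, F₃ x := one_weight hκ n₃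
  have e₁ : eLpNorm f₁ 3 volume = (∫⁻ x, F₁ x) ^ ((1 : ℝ) / 3) := H152.elp_nn f₁
  have e₂ : eLpNorm f₂ 3 volume = (∫⁻ x, F₂ x) ^ ((1 : ℝ) / 3) := H152.elp_nn f₂
  have e₃ : eLpNorm f₃ 3 volume = (∫⁻ x, F₃ x) ^ ((1 : ℝ) / 3) := H152.elp_nn f₃
  calc ∫⁻ p : ℝ × ℝ, kk κ p * (‖f₁ (p.1 - c₁ * p.2)‖ₑ * ‖f₂ (p.1 - c₂ * p.2)‖ₑ *
        ‖f₃ (p.1 - c₃ * p.2)‖ₑ)
      = ∫⁻ p, M₁ p ^ ((1 : ℝ) / 3) * M₂ p ^ ((1 : ℝ) / 3) * M₃ p ^ ((1 : ℝ) / 3) := by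
        apply lintegral_congr_ae
        filter_upwards [line_ne c₁, line_ne c₂, line_ne c₃] with p p₁ p₂ p₃
        simp only [hM₁, hM₂, hM₃, hF₁, hF₂, hF₃]
        rw [← ENNReal.mul_rpow_of_nonneg _ _ (by norm_num),
          ← ENNReal.mul_rpow_of_nonneg _ _ (by norm_num)]
        have hw := weights p₁ p₂ p₃
        have e : kk κ p * (‖f₁ (p.1 - c₁ * p.2)‖ₑ ^ (3 : ℝ) * (r2 (p.1 - c₁ * p.2) *
            (v4 (p.1 - c₂ * p.2) * v4 (p.1 - c₃ * p.2)))) *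
            (kk κ p * (‖f₂ (p.1 - c₂ * p.2)‖ₑ ^ (3 : ℝ) * (r2 (p.1 - c₂ * p.2) *
            (v4 (p.1 - c₁ * p.2) * v4 (p.1 - c₃ * p.2))))) *
            (kk κ p * (‖f₃ (p.1 - c₃ * p.2)‖ₑ ^ (3 : ℝ) * (r2 (p.1 - c₃ * p.2) *
            (v4 (p.1 - c₁ * p.2) * v4 (p.1 - c₂ * p.2))))) =
            (kk κ p * (‖f₁ (p.1 - c₁ * p.2)‖ₑ * ‖f₂ (p.1 - c₂ * p.2)‖ₑ *
            ‖f₃ (p.1 - c₃ * p.2)‖ₑ)) ^ (3 : ℝ) := by
          have e3 : (3 : ℝ) = ((3 : ℕ) : ℝ) := by norm_num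
          rw [e3]
          simp only [ENNReal.rpow_natCast]
          calc _ = (kk κ p * (‖f₁ (p.1 - c₁ * p.2)‖ₑ * ‖f₂ (p.1 - c₂ * p.2)‖ₑ *
              ‖f₃ (p.1 - c₃ * p.2)‖ₑ)) ^ 3 * ((r2 (p.1 - c₁ * p.2) * (v4 (p.1 - c₂ * p.2) *
              v4 (p.1 - c₃ * p.2))) * (r2 (p.1 - c₂ * p.2) * (v4 (p.1 - c₁ * p.2) *
              v4 (p.1 - c₃ * p.2))) * (r2 (p.1 - c₃ * p.2) * (v4 (p.1 - c₁ * p.2) *
              v4 (p.1 - c₂ * p.2)))) := by ring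
            _ = _ := by rw [hw, mul_one]
        rw [e, ← ENNReal.rpow_mul]
        norm_num
    _ ≤ (∫⁻ p, M₁ p) ^ ((1 : ℝ) / 3) * (∫⁻ p, M₂ p) ^ ((1 : ℝ) / 3) *
        (∫⁻ p, M₃ p) ^ ((1 : ℝ) / 3) := key
    _ ≤ (K₁ * ∫⁻ x, F₁ x) ^ ((1 : ℝ) / 3) * (K₂ * ∫⁻ x, F₂ x) ^ ((1 : ℝ) / 3) *
        (K₃ * ∫⁻ x, F₃ x) ^ ((1 : ℝ) / 3) := by gcongr
    _ = _ := by
        rw [ENNReal.mul_rpow_of_nonneg _ _ (by norm_num), ENNReal.mul_rpow_of_nonneg _ _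
          (by norm_num), ENNReal.mul_rpow_of_nonneg _ _ (by norm_num), e₁, e₂, e₃]
        ring

end Vale.Agent.P141.R2.H4
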