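import Vale.Agent.P141.R2.H4.Sums

/-!
# Hoelder functions of a monotone function (bounded `q`-variation)
-/

namespace Vale.Agent.P141.R2.H4

open MeasureTheory Set Filter Topology Vale.Agent.P141.H97 Vale.Agent.P141.R2.H152
open Vale.Agent.P141.H115
open scoped ENNReal SchwartzMap

/-- the dyadic pieces of a monotone function -/
noncomputable def kf (v : ℝ → ℝ) (m : ℕ) (x : ℝ) : ℕ := ⌊(2 : ℝ) ^ m * v x⌋₊

/-- a point of the piece -/
noncomputable def pt (v : ℝ → ℝ) (m j : ℕ) : ℝ := by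
  classical exact if h : ∃ x, kf v m x = j then h.choose else 0

/-- the step function -/
noncomputable def Dm (v : ℝ → ℝ) (D : ℝ → ℂ) (m : ℕ) (x : ℝ) : ℂ := D (pt v m (kf v m x))

theorem kf_pt (v : ℝ → ℝ) (m : ℕ) (x : ℝ) : kf v m (pt v m (kf v m x)) = kf v m x := by
  classical
  have h : ∃ y, kf v m y = kf v m x := ⟨x, rfl⟩
  unfold pt
  rw [dif_pos h]
  exact h.choose_spec

theorem kf_mono {v : ℝ → ℝ} (hv : Monotone v) (m : ℕ) : Monotone (kf v m) := by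
  intro x y hxy
  unfold kf
  exact Nat.floor_mono (by have := hv hxy; gcongr)

theorem kf_lt {v : ℝ → ℝ} (h1 : ∀ x, v x ≤ 1) (m : ℕ) (x : ℝ) : kf v m x < 2 ^ m + 1 := by
  unfold kf
  have h2 : (2 : ℝ) ^ m * v x ≤ ((2 ^ m : ℕ) : ℝ) := by
    push_cast
    have := h1 x
    have h3 : (0 : ℝ) ≤ 2 ^ m := by positivity
    nlinarith
  have := Nat.floor_le_of_le h2
  omega

theorem kf_half (v : ℝ → ℝ) (m : ℕ) (x : ℝ) : kf v m x = kf v (m + 1) x / 2 := by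
  unfold kf
  have h := Nat.floor_div_natCast ((2 : ℝ) ^ (m + 1) * v x) 2
  rw [← h]
  congr 1
  rw [pow_succ]
  push_cast
  ring

theorem kf_close {v : ℝ → ℝ} (h0 : ∀ x, 0 ≤ v x) {m : ℕ} {x y : ℝ} (h : kf v m x = kf v m y) :
    |v x - v y| ≤ ((2 : ℝ) ^ m)⁻¹ := by
  unfold kf at h
  have hp : (0 : ℝ) < 2 ^ m := by positivity
  have hx0 : 0 ≤ (2 : ℝ) ^ m * v x := mul_nonneg hp.le (h0 x)
  have hy0 : 0 ≤ (2 : ℝ) ^ m * v y := mul_nonneg hp.le (h0 y)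
  have a1 := Nat.floor_le hx0
  have a2 := Nat.lt_floor_add_one ((2 : ℝ) ^ m * v x)
  have b1 := Nat.floor_le hy0
  have b2 := Nat.lt_floor_add_one ((2 : ℝ) ^ m * v y)
  rw [h] at a1 a2
  have h3 : |(2 : ℝ) ^ m * (v x - v y)| ≤ 1 := by
    rw [abs_le]
    constructor <;> nlinarith
  rw [abs_mul, abs_of_pos hp] at h3
  rw [← one_div, le_div_iff₀ hp]
  linarith

section

variable {v : ℝ → ℝ} {D : ℝ → ℂ} {s : ℝ}

theorem pow_r (s : ℝ) (m : ℕ) : ((2 : ℝ) ^ m)⁻¹ ^ s = ((2 : ℝ) ^ (-s)) ^ m := by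
  rw [← Real.rpow_natCast, ← Real.rpow_natCast, ← Real.rpow_neg (by norm_num),
    ← Real.rpow_mul (by norm_num), ← Real.rpow_mul (by norm_num)]
  congr 1
  ring

theorem Dm_close (h0 : ∀ x, 0 ≤ v x) (hs : 0 < s) (hD : ∀ x y, ‖D x - D y‖ ≤ |v x - v y| ^ s)
    (m : ℕ) (x : ℝ) : ‖D x - Dm v D m x‖ ≤ ((2 : ℝ) ^ (-s)) ^ m := by
  refine (hD _ _).trans ?_
  rw [← pow_r]
  exact Real.rpow_le_rpow (abs_nonneg _) (kf_close h0 (kf_pt v m x).symm) hs.le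

theorem r_lt (hs : 0 < s) : (2 : ℝ) ^ (-s) < 1 :=
  Real.rpow_lt_one_of_one_lt_of_neg (by norm_num) (by linarith)

theorem diff_small (h0 : ∀ x, 0 ≤ v x) (hs : 0 < s)
    (hD : ∀ x y, ‖D x - D y‖ ≤ |v x - v y| ^ s) (m : ℕ) (x : ℝ) :
    ‖Dm v D (m + 1) x - Dm v D m x‖ ≤ 2 * ((2 : ℝ) ^ (-s)) ^ m := by
  have h1 := Dm_close h0 hs hD m x
  have h2 := Dm_close h0 hs hD (m + 1) x
  have hr : 0 ≤ (2 : ℝ) ^ (-s) := by positivity
  have h3 : ((2 : ℝ) ^ (-s)) ^ (m + 1) ≤ ((2 : ℝ) ^ (-s)) ^ m :=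
    pow_le_pow_of_le_one hr (r_lt hs).le (Nat.le_succ m)
  have e : Dm v D (m + 1) x - Dm v D m x =
      (D x - Dm v D m x) - (D x - Dm v D (m + 1) x) := by ring
  rw [e]
  refine (norm_sub_le _ _).trans ?_
  linarith

theorem reg_const {z : ℂ} (hz : ‖z‖ ≤ 1) : Reg fun _ => z :=
  ⟨fun _ => z, 0, 0, fun _ => hz, var_const z, fun x => by simp⟩

/-- the difference of consecutive step functions is a small step function -/
theorem diff_pieces (hv : Monotone v) (h0 : ∀ x, 0 ≤ v x) (h1 : ∀ x, v x ≤ 1) (hs : 0 < s)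
    (hD : ∀ x y, ‖D x - D y‖ ≤ |v x - v y| ^ s) (m : ℕ) :
    Pieces (2 ^ (m + 1) + 1) fun x => ((2 * ((2 : ℝ) ^ (-s)) ^ m : ℝ) : ℂ)⁻¹ *
      (Dm v D (m + 1) x - Dm v D m x) := by
  classical
  have hr : 0 < (2 : ℝ) ^ (-s) := by positivity
  have hρ : 0 < 2 * ((2 : ℝ) ^ (-s)) ^ m := by positivity
  refine ⟨kf v (m + 1), fun j _ => if h : ∃ x, kf v (m + 1) x = j then
    ((2 * ((2 : ℝ) ^ (-s)) ^ m : ℝ) : ℂ)⁻¹ * (Dm v D (m + 1) h.choose - Dm v D m h.choose) else 0,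
    kf_mono hv _, kf_lt h1 _, fun j => ?_, fun x => ?_⟩
  · by_cases h : ∃ x, kf v (m + 1) x = j
    · simp only [dif_pos h]
      refine reg_const ?_
      rw [norm_mul, norm_inv, Complex.norm_real, Real.norm_of_nonneg hρ.le,
        inv_mul_le_iff₀ hρ, mul_one]
      exact diff_small h0 hs hD m _
    · simp only [dif_neg h]
      exact reg_zero
  · have h : ∃ y, kf v (m + 1) y = kf v (m + 1) x := ⟨x, rfl⟩
    simp only [dif_pos h]
    have h2 := h.choose_spec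
    have e1 : Dm v D (m + 1) x = Dm v D (m + 1) h.choose := by unfold Dm; rw [h2]
    have e2 : Dm v D m x = Dm v D m h.choose := by
      unfold Dm
      rw [kf_half v m x, kf_half v m h.choose, h2]
    rw [e1, e2]

theorem first_pieces (hv : Monotone v) (h1 : ∀ x, v x ≤ 1) (hD1 : ∀ x, ‖D x‖ ≤ 1) :
    Pieces 2 (Dm v D 0) :=
  ⟨kf v 0, fun j _ => D (pt v 0 j), kf_mono hv 0, fun x => by simpa using kf_lt h1 0 x,
    fun j => reg_const (hD1 _), fun x => rfl⟩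

theorem Dm_meas (hv : Monotone v) (m : ℕ) : Measurable (Dm v D m) := by
  have h : Measurable (kf v m) := (kf_mono hv m).measurable
  exact (measurable_from_nat (f := fun j => D (pt v m j))).comp h

end

/-- **Hoelder functions of a monotone function** -/
theorem hol_form {c₁ c₂ c₃ : ℝ} (h12 : c₁ ≠ c₂) (h13 : c₁ ≠ c₃) (h23 : c₂ ≠ c₃) {s : ℝ}
    (hs : 0 < s) : ∃ C : ℝ, 0 ≤ C ∧ ∀ (v : ℝ → ℝ) (D : ℝ → ℂ), Monotone v → (∀ x, 0 ≤ v x) →
      (∀ x, v x ≤ 1) → (∀ x, ‖D x‖ ≤ 1) → (∀ x y, ‖D x - D y‖ ≤ |v x - v y| ^ s) →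
      ∀ ε R : ℝ, 0 < ε → ε < R → FormBd D C ε R c₁ c₂ c₃ := by
  obtain ⟨C, c0, H⟩ := pw h12 h13 h23
  set r : ℝ := (2 : ℝ) ^ (-s) with hr
  have hr0 : 0 < r := by positivity
  have hr1 : r < 1 := r_lt hs
  have hsum : Summable fun m : ℕ => 2 * r ^ m * (C * ((m : ℝ) + 3)) := by
    have s1 : Summable fun m : ℕ => (m : ℝ) ^ 1 * r ^ m :=
      summable_pow_mul_geometric_of_norm_lt_one 1 (by rw [Real.norm_of_nonneg hr0.le]; exact hr1)
    have s2 : Summable fun m : ℕ => r ^ m := summable_geometric_of_lt_one hr0.le hr1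
    have s3 := (s1.mul_left (2 * C)).add (s2.mul_left (6 * C))
    refine s3.congr fun m => ?_
    ring
  set W : ℝ := ∑' m : ℕ, 2 * r ^ m * (C * ((m : ℝ) + 3)) with hW
  have hW0 : 0 ≤ W := tsum_nonneg fun m => by positivity
  refine ⟨2 * C + W, by positivity, fun v D hv h0 h1 hD1 hD ε R hε hR => ?_⟩
  intro f₁ f₂ f₃ n₁ n₂ n₃
  set X : ℝ := (eLpNorm f₁ 3 volume).toReal * (eLpNorm f₂ 3 volume).toReal *
          (eLpNorm f₃ 3 volume).toReal with hX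
  have hX0 : 0 ≤ X := by positivity
  have bm : ∀ m x, ‖Dm v D m x‖ ≤ 1 := fun m x => hD1 _
  have im : ∀ m, Integrable (fun p : ℝ × ℝ => Dm v D m p.1 *
      ph ε R c₁ c₂ c₃ f₁ f₂ f₃ p.1 p.2) volume := fun m =>
    Dph_int (Dm_meas hv m) (bm m) hε n₁ n₂ n₃
  have hb : ∀ M : ℕ, ‖∫ p : ℝ × ℝ, Dm v D M p.1 * ph ε R c₁ c₂ c₃ f₁ f₂ f₃ p.1 p.2‖ ≤
      (2 * C + ∑ m ∈ Finset.range M, 2 * r ^ m * (C * ((m : ℝ) + 3))) * X := by
    intro M
    induction M with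
    | zero =>
      have h2 := H 2 _ (first_pieces hv h1 hD1) ε R hε hR f₁ f₂ f₃ n₁ n₂ n₃
      rw [Finset.range_zero, Finset.sum_empty, add_zero]
      refine h2.trans (mul_le_mul_of_nonneg_right ?_ hX0)
      have : Real.log ((2 : ℕ) : ℝ) ≤ 1 := by
        have := Real.log_two_lt_d9
        push_cast
        linarith
      nlinarith
    | succ n ih =>
      have h2 := H _ _ (diff_pieces hv h0 h1 hs hD n) ε R hε hR f₁ f₂ f₃ n₁ n₂ n₃
      have hρ : 0 < 2 * r ^ n := by positivity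
      have e1 : ∫ p : ℝ × ℝ, ((2 * r ^ n : ℝ) : ℂ)⁻¹ * (Dm v D (n + 1) p.1 - Dm v D n p.1) *
          ph ε R c₁ c₂ c₃ f₁ f₂ f₃ p.1 p.2 = ((2 * r ^ n : ℝ) : ℂ)⁻¹ *
          ((∫ p : ℝ × ℝ, Dm v D (n + 1) p.1 * ph ε R c₁ c₂ c₃ f₁ f₂ f₃ p.1 p.2) -
            ∫ p : ℝ × ℝ, Dm v D n p.1 * ph ε R c₁ c₂ c₃ f₁ f₂ f₃ p.1 p.2) := by
        rw [← integral_sub (im (n + 1)) (im n), ← integral_const_mul]
        congr 1
        funext p
        ring
      rw [e1, norm_mul, norm_inv, Complex.norm_real, Real.norm_of_nonneg hρ.le,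
        inv_mul_le_iff₀ hρ] at h2
      have h3 : Real.log ((2 ^ (n + 1) + 1 : ℕ) : ℝ) ≤ (n : ℝ) + 2 := by
        calc Real.log ((2 ^ (n + 1) + 1 : ℕ) : ℝ) ≤ Real.log ((2 : ℝ) ^ (n + 2)) := by
              apply Real.log_le_log (by positivity)
              push_cast
              have : (1 : ℝ) ≤ 2 ^ (n + 1) := one_le_pow₀ (by norm_num)
              rw [pow_succ (2 : ℝ) (n + 1)]
              linarith
          _ = ((n : ℝ) + 2) * Real.log 2 := by rw [Real.log_pow]; push_cast; ring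
          _ ≤ ((n : ℝ) + 2) * 1 := by
              have := Real.log_two_lt_d9
              have h5 : (0 : ℝ) ≤ (n : ℝ) + 2 := by positivity
              nlinarith
          _ = _ := mul_one _
      rw [Finset.sum_range_succ]
      have e2 : ∫ p : ℝ × ℝ, Dm v D (n + 1) p.1 * ph ε R c₁ c₂ c₃ f₁ f₂ f₃ p.1 p.2 =
          (∫ p : ℝ × ℝ, Dm v D n p.1 * ph ε R c₁ c₂ c₃ f₁ f₂ f₃ p.1 p.2) +
          ((∫ p : ℝ × ℝ, Dm v D (n + 1) p.1 * ph ε R c₁ c₂ c₃ f₁ f₂ f₃ p.1 p.2) -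
            ∫ p : ℝ × ℝ, Dm v D n p.1 * ph ε R c₁ c₂ c₃ f₁ f₂ f₃ p.1 p.2) := by ring
      rw [e2]
      refine (norm_add_le _ _).trans ?_
      have h6 : 2 * r ^ n * (C * (1 + Real.log ((2 ^ (n + 1) + 1 : ℕ) : ℝ)) * X) ≤
          2 * r ^ n * (C * ((n : ℝ) + 3)) * X := by
        have : C * (1 + Real.log ((2 ^ (n + 1) + 1 : ℕ) : ℝ)) ≤ C * ((n : ℝ) + 3) := by
          apply mul_le_mul_of_nonneg_left _ c0
          linarith
        calc 2 * r ^ n * (C * (1 + Real.log ((2 ^ (n + 1) + 1 : ℕ) : ℝ)) * X) ≤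
            2 * r ^ n * (C * ((n : ℝ) + 3) * X) := by gcongr
          _ = _ := by ring
      calc _ ≤ (2 * C + ∑ m ∈ Finset.range n, 2 * r ^ m * (C * ((m : ℝ) + 3))) * X +
            2 * r ^ n * (C * ((n : ℝ) + 3)) * X := add_le_add ih (h2.trans h6)
        _ = _ := by ring
  have hb' : ∀ M : ℕ, ‖∫ p : ℝ × ℝ, Dm v D M p.1 * ph ε R c₁ c₂ c₃ f₁ f₂ f₃ p.1 p.2‖ ≤
      (2 * C + W) * X := by
    intro M
    refine (hb M).trans (mul_le_mul_of_nonneg_right ?_ hX0)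
    have := hsum.sum_le_tsum (Finset.range M) (fun m _ => by positivity)
    linarith
  have hptw : ∀ x, Tendsto (fun M => Dm v D M x) atTop (𝓝 (D x)) := by
    intro x
    have h4 : Tendsto (fun M : ℕ => r ^ M) atTop (𝓝 0) :=
      tendsto_pow_atTop_nhds_zero_of_lt_one hr0.le hr1
    rw [tendsto_iff_norm_sub_tendsto_zero]
    refine squeeze_zero (fun M => norm_nonneg _) (fun M => ?_) h4
    rw [norm_sub_rev]
    exact Dm_close h0 hs hD M x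
  have hlim : Tendsto (fun M : ℕ => ∫ p : ℝ × ℝ, Dm v D M p.1 *
      ph ε R c₁ c₂ c₃ f₁ f₂ f₃ p.1 p.2) atTop
      (𝓝 (∫ p : ℝ × ℝ, D p.1 * ph ε R c₁ c₂ c₃ f₁ f₂ f₃ p.1 p.2)) := by
    refine tendsto_integral_of_dominated_convergence
      (fun p => ‖ph ε R c₁ c₂ c₃ f₁ f₂ f₃ p.1 p.2‖) (fun M => (im M).1)
      (ph_integrable hε n₁ n₂ n₃).norm (fun M => ae_of_all _ fun p => ?_)
      (ae_of_all _ fun p => (hptw p.1).mul_const _)
    rw [norm_mul]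
    exact mul_le_of_le_one_left (norm_nonneg _) (bm M _)
  exact le_of_tendsto hlim.norm (Eventually.of_forall hb')

theorem hol_meas {s : ℝ} (hs : 0 < s) {v : ℝ → ℝ} {D : ℝ → ℂ} (hv : Monotone v)
    (h0 : ∀ x, 0 ≤ v x) (hD : ∀ x y, ‖D x - D y‖ ≤ |v x - v y| ^ s) : Measurable D := by
  refine measurable_of_tendsto_metrizable (fun M => Dm_meas (D := D) hv M) ?_
  rw [tendsto_pi_nhds]
  intro x
  have h4 : Tendsto (fun M : ℕ => ((2 : ℝ) ^ (-s)) ^ M) atTop (𝓝 0) :=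
    tendsto_pow_atTop_nhds_zero_of_lt_one (by positivity) (r_lt hs)
  rw [tendsto_iff_norm_sub_tendsto_zero]
  refine squeeze_zero (fun M => norm_nonneg _) (fun M => ?_) h4
  rw [norm_sub_rev]
  exact Dm_close h0 hs hD M x

theorem hol_LH {s : ℝ} (hs : 0 < s) {v : ℝ → ℝ} {D : ℝ → ℂ} (hv : Monotone v)
    (hD : ∀ x y, ‖D x - D y‖ ≤ |v x - v y| ^ s) : ∀ᵐ x : ℝ, Pv.LH D x s := by
  filter_upwards [hv.ae_differentiableAt] with x hx
  obtain ⟨c, hc⟩ := hx.isBigO_sub.bound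
  rw [Metric.eventually_nhds_iff] at hc
  obtain ⟨δ, hδ, hc⟩ := hc
  refine ⟨|c| ^ s, δ, by positivity, hδ, fun h hh => ?_⟩
  have h1 := hc (y := x + h) (by rw [Real.dist_eq]; simpa using hh)
  rw [add_sub_cancel_left, Real.norm_eq_abs, Real.norm_eq_abs] at h1
  refine (hD _ _).trans ?_
  rw [← Real.mul_rpow (abs_nonneg _) (abs_nonneg _)]
  refine Real.rpow_le_rpow (abs_nonneg _) (h1.trans ?_) hs.le
  gcongr
  exact le_abs_self c

/-- **Hoelder functions of a monotone function: no loss** -/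
theorem hol_all {s : ℝ} (hs : 0 < s) (hs1 : s ≤ 1) : ∃ C : ℝ, ∀ (v : ℝ → ℝ) (D : ℝ → ℂ),
    Monotone v → (∀ x, 0 ≤ v x) → (∀ x, v x ≤ 1) → (∀ x, ‖D x‖ ≤ 1) →
      (∀ x y, ‖D x - D y‖ ≤ |v x - v y| ^ s) → Bdd4 C D := by
  obtain ⟨C0, c0, H0⟩ := hol_form (c₁ := 1) (c₂ := 2) (c₃ := 3) (by norm_num) (by norm_num)
    (by norm_num) hs
  obtain ⟨C1, c1, H1⟩ := hol_form (c₁ := -1) (c₂ := 2 - 1) (c₃ := 3 - 1) (by norm_num)
    (by norm_num) (by norm_num) hs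
  obtain ⟨C2, c2, H2⟩ := hol_form (c₁ := -2) (c₂ := 1 - 2) (c₃ := 3 - 2) (by norm_num)
    (by norm_num) (by norm_num) hs
  obtain ⟨C3, c3, H3⟩ := hol_form (c₁ := -3) (c₂ := 1 - 3) (c₃ := 2 - 3) (by norm_num)
    (by norm_num) (by norm_num) hs
  refine ⟨C0 + C1 + C2 + C3, fun v D hv h0 h1 hD1 hD => ?_⟩
  have up : ∀ {C C' ε R x y z : ℝ} {D : ℝ → ℂ}, C ≤ C' → FormBd D C ε R x y z →
      FormBd D C' ε R x y z := by
    intro C C' ε R x y z D hC h f₁ f₂ f₃ h₁ h₂ h₃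
    exact (h f₁ f₂ f₃ h₁ h₂ h₃).trans (by gcongr)
  exact bdd4' (by positivity) (hol_meas hs hv h0 hD) hD1 hs hs1 (hol_LH hs hv hD)
    (fun ε R hε hR => up (by linarith) (H0 v D hv h0 h1 hD1 hD ε R hε hR))
    (fun ε R hε hR => up (by linarith) (H1 v D hv h0 h1 hD1 hD ε R hε hR))
    (fun ε R hε hR => up (by linarith) (H2 v D hv h0 h1 hD1 hD ε R hε hR))
    (fun ε R hε hR => up (by linarith) (H3 v D hv h0 h1 hD1 hD ε R hε hR))

end Vale.Agent.P141.R2.H4
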