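import Vale.Agent.P141.R2.H4.Half

/-!
# Passage from the truncations to `T`
-/

namespace Vale.Agent.P141.R2.H4

open MeasureTheory Set Filter Topology Vale.Agent.P141.H97 Vale.Agent.P141.R2.H152
open Vale.Agent.P141.H115
open scoped ENNReal SchwartzMap

/-- the sequences of truncation parameters -/
theorem seqs (δ l : ℝ) (hδ : 0 < δ) : ∃ e r : ℕ → ℝ, (∀ n, 0 < e n) ∧ (∀ n, e n < δ) ∧
    (∀ n, l < r n) ∧ Tendsto e atTop (𝓝[>] 0) ∧ Tendsto r atTop atTop := by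
  refine ⟨fun n => δ * (1 / ((n : ℝ) + 1)) / 2, fun n => |l| + 1 + n, fun n => by positivity,
    fun n => ?_, fun n => ?_, ?_, tendsto_atTop_add_const_left _ _ tendsto_natCast_atTop_atTop⟩
  · have h1 : (1 : ℝ) / ((n : ℝ) + 1) ≤ 1 := by
      rw [div_le_one (by positivity)]; linarith [(Nat.cast_nonneg n : (0 : ℝ) ≤ n)]
    have h2 : δ * (1 / ((n : ℝ) + 1)) ≤ δ * 1 := by gcongr
    linarith
  · linarith [le_abs_self l, (Nat.cast_nonneg n : (0 : ℝ) ≤ n)]
  · rw [tendsto_nhdsWithin_iff]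
    refine ⟨?_, Eventually.of_forall fun n => by simp only [mem_Ioi]; positivity⟩
    have := ((tendsto_one_div_add_atTop_nhds_zero_nat (𝕜 := ℝ)).const_mul δ).div_const 2
    simpa using this

theorem lim_pt (f₁ f₂ f₃ : 𝓢(ℝ, ℂ)) {e r : ℕ → ℝ} (t1 : Tendsto e atTop (𝓝[>] 0))
    (t2 : Tendsto r atTop atTop) (x : ℝ) :
    Tendsto (fun n => TT (e n) (r n) 1 2 3 f₁ f₂ f₃ x) atTop (𝓝 (THT f₁ f₂ f₃ x)) := by
  have h1 := (exists_tendsto_truncTHT f₁ f₂ f₃ x).comp (t1.prodMk t2)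
  refine h1.congr fun n => ?_
  show truncTHT f₁ f₂ f₃ (e n) (r n) x = _
  rw [TT_eq]
  rfl

/-- passage to the limit in the norm of any exponent -/
theorem tht_norm (f₁ f₂ f₃ : 𝓢(ℝ, ℂ)) (p : ℝ≥0∞) {X : ℝ≥0∞}
    (H : ∀ ε R : ℝ, 0 < ε → ε < R → eLpNorm (TT ε R 1 2 3 f₁ f₂ f₃) p volume ≤ X) :
    eLpNorm (THT f₁ f₂ f₃) p volume ≤ X := by
  obtain ⟨e, r, he0, he1, hr1, t1, t2⟩ := seqs 1 1 one_pos
  refine (Lp.eLpNorm_lim_le_liminf_eLpNorm (fun n => (TT_meas (nice_schwartz f₁)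
    (nice_schwartz f₂) (nice_schwartz f₃)).aestronglyMeasurable) _
    (ae_of_all _ (lim_pt f₁ f₂ f₃ t1 t2))).trans ?_
  refine liminf_le_of_le (by isBoundedDefault) fun b hb => ?_
  obtain ⟨n, hn⟩ := hb.exists
  exact hn.trans (H (e n) (r n) (he0 n) ((he1 n).trans (hr1 n)))

theorem schwartz_lip (f : 𝓢(ℝ, ℂ)) : ∃ L : ℝ, 0 ≤ L ∧ ∀ x y, ‖f x - f y‖ ≤ L * |x - y| := by
  obtain ⟨B, hB⟩ := (nice_schwartz (SchwartzMap.derivCLM ℂ ℂ f)).bdd
  have hB' : ∀ x, ‖deriv f x‖ ≤ B := fun x => by simpa using hB x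
  refine ⟨B, (norm_nonneg _).trans (hB' 0), fun x y => ?_⟩
  have := (convex_univ (𝕜 := ℝ) (E := ℝ)).norm_image_sub_le_of_norm_deriv_le (f := f)
    (C := B) (x := y) (y := x) (fun z _ => f.differentiableAt) (fun z _ => hB' z)
    (mem_univ _) (mem_univ _)
  simpa [Real.norm_eq_abs] using this

theorem uu_neg (ε R t : ℝ) : uu ε R (-t) = -uu ε R t := by
  unfold uu
  by_cases ht : ε < |t| ∧ |t| < R
  · rw [indicator_of_mem (show t ∈ {t : ℝ | ε < |t| ∧ |t| < R} from ht),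
      indicator_of_mem (show -t ∈ {t : ℝ | ε < |t| ∧ |t| < R} from by
        simp only [mem_ofPred_eq, abs_neg]; exact ht)]
    push_cast
    rw [inv_neg]
  · rw [indicator_of_notMem (show t ∉ {t : ℝ | ε < |t| ∧ |t| < R} from ht),
      indicator_of_notMem (show -t ∉ {t : ℝ | ε < |t| ∧ |t| < R} from by
        simp only [mem_ofPred_eq, abs_neg]; exact ht), neg_zero]

/-- the truncations of `T` of Schwartz functions are bounded uniformly -/
theorem TT_unif (f₁ f₂ f₃ : 𝓢(ℝ, ℂ)) : ∃ K : ℝ, ∀ ε R x : ℝ, 0 < ε → ε < R →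
    ‖TT ε R 1 2 3 f₁ f₂ f₃ x‖ ≤ K := by
  obtain ⟨B₁, hB₁⟩ := (nice_schwartz f₁).bdd
  obtain ⟨B₂, hB₂⟩ := (nice_schwartz f₂).bdd
  obtain ⟨B₃, hB₃⟩ := (nice_schwartz f₃).bdd
  have p₁ : 0 ≤ B₁ := (norm_nonneg _).trans (hB₁ 0)
  have p₂ : 0 ≤ B₂ := (norm_nonneg _).trans (hB₂ 0)
  have p₃ : 0 ≤ B₃ := (norm_nonneg _).trans (hB₃ 0)
  obtain ⟨L₁, q₁, hL₁⟩ := schwartz_lip f₁
  obtain ⟨L₂, q₂, hL₂⟩ := schwartz_lip f₂
  obtain ⟨L₃, q₃, hL₃⟩ := schwartz_lip f₃
  set L : ℝ := 2 * L₁ * B₂ * B₃ + B₁ * (4 * L₂) * B₃ + B₁ * B₂ * (6 * L₃) with hL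
  have hL0 : 0 ≤ L := by positivity
  refine ⟨(∫ t, ((Icc (-1 : ℝ) 1).indicator (fun _ => L) t)) +
    2 * ((∫ y, ‖f₁ y‖) * (B₂ * B₃)), fun ε R x hε hR => ?_⟩
  set F : ℝ → ℂ := fun t => FF 1 2 3 f₁ f₂ f₃ x t with hF
  have hint : Integrable (fun t => uu ε R t * F t) volume :=
    ph_int_t hε (nice_schwartz f₁) (nice_schwartz f₂) (nice_schwartz f₃) x
  have hint' : Integrable (fun t => uu ε R t * F (-t)) volume := by
    have := hint.comp_neg.neg
    refine this.congr (ae_of_all _ fun t => ?_)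
    simp only [Pi.neg_apply, uu_neg]
    ring
  have hneg : ∫ t, uu ε R t * F (-t) = - ∫ t, uu ε R t * F t := by
    rw [← integral_neg_eq_self (fun t => uu ε R t * F t), ← integral_neg]
    congr 1
    funext t
    rw [uu_neg]
    ring
  have h2 : (2 : ℂ) * TT ε R 1 2 3 f₁ f₂ f₃ x = ∫ t, uu ε R t * (F t - F (-t)) := by
    have : TT ε R 1 2 3 f₁ f₂ f₃ x = ∫ t, uu ε R t * F t := rfl
    rw [this]
    simp only [mul_sub]
    rw [integral_sub hint hint', hneg]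
    ring
  have hg1 : Integrable (fun t => (Icc (-1 : ℝ) 1).indicator (fun _ => L) t) volume :=
    (integrable_indicator_iff measurableSet_Icc).2
      (integrableOn_const (by rw [Real.volume_Icc]; exact ENNReal.ofReal_ne_top))
  have hs1 : Integrable (fun t => ‖f₁ (x - t)‖) volume := by
    have := ((nice_schwartz f₁).int.comp_sub_left x).norm
    exact this
  have hs2 : Integrable (fun t => ‖f₁ (x + t)‖) volume :=
    ((nice_schwartz f₁).int.comp_add_left x).norm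
  have v1 : ∫ t, ‖f₁ (x - t)‖ = ∫ y, ‖f₁ y‖ := integral_sub_left_eq_self (fun y => ‖f₁ y‖) _ x
  have v2 : ∫ t, ‖f₁ (x + t)‖ = ∫ y, ‖f₁ y‖ := integral_add_left_eq_self (fun y => ‖f₁ y‖) x
  have hmaj : ∀ t, ‖uu ε R t * (F t - F (-t))‖ ≤ (Icc (-1 : ℝ) 1).indicator (fun _ => L) t +
      (‖f₁ (x - t)‖ * (B₂ * B₃) + ‖f₁ (x + t)‖ * (B₂ * B₃)) := by
    intro t
    have n1 : ‖F t‖ ≤ ‖f₁ (x - t)‖ * (B₂ * B₃) := by
      rw [hF]
      unfold FF
      rw [norm_mul, norm_mul, one_mul, mul_assoc]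
      gcongr
      · exact hB₂ _
      · exact hB₃ _
    have n2 : ‖F (-t)‖ ≤ ‖f₁ (x + t)‖ * (B₂ * B₃) := by
      rw [hF]
      unfold FF
      rw [norm_mul, norm_mul, one_mul, mul_assoc, sub_neg_eq_add]
      gcongr
      · exact hB₂ _
      · exact hB₃ _
    rw [norm_mul, uu_norm]
    by_cases ht : t ∈ {t : ℝ | ε < |t| ∧ |t| < R}
    · have ht0 : 0 < |t| := hε.trans ht.1
      have e1 : av ε R t = |t|⁻¹ := by unfold av; rw [indicator_of_mem ht]
      rw [e1]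
      by_cases h1 : t ∈ Icc (-1 : ℝ) 1
      · rw [indicator_of_mem h1]
        have d : ‖F t - F (-t)‖ ≤ L * |t| := by
          have d1 : ‖f₁ (x - 1 * t) - f₁ (x - 1 * -t)‖ ≤ 2 * L₁ * |t| := by
            refine (hL₁ _ _).trans (le_of_eq ?_)
            have : x - 1 * t - (x - 1 * -t) = -2 * t := by ring
            rw [this, abs_mul]; norm_num; ring
          have d2 : ‖f₂ (x - 2 * t) - f₂ (x - 2 * -t)‖ ≤ 4 * L₂ * |t| := by
            refine (hL₂ _ _).trans (le_of_eq ?_)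
            have : x - 2 * t - (x - 2 * -t) = -4 * t := by ring
            rw [this, abs_mul]; norm_num; ring
          have d3 : ‖f₃ (x - 3 * t) - f₃ (x - 3 * -t)‖ ≤ 6 * L₃ * |t| := by
            refine (hL₃ _ _).trans (le_of_eq ?_)
            have : x - 3 * t - (x - 3 * -t) = -6 * t := by ring
            rw [this, abs_mul]; norm_num; ring
          have e : F t - F (-t) =
              (f₁ (x - 1 * t) - f₁ (x - 1 * -t)) * f₂ (x - 2 * t) * f₃ (x - 3 * t) +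
              f₁ (x - 1 * -t) * (f₂ (x - 2 * t) - f₂ (x - 2 * -t)) * f₃ (x - 3 * t) +
              f₁ (x - 1 * -t) * f₂ (x - 2 * -t) * (f₃ (x - 3 * t) - f₃ (x - 3 * -t)) := by
            rw [hF]
            unfold FF
            ring
          rw [e]
          refine (norm_add₃_le).trans ?_
          rw [norm_mul, norm_mul, norm_mul, norm_mul, norm_mul, norm_mul]
          calc _ ≤ 2 * L₁ * |t| * B₂ * B₃ + B₁ * (4 * L₂ * |t|) * B₃ +
                B₁ * B₂ * (6 * L₃ * |t|) := by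
                gcongr
                · exact hB₂ _
                · exact hB₃ _
                · exact hB₁ _
                · exact hB₃ _
                · exact hB₁ _
                · exact hB₂ _
            _ = L * |t| := by rw [hL]; ring
        have d' : |t|⁻¹ * ‖F t - F (-t)‖ ≤ L := by
          rw [inv_mul_le_iff₀ ht0, mul_comm]
          exact d
        have : 0 ≤ ‖f₁ (x - t)‖ * (B₂ * B₃) + ‖f₁ (x + t)‖ * (B₂ * B₃) := by positivity
        linarith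
      · rw [indicator_of_notMem h1, zero_add]
        have h1' : 1 ≤ |t| := by
          by_contra hc
          exact h1 (abs_le.1 (not_le.1 hc).le)
        have : |t|⁻¹ ≤ 1 := inv_le_one_of_one_le₀ h1'
        calc |t|⁻¹ * ‖F t - F (-t)‖ ≤ 1 * (‖F t‖ + ‖F (-t)‖) := by
              gcongr
              exact norm_sub_le _ _
          _ ≤ _ := by rw [one_mul]; exact add_le_add n1 n2
    · have e1 : av ε R t = 0 := by unfold av; rw [indicator_of_notMem ht]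
      rw [e1, zero_mul]
      have : 0 ≤ (Icc (-1 : ℝ) 1).indicator (fun _ => L) t := indicator_nonneg (fun _ _ => hL0) _
      positivity
  have hb := norm_integral_le_of_norm_le (hg1.add ((hs1.mul_const (B₂ * B₃)).add
    (hs2.mul_const (B₂ * B₃)))) (ae_of_all _ hmaj)
  rw [← h2] at hb
  have e3 : ∫ t, ((Icc (-1 : ℝ) 1).indicator (fun _ => L) t +
      (‖f₁ (x - t)‖ * (B₂ * B₃) + ‖f₁ (x + t)‖ * (B₂ * B₃))) =
      (∫ t, ((Icc (-1 : ℝ) 1).indicator (fun _ => L) t)) +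
        2 * ((∫ y, ‖f₁ y‖) * (B₂ * B₃)) := by
    have hs3 : Integrable (fun t => ‖f₁ (x - t)‖ * (B₂ * B₃) + ‖f₁ (x + t)‖ * (B₂ * B₃)) volume :=
      (hs1.mul_const _).add (hs2.mul_const _)
    rw [integral_add hg1 hs3, integral_add (hs1.mul_const (B₂ * B₃)) (hs2.mul_const (B₂ * B₃)), integral_mul_const,
      integral_mul_const, v1, v2]
    ring
  have hb' : ‖(2 : ℂ) * TT ε R 1 2 3 f₁ f₂ f₃ x‖ ≤
      (∫ t, ((Icc (-1 : ℝ) 1).indicator (fun _ => L) t)) + 2 * ((∫ y, ‖f₁ y‖) * (B₂ * B₃)) := by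
    refine hb.trans (le_of_eq e3)
  rw [norm_mul] at hb'
  have : ‖(2 : ℂ)‖ = 2 := by norm_num
  rw [this] at hb'
  have := norm_nonneg (TT ε R 1 2 3 f₁ f₂ f₃ x)
  linarith

/-- passage to the limit in the integral over an interval -/
theorem tht_interval (f₁ f₂ f₃ : 𝓢(ℝ, ℂ)) {a b X δ l : ℝ} (hδ : 0 < δ)
    (hδl : δ ≤ l)
    (H : ∀ ε R : ℝ, 0 < ε → ε < δ → l < R → ‖∫ x in a..b, TT ε R 1 2 3 f₁ f₂ f₃ x‖ ≤ X) :
    ‖∫ x in a..b, THT f₁ f₂ f₃ x‖ ≤ X := by
  obtain ⟨e, r, he0, he1, hr1, t1, t2⟩ := seqs δ l hδ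
  obtain ⟨K, hK⟩ := TT_unif f₁ f₂ f₃
  have hl : Tendsto (fun n => ∫ x in a..b, TT (e n) (r n) 1 2 3 f₁ f₂ f₃ x) atTop
      (𝓝 (∫ x in a..b, THT f₁ f₂ f₃ x)) := by
    refine intervalIntegral.tendsto_integral_filter_of_dominated_convergence (fun _ => K)
      (Eventually.of_forall fun n => (TT_meas (nice_schwartz f₁)
        (nice_schwartz f₂) (nice_schwartz f₃)).aestronglyMeasurable)
      (Eventually.of_forall fun n => ae_of_all _ fun x _ => hK _ _ x (he0 n)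
        (((he1 n).trans_le hδl).trans (hr1 n)))
      intervalIntegrable_const (ae_of_all _ fun x _ => lim_pt f₁ f₂ f₃ t1 t2 x)
  exact le_of_tendsto hl.norm (Eventually.of_forall fun n => H _ _ (he0 n) (he1 n) (hr1 n))

end Vale.Agent.P141.R2.H4
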