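import Vale.Agent.P141.R2.H4.Pv

/-!
# Existence of the principal value under a local Hoelder condition (after helper106)
-/

namespace Vale.Agent.P141.R2.H4.Pv

open MeasureTheory Set Filter Topology
open scoped ENNReal

/-- the majorant -/
noncomputable def gg (L δ s u : ℝ) : ℝ := (Iio δ).indicator (fun u => L * u ^ (s - 1)) u

theorem gg_int {L δ s : ℝ} (hδ : 0 < δ) (hs : 0 < s) : IntegrableOn (gg L δ s) (Ioi 0) := by
  unfold gg
  rw [integrableOn_indicator_iff measurableSet_Iio]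
  have h : IntegrableOn (fun u : ℝ => L * u ^ (s - 1)) (Ioc 0 δ) :=
    ((intervalIntegrable_iff_integrableOn_Ioc_of_le hδ.le).1
      (intervalIntegral.intervalIntegrable_rpow' (by linarith))).const_mul L
  refine h.mono_set ?_
  rintro x ⟨h1, h2⟩
  exact ⟨h2, le_of_lt h1⟩

theorem gg_abs_int {L δ s : ℝ} (hδ : 0 < δ) (hs : 0 < s) :
    Integrable fun u : ℝ => gg L δ s |u| := by
  have h0 := gg_int (L := L) hδ hs
  have hf : IntegrableOn (fun x => gg L δ s |x|) (Ioi 0) :=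
    h0.congr_fun (fun x hx => by rw [abs_of_pos hx]) measurableSet_Ioi
  have int_Iic : IntegrableOn (fun x ↦ gg L δ s |x|) (Iic 0) := by
    rw [← Measure.map_neg_eq_self (volume : Measure ℝ)]
    let m : MeasurableEmbedding fun x : ℝ => -x := (Homeomorph.neg ℝ).measurableEmbedding
    rw [m.integrableOn_map_iff]
    simp_rw [Function.comp_def, abs_neg, neg_preimage, neg_Iic, neg_zero]
    exact Iff.mpr integrableOn_Ici_iff_integrableOn_Ioi hf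
  rw [← integrableOn_univ, ← Iic_union_Ioi (a := (0 : ℝ))]
  exact int_Iic.union hf

theorem lim_holder {f₁ f₂ f₃ : ℝ → ℂ} (m₁ : Measurable f₁) (m₂ : Measurable f₂)
    (m₃ : Measurable f₃) {x : ℝ} (hi : Integrable (pr f₁ f₂ f₃ x)) {L δ s : ℝ} (hδ : 0 < δ)
    (hL0 : 0 ≤ L) (hs : 0 < s)
    (hl : ∀ t, |t| < δ → ‖pr f₁ f₂ f₃ x t - pr f₁ f₂ f₃ x (-t)‖ ≤ L * |t| ^ s) :
    Tendsto (fun q : ℝ × ℝ => truncTHT f₁ f₂ f₃ q.1 q.2 x) (𝓝[>] (0 : ℝ) ×ˢ atTop)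
      (𝓝 (THT f₁ f₂ f₃ x)) := by
  have hm : Measurable (ev f₁ f₂ f₃ x) := by
    unfold ev
    exact ((pr_meas m₁ m₂ m₃ x).sub ((pr_meas m₁ m₂ m₃ x).comp measurable_neg)).div (by fun_prop)
  have main : Tendsto (fun q : ℝ × ℝ =>
      ∫ t, {t : ℝ | q.1 < |t| ∧ |t| < q.2}.indicator (ev f₁ f₂ f₃ x) t)
      (𝓝[>] (0 : ℝ) ×ˢ atTop) (𝓝 (∫ t, ev f₁ f₂ f₃ x t)) := by
    refine tendsto_integral_filter_of_dominated_convergence
      (fun t => gg L δ s |t| +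
        (‖pr f₁ f₂ f₃ x t‖ + ‖pr f₁ f₂ f₃ x (-t)‖) * δ⁻¹) ?_ ?_ ?_ ?_
    · exact Eventually.of_forall fun q =>
        (hm.indicator (shell_meas q.1 q.2)).aestronglyMeasurable
    · refine Eventually.of_forall fun q => ae_of_all _ fun t => ?_
      refine (norm_indicator_le_norm_self _ _).trans ?_
      unfold ev
      rw [norm_div, Complex.norm_real, Real.norm_eq_abs]
      by_cases ht : |t| < δ
      · have h1 : ‖pr f₁ f₂ f₃ x t - pr f₁ f₂ f₃ x (-t)‖ / |t| ≤ gg L δ s |t| := by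
          unfold gg
          rw [indicator_of_mem (show |t| ∈ Iio δ from ht)]
          refine div_le_of_le_mul₀ (abs_nonneg _) (by positivity) ?_
          rcases eq_or_lt_of_le (abs_nonneg t) with h0 | h0
          · have := hl t ht
            rw [← h0, Real.zero_rpow hs.ne', mul_zero] at this
            rw [← h0, mul_zero]
            exact this
          · rw [mul_assoc, ← Real.rpow_add_one h0.ne', sub_add_cancel]
            exact hl t ht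
        have h2 : 0 ≤ (‖pr f₁ f₂ f₃ x t‖ + ‖pr f₁ f₂ f₃ x (-t)‖) * δ⁻¹ := by positivity
        linarith
      · push Not at ht
        have h0 : 0 ≤ gg L δ s |t| := by
          unfold gg
          rw [indicator_of_notMem (show |t| ∉ Iio δ from not_lt.2 ht)]
        have h1 : ‖pr f₁ f₂ f₃ x t - pr f₁ f₂ f₃ x (-t)‖ / |t| ≤
            ‖pr f₁ f₂ f₃ x t - pr f₁ f₂ f₃ x (-t)‖ * δ⁻¹ := by
          rw [div_eq_mul_inv]
          gcongr
        have h2 := norm_sub_le (pr f₁ f₂ f₃ x t) (pr f₁ f₂ f₃ x (-t))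
        have h3 : ‖pr f₁ f₂ f₃ x t - pr f₁ f₂ f₃ x (-t)‖ * δ⁻¹ ≤
            (‖pr f₁ f₂ f₃ x t‖ + ‖pr f₁ f₂ f₃ x (-t)‖) * δ⁻¹ := by gcongr
        linarith only [h0, h1, h3]
    · refine Integrable.add ?_ ?_
      · exact gg_abs_int hδ hs
      · exact (hi.norm.add hi.comp_neg.norm).mul_const _
    · have h0 : ∀ᵐ t : ℝ, t ≠ 0 := by
        rw [ae_iff]; simp
      filter_upwards [h0] with t ht
      apply tendsto_const_nhds.congr'
      have h1 : ∀ᶠ ε : ℝ in 𝓝[>] (0 : ℝ), ε < |t| :=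
        nhdsWithin_le_nhds (Iio_mem_nhds (abs_pos.2 ht))
      have h2 : ∀ᶠ R : ℝ in atTop, |t| < R := eventually_gt_atTop _
      filter_upwards [h1.prod_mk h2] with q hq
      have hmem : t ∈ {t : ℝ | q.1 < |t| ∧ |t| < q.2} := hq
      rw [indicator_of_mem hmem]
  have h2 : Tendsto (fun q : ℝ × ℝ => truncTHT f₁ f₂ f₃ q.1 q.2 x) (𝓝[>] (0 : ℝ) ×ˢ atTop)
      (𝓝 ((1 / 2 : ℂ) * ∫ t, ev f₁ f₂ f₃ x t)) := by
    refine (main.const_mul (1 / 2 : ℂ)).congr' ?_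
    have h1 : ∀ᶠ ε : ℝ in 𝓝[>] (0 : ℝ), 0 < ε := self_mem_nhdsWithin
    filter_upwards [h1.prod_inl (atTop : Filter ℝ)] with q hq
    exact (trunc_half m₁ m₂ m₃ hi hq).symm
  unfold THT
  rw [h2.limUnder_eq]
  exact h2

/-- local Hoelder condition at `x` -/
def LH (f : ℝ → ℂ) (x s : ℝ) : Prop :=
  ∃ L δ : ℝ, 0 ≤ L ∧ 0 < δ ∧ ∀ h, |h| < δ → ‖f (x + h) - f x‖ ≤ L * |h| ^ s

theorem LH.diff {f : ℝ → ℂ} {x s : ℝ} (h : LH f x s) (hs : 0 < s) (hs1 : s ≤ 1) :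
    ∃ L δ : ℝ, 0 ≤ L ∧ 0 < δ ∧ ∀ c t : ℝ, 0 ≤ c → c ≤ 3 → |t| < δ →
      ‖f (x - c * t) - f (x - c * -t)‖ ≤ L * |t| ^ s := by
  obtain ⟨L, δ, hL, hδ, h⟩ := h
  refine ⟨6 * L, δ / 3, by positivity, by positivity, fun c t hc0 hc3 ht => ?_⟩
  have h1 : |c * t| < δ := by
    rw [abs_mul, abs_of_nonneg hc0]
    have := abs_nonneg t
    nlinarith
  have b : |c * t| ^ s ≤ 3 * |t| ^ s := by
    rw [abs_mul, Real.mul_rpow (abs_nonneg _) (abs_nonneg _), abs_of_nonneg hc0]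
    gcongr
    calc c ^ s ≤ 3 ^ s := Real.rpow_le_rpow hc0 hc3 hs.le
      _ ≤ 3 ^ (1 : ℝ) := Real.rpow_le_rpow_of_exponent_le (by norm_num) hs1
      _ = 3 := Real.rpow_one 3
  have a1 := h (-(c * t)) (by rwa [abs_neg])
  have a2 := h (c * t) h1
  rw [abs_neg] at a1
  have e1 : x - c * t = x + -(c * t) := by ring
  have e2 : x - c * -t = x + c * t := by ring
  rw [e1, e2]
  have e3 : f (x + -(c * t)) - f (x + c * t) =
      (f (x + -(c * t)) - f x) - (f (x + c * t) - f x) := by ring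
  rw [e3]
  refine (norm_sub_le _ _).trans ?_
  have b' : L * |c * t| ^ s ≤ L * (3 * |t| ^ s) := by gcongr
  linarith

theorem lim_LH {f₁ f₂ f₃ : ℝ → ℂ} (m₁ : Measurable f₁) (m₂ : Measurable f₂)
    (m₃ : Measurable f₃) {B₁ B₂ B₃ : ℝ} (b₁ : ∀ x, ‖f₁ x‖ ≤ B₁) (b₂ : ∀ x, ‖f₂ x‖ ≤ B₂)
    (b₃ : ∀ x, ‖f₃ x‖ ≤ B₃) {x s : ℝ} (hi : Integrable (pr f₁ f₂ f₃ x)) (hs : 0 < s)
    (hs1 : s ≤ 1) (h₁ : LH f₁ x s) (h₂ : LH f₂ x s) (h₃ : LH f₃ x s) :
    Tendsto (fun q : ℝ × ℝ => truncTHT f₁ f₂ f₃ q.1 q.2 x) (𝓝[>] (0 : ℝ) ×ˢ atTop)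
      (𝓝 (THT f₁ f₂ f₃ x)) := by
  obtain ⟨L₁, δ₁, l₁, d₁, H₁⟩ := h₁.diff hs hs1
  obtain ⟨L₂, δ₂, l₂, d₂, H₂⟩ := h₂.diff hs hs1
  obtain ⟨L₃, δ₃, l₃, d₃, H₃⟩ := h₃.diff hs hs1
  have p₁ : 0 ≤ B₁ := (norm_nonneg _).trans (b₁ 0)
  have p₂ : 0 ≤ B₂ := (norm_nonneg _).trans (b₂ 0)
  have p₃ : 0 ≤ B₃ := (norm_nonneg _).trans (b₃ 0)
  refine lim_holder m₁ m₂ m₃ hi (L := L₁ * B₂ * B₃ + B₁ * L₂ * B₃ + B₁ * B₂ * L₃)
    (δ := min δ₁ (min δ₂ δ₃)) (lt_min d₁ (lt_min d₂ d₃)) (by positivity) hs fun t ht => ?_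
  have t1 : |t| < δ₁ := ht.trans_le (min_le_left _ _)
  have t2 : |t| < δ₂ := ht.trans_le ((min_le_right _ _).trans (min_le_left _ _))
  have t3 : |t| < δ₃ := ht.trans_le ((min_le_right _ _).trans (min_le_right _ _))
  have a1 := H₁ 1 t (by norm_num) (by norm_num) t1
  have a2 := H₂ 2 t (by norm_num) (by norm_num) t2
  have a3 := H₃ 3 t (by norm_num) (by norm_num) t3
  rw [one_mul, one_mul] at a1
  have e : pr f₁ f₂ f₃ x t - pr f₁ f₂ f₃ x (-t) =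
      (f₁ (x - t) - f₁ (x - -t)) * f₂ (x - 2 * t) * f₃ (x - 3 * t) +
      f₁ (x - -t) * (f₂ (x - 2 * t) - f₂ (x - 2 * -t)) * f₃ (x - 3 * t) +
      f₁ (x - -t) * f₂ (x - 2 * -t) * (f₃ (x - 3 * t) - f₃ (x - 3 * -t)) := by
    unfold pr
    ring
  rw [e]
  refine (norm_add₃_le).trans ?_
  rw [norm_mul, norm_mul, norm_mul, norm_mul, norm_mul, norm_mul]
  have hp : 0 ≤ |t| ^ s := by positivity
  calc _ ≤ (L₁ * |t| ^ s) * B₂ * B₃ + B₁ * (L₂ * |t| ^ s) * B₃ + B₁ * B₂ * (L₃ * |t| ^ s) := by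
        gcongr
        · exact b₂ _
        · exact b₃ _
        · exact b₁ _
        · exact b₃ _
        · exact b₁ _
        · exact b₂ _
    _ = _ := by ring

theorem LH.of_diff {f : ℝ → ℂ} {x s : ℝ} (hf : DifferentiableAt ℝ f x) (hs1 : s ≤ 1) :
    LH f x s := by
  obtain ⟨c, hc⟩ := hf.isBigO_sub.bound
  rw [Metric.eventually_nhds_iff] at hc
  obtain ⟨δ, hδ, hc⟩ := hc
  refine ⟨|c|, min δ 1, abs_nonneg _, lt_min hδ one_pos, fun h hh => ?_⟩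
  have h1 := hc (y := x + h) (by rw [Real.dist_eq]; simpa using hh.trans_le (min_le_left _ _))
  have h2 : |h| ≤ |h| ^ s := by
    rcases eq_or_lt_of_le (abs_nonneg h) with h0 | h0
    · rw [← h0]; positivity
    · calc |h| = |h| ^ (1 : ℝ) := (Real.rpow_one _).symm
        _ ≤ |h| ^ s := Real.rpow_le_rpow_of_exponent_ge h0 (hh.trans_le (min_le_right _ _)).le hs1
  rw [add_sub_cancel_left, Real.norm_eq_abs] at h1
  calc ‖f (x + h) - f x‖ ≤ c * |h| := h1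
    _ ≤ |c| * |h| := by gcongr; exact le_abs_self c
    _ ≤ |c| * |h| ^ s := by gcongr

end Vale.Agent.P141.R2.H4.Pv
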