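import Vale.Agent.P141.R2.H4.Por2
import Vale.Agent.P141.R2.H4.PvH

/-!
# From the form bounds to `T`
-/

namespace Vale.Agent.P141.R2.H4

open MeasureTheory Set Filter Topology Vale.Agent.P141.H97 Vale.Agent.P141.R2.H152
open Vale.Agent.P141.H115
open scoped ENNReal SchwartzMap

/-- the truncations converge almost everywhere -/
def PV (f₁ f₂ f₃ : ℝ → ℂ) : Prop :=
  ∀ᵐ x : ℝ, Tendsto (fun q : ℝ × ℝ => truncTHT f₁ f₂ f₃ q.1 q.2 x) (𝓝[>] (0 : ℝ) ×ˢ atTop)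
    (𝓝 (THT f₁ f₂ f₃ x))

/-- `T` (and all its truncations) is bounded by `A` with `D` in any of the four places -/
def Bdd4 (A : ℝ) (D : ℝ → ℂ) : Prop :=
  ∀ f g h : 𝓢(ℝ, ℂ),
    (PV D f g ∧ eLpNorm (THT D f g) (3 / 2) volume ≤
      ENNReal.ofReal A * eLpNorm f 3 volume * eLpNorm g 3 volume) ∧
    (PV f D g ∧ eLpNorm (THT f D g) (3 / 2) volume ≤
      ENNReal.ofReal A * eLpNorm f 3 volume * eLpNorm g 3 volume) ∧
    (PV f g D ∧ eLpNorm (THT f g D) (3 / 2) volume ≤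
      ENNReal.ofReal A * eLpNorm f 3 volume * eLpNorm g 3 volume) ∧
    ∀ ε R : ℝ, 0 < ε → ε < R →
      eLpNorm (truncTHT D f g ε R) (3 / 2) volume ≤
        ENNReal.ofReal A * eLpNorm f 3 volume * eLpNorm g 3 volume ∧
      eLpNorm (truncTHT f D g ε R) (3 / 2) volume ≤
        ENNReal.ofReal A * eLpNorm f 3 volume * eLpNorm g 3 volume ∧
      eLpNorm (truncTHT f g D ε R) (3 / 2) volume ≤
        ENNReal.ofReal A * eLpNorm f 3 volume * eLpNorm g 3 volume ∧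
      ‖∫ x, D x * truncTHT f g h ε R x‖ ≤ A * ((eLpNorm f 3 volume).toReal *
        (eLpNorm g 3 volume).toReal * (eLpNorm h 3 volume).toReal)

theorem trunc_TT (f₁ f₂ f₃ : ℝ → ℂ) (ε R : ℝ) :
    truncTHT f₁ f₂ f₃ ε R = TT ε R 1 2 3 f₁ f₂ f₃ := by
  funext x
  rw [TT_eq]
  rfl

theorem swap12 (ε R α₁ α₂ α₃ : ℝ) (f₁ f₂ f₃ : ℝ → ℂ) :
    TT ε R α₁ α₂ α₃ f₁ f₂ f₃ = TT ε R α₂ α₁ α₃ f₂ f₁ f₃ := by
  funext x
  unfold TT ph FF
  congr 1
  funext t
  ring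

theorem rot (ε R α₁ α₂ α₃ : ℝ) (f₁ f₂ f₃ : ℝ → ℂ) :
    TT ε R α₁ α₂ α₃ f₁ f₂ f₃ = TT ε R α₃ α₁ α₂ f₃ f₁ f₂ := by
  funext x
  unfold TT ph FF
  congr 1
  funext t
  ring

/-- the three slots and the pairing from the four form bounds -/
theorem bdd4' {A s : ℝ} {D : ℝ → ℂ} (hA : 0 ≤ A) (mD : Measurable D) (bD : ∀ x, ‖D x‖ ≤ 1)
    (hs : 0 < s) (hs1 : s ≤ 1) (dD : ∀ᵐ x : ℝ, Pv.LH D x s)
    (F0 : ∀ ε R : ℝ, 0 < ε → ε < R → FormBd D A ε R 1 2 3)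
    (F1 : ∀ ε R : ℝ, 0 < ε → ε < R → FormBd D A ε R (-1) (2 - 1) (3 - 1))
    (F2 : ∀ ε R : ℝ, 0 < ε → ε < R → FormBd D A ε R (-2) (1 - 2) (3 - 2))
    (F3 : ∀ ε R : ℝ, 0 < ε → ε < R → FormBd D A ε R (-3) (1 - 3) (2 - 3)) : Bdd4 A D := by
  intro f g h
  have nf := nice_schwartz f
  have ng := nice_schwartz g
  have nh := nice_schwartz h
  have t1 : ∀ ε R : ℝ, 0 < ε → ε < R → eLpNorm (truncTHT D f g ε R) (3 / 2) volume ≤
        ENNReal.ofReal A * eLpNorm f 3 volume * eLpNorm g 3 volume := by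
    intro ε R hε hR
    rw [trunc_TT]
    exact oper mD bD hA hε (F1 ε R hε hR) nf ng
  have t2 : ∀ ε R : ℝ, 0 < ε → ε < R → eLpNorm (truncTHT f D g ε R) (3 / 2) volume ≤
        ENNReal.ofReal A * eLpNorm f 3 volume * eLpNorm g 3 volume := by
    intro ε R hε hR
    rw [trunc_TT, swap12]
    exact oper mD bD hA hε (F2 ε R hε hR) nf ng
  have t3 : ∀ ε R : ℝ, 0 < ε → ε < R → eLpNorm (truncTHT f g D ε R) (3 / 2) volume ≤
        ENNReal.ofReal A * eLpNorm f 3 volume * eLpNorm g 3 volume := by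
    intro ε R hε hR
    rw [trunc_TT, rot]
    exact oper mD bD hA hε (F3 ε R hε hR) nf ng
  have df : ∀ x, Pv.LH f x s := fun x => Pv.LH.of_diff f.differentiableAt hs1
  have dg : ∀ x, Pv.LH g x s := fun x => Pv.LH.of_diff g.differentiableAt hs1
  obtain ⟨Bf, hBf⟩ := nf.bdd
  obtain ⟨Bg, hBg⟩ := ng.bdd
  have hBg0 : 0 ≤ Bg := (norm_nonneg _).trans (hBg 0)
  have ai : ∀ (q : 𝓢(ℝ, ℂ)) (c x : ℝ), c ≠ 0 → Integrable fun t => q (x - c * t) := by
    intro q c x hc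
    have := (q.integrable (μ := volume)).comp_sub_left x
    exact this.comp_mul_left' hc
  have pr1 : ∀ x, Integrable (Pv.pr D f g x) := by
    intro x
    refine (((ai f 2 x (by norm_num)).norm).mul_const Bg).mono'
      (Pv.pr_meas mD nf.meas ng.meas x).aestronglyMeasurable (ae_of_all _ fun t => ?_)
    unfold Pv.pr
    rw [norm_mul, norm_mul]
    calc _ ≤ 1 * ‖f (x - 2 * t)‖ * Bg := by
          gcongr
          · exact bD _
          · exact hBg _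
      _ = _ := by rw [one_mul]
  have pr2 : ∀ x, Integrable (Pv.pr f D g x) := by
    intro x
    have h1 := (ai f 1 x (by norm_num)).norm
    simp only [one_mul] at h1
    refine (h1.mul_const Bg).mono'
      (Pv.pr_meas nf.meas mD ng.meas x).aestronglyMeasurable (ae_of_all _ fun t => ?_)
    unfold Pv.pr
    rw [norm_mul, norm_mul]
    calc _ ≤ ‖f (x - t)‖ * 1 * Bg := by
          gcongr
          · exact bD _
          · exact hBg _
      _ = _ := by rw [mul_one]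
  have pr3 : ∀ x, Integrable (Pv.pr f g D x) := by
    intro x
    have h1 := (ai f 1 x (by norm_num)).norm
    simp only [one_mul] at h1
    refine (h1.mul_const Bg).mono'
      (Pv.pr_meas nf.meas ng.meas mD x).aestronglyMeasurable (ae_of_all _ fun t => ?_)
    unfold Pv.pr
    rw [norm_mul, norm_mul]
    calc _ ≤ ‖f (x - t)‖ * Bg * 1 := by
          gcongr
          · exact hBg _
          · exact bD _
      _ = _ := by rw [mul_one]
  have l1 : PV D f g := by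
    filter_upwards [dD] with x hx
    exact Pv.lim_LH mD nf.meas ng.meas bD hBf hBg (pr1 x) hs hs1 hx (df x) (dg x)
  have l2 : PV f D g := by
    filter_upwards [dD] with x hx
    exact Pv.lim_LH nf.meas mD ng.meas hBf bD hBg (pr2 x) hs hs1 (df x) hx (dg x)
  have l3 : PV f g D := by
    filter_upwards [dD] with x hx
    exact Pv.lim_LH nf.meas ng.meas mD hBf hBg bD (pr3 x) hs hs1 (df x) (dg x) hx
  refine ⟨⟨l1, Pv.tht_le mD nf.meas ng.meas l1 t1⟩, ⟨l2, Pv.tht_le nf.meas mD ng.meas l2 t2⟩,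
    ⟨l3, Pv.tht_le nf.meas ng.meas mD l3 t3⟩, fun ε R hε hR => ⟨t1 ε R hε hR, t2 ε R hε hR,
    t3 ε R hε hR, ?_⟩⟩
  rw [trunc_TT]
  exact pairing mD bD hε (F0 ε R hε hR) nf ng nh

theorem bdd4 {A : ℝ} {D : ℝ → ℂ} (hA : 0 ≤ A) (mD : Measurable D) (bD : ∀ x, ‖D x‖ ≤ 1)
    (dD : ∀ᵐ x : ℝ, DifferentiableAt ℝ D x)
    (F0 : ∀ ε R : ℝ, 0 < ε → ε < R → FormBd D A ε R 1 2 3)
    (F1 : ∀ ε R : ℝ, 0 < ε → ε < R → FormBd D A ε R (-1) (2 - 1) (3 - 1))
    (F2 : ∀ ε R : ℝ, 0 < ε → ε < R → FormBd D A ε R (-2) (1 - 2) (3 - 2))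
    (F3 : ∀ ε R : ℝ, 0 < ε → ε < R → FormBd D A ε R (-3) (1 - 3) (2 - 3)) : Bdd4 A D :=
  bdd4' hA mD bD one_pos le_rfl (dD.mono fun _ hx => Pv.LH.of_diff hx le_rfl) F0 F1 F2 F3

theorem Reg.ae_diff {P : ℝ → ℂ} (h : Reg P) : ∀ᵐ x : ℝ, DifferentiableAt ℝ P x := by
  obtain ⟨u, a, b, -, h2, hP⟩ := h
  have hb : BoundedVariationOn u univ := ne_top_of_le_ne_top ENNReal.one_ne_top h2
  filter_upwards [hb.locallyBoundedVariationOn.ae_differentiableAt] with x hx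
  have e : P = fun x => u x * Complex.exp (Complex.I * ((a * x ^ 2 + b * x : ℝ) : ℂ)) :=
    funext hP
  rw [e]
  refine DifferentiableAt.mul hx ?_
  have hq : DifferentiableAt ℝ (fun x : ℝ => ((a * x ^ 2 + b * x : ℝ) : ℂ)) x :=
    Complex.ofRealCLM.differentiableAt.comp x
      (by fun_prop : DifferentiableAt ℝ (fun x : ℝ => a * x ^ 2 + b * x) x)
  exact (hq.const_mul _).cexp

/-- a piecewise function is differentiable almost everywhere -/
theorem glue_diff {k : ℝ → ℕ} {P : ℕ → ℝ → ℂ} (hP : ∀ j, Reg (P j))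
    (hk : ∀ᵐ x : ℝ, ∀ᶠ y in 𝓝 x, k y = k x) :
    ∀ᵐ x : ℝ, DifferentiableAt ℝ (fun x => P (k x) x) x := by
  have hall : ∀ᵐ x : ℝ, ∀ j, DifferentiableAt ℝ (P j) x := ae_all_iff.2 fun j => (hP j).ae_diff
  filter_upwards [hall, hk] with x hx hkx
  refine (hx (k x)).congr_of_eventuallyEq ?_
  filter_upwards [hkx] with y hy
  rw [hy]

theorem mono_loc {k : ℝ → ℕ} (hk : Monotone k) : ∀ᵐ x : ℝ, ∀ᶠ y in 𝓝 x, k y = k x := by
  have hc := hk.countable_not_continuousAt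
  have h0 : ∀ᵐ x : ℝ, x ∉ {x | ¬ ContinuousAt k x} := measure_eq_zero_iff_ae_notMem.1
    (hc.measure_zero _)
  filter_upwards [h0] with x hx
  have hx' : ContinuousAt k x := by
    by_contra h
    exact hx h
  exact hx'.eventually (show ∀ᶠ n in 𝓝 (k x), n = k x by simp)

theorem dist_loc {d : ℝ → ℝ} {a K : ℝ} (h : Aik d a K) {k : ℝ → ℕ}
    (hk : ∀ x y, |x - y| < d x → k y = k x) : ∀ᵐ x : ℝ, ∀ᶠ y in 𝓝 x, k y = k x := by
  filter_upwards [h.ae_pos] with x hx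
  rw [Metric.eventually_nhds_iff]
  refine ⟨d x, hx, fun y hy => hk x y ?_⟩
  rw [Real.dist_eq, abs_sub_comm] at hy
  exact hy

/-- **(1)** `N` pieces -/
theorem pieces_all : ∃ C : ℝ, ∀ (N : ℕ) (D : ℝ → ℂ), Pieces N D →
    Bdd4 (C * (1 + Real.log N)) D := by
  obtain ⟨C0, c0, H0⟩ := pw (c₁ := 1) (c₂ := 2) (c₃ := 3) (by norm_num) (by norm_num) (by norm_num)
  obtain ⟨C1, c1, H1⟩ := pw (c₁ := -1) (c₂ := 2 - 1) (c₃ := 3 - 1) (by norm_num) (by norm_num)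
    (by norm_num)
  obtain ⟨C2, c2, H2⟩ := pw (c₁ := -2) (c₂ := 1 - 2) (c₃ := 3 - 2) (by norm_num) (by norm_num)
    (by norm_num)
  obtain ⟨C3, c3, H3⟩ := pw (c₁ := -3) (c₂ := 1 - 3) (c₃ := 2 - 3) (by norm_num) (by norm_num)
    (by norm_num)
  refine ⟨C0 + C1 + C2 + C3, fun N D hD => ?_⟩
  have hlog : 0 ≤ Real.log N := Real.log_natCast_nonneg N
  have up : ∀ {C C' ε R x y z : ℝ} {D : ℝ → ℂ}, C ≤ C' → FormBd D (C * (1 + Real.log N)) ε R x y z →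
      FormBd D (C' * (1 + Real.log N)) ε R x y z := by
    intro C C' ε R x y z D hC h f₁ f₂ f₃ h₁ h₂ h₃
    exact (h f₁ f₂ f₃ h₁ h₂ h₃).trans (by gcongr)
  refine bdd4 (by positivity) hD.meas hD.le ?_
    (fun ε R hε hR => up (by linarith) (H0 N D hD ε R hε hR))
    (fun ε R hε hR => up (by linarith) (H1 N D hD ε R hε hR))
    (fun ε R hε hR => up (by linarith) (H2 N D hD ε R hε hR))
    (fun ε R hε hR => up (by linarith) (H3 N D hD ε R hε hR))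
  obtain ⟨k, P, hk, -, hP, hDP⟩ := hD
  have e : D = fun x => P (k x) x := funext hDP
  rw [e]
  exact glue_diff hP (mono_loc hk)

/-- **(2)** regular off a set of Aikawa type -/
theorem porous_all {d : ℝ → ℝ} {a K : ℝ} (h : Aik d a K) : ∃ C : ℝ, ∀ (k : ℝ → ℕ)
    (P : ℕ → ℝ → ℂ), Measurable k → (∀ x y, |x - y| < d x → k y = k x) → (∀ j, Reg (P j)) →
    Bdd4 C fun x => P (k x) x := by
  have one : ∀ {c₁ c₂ c₃ : ℝ}, c₁ ≠ c₂ → c₁ ≠ c₃ → c₂ ≠ c₃ → ∃ C : ℝ, 0 ≤ C ∧ ∀ (k : ℝ → ℕ)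
      (P : ℕ → ℝ → ℂ), Measurable k → (∀ x y, |x - y| < d x → k y = k x) → (∀ j, Reg (P j)) →
      ∀ ε R : ℝ, 0 < ε → ε < R → FormBd (fun x => P (k x) x) C ε R c₁ c₂ c₃ := by
    intro c₁ c₂ c₃ h12 h13 h23
    obtain ⟨A, hA0, hA⟩ := reg_form h12 h13 h23
    obtain ⟨B, hB0, hB⟩ := por_form h h12 h13 h23
    refine ⟨A + B, by positivity, fun k P hk hl hP ε R hε hR => ?_⟩
    exact hB A ε R hA0 hε hR k P hk hl (fun j => (hP j).meas) (fun j => (hP j).le)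
      (fun j => hA (P j) (hP j) ε R hε hR)
  obtain ⟨C0, c0, H0⟩ := one (c₁ := 1) (c₂ := 2) (c₃ := 3) (by norm_num) (by norm_num)
    (by norm_num)
  obtain ⟨C1, c1, H1⟩ := one (c₁ := -1) (c₂ := 2 - 1) (c₃ := 3 - 1) (by norm_num) (by norm_num)
    (by norm_num)
  obtain ⟨C2, c2, H2⟩ := one (c₁ := -2) (c₂ := 1 - 2) (c₃ := 3 - 2) (by norm_num) (by norm_num)
    (by norm_num)
  obtain ⟨C3, c3, H3⟩ := one (c₁ := -3) (c₂ := 1 - 3) (c₃ := 2 - 3) (by norm_num) (by norm_num)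
    (by norm_num)
  refine ⟨C0 + C1 + C2 + C3, fun k P hk hl hP => ?_⟩
  have up : ∀ {C C' ε R x y z : ℝ} {D : ℝ → ℂ}, C ≤ C' → FormBd D C ε R x y z →
      FormBd D C' ε R x y z := by
    intro C C' ε R x y z D hC h f₁ f₂ f₃ h₁ h₂ h₃
    exact (h f₁ f₂ f₃ h₁ h₂ h₃).trans (by gcongr)
  have mD : Measurable fun x => P (k x) x := by
    have : Measurable fun z : ℕ × ℝ => P z.1 z.2 :=
      measurable_from_prod_countable_right fun j => (hP j).meas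
    exact this.comp (hk.prodMk measurable_id)
  exact bdd4 (by positivity) mD (fun x => (hP _).le x) (glue_diff hP (dist_loc h hl))
    (fun ε R hε hR => up (by linarith) (H0 k P hk hl hP ε R hε hR))
    (fun ε R hε hR => up (by linarith) (H1 k P hk hl hP ε R hε hR))
    (fun ε R hε hR => up (by linarith) (H2 k P hk hl hP ε R hε hR))
    (fun ε R hε hR => up (by linarith) (H3 k P hk hl hP ε R hε hR))

end Vale.Agent.P141.R2.H4
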