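import Vale.Agent.P141.R2.H4.Por

/-!
# Functions which are regular off a set of Aikawa type
-/

namespace Vale.Agent.P141.R2.H4

open MeasureTheory Set Filter Topology Vale.Agent.P141.H97 Vale.Agent.P141.R2.H152
open Vale.Agent.P141.R2.H131 (N3 N3_nonneg N3_cube holder_sum)
open scoped ENNReal

variable {d : ℝ → ℝ} {a K : ℝ} {k : ℝ → ℕ}

/-- the restriction of `f` to `k = j` -/
noncomputable def res (k : ℝ → ℕ) (f : ℝ → ℂ) (j : ℕ) : ℝ → ℂ := {x | k x = j}.indicator f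

theorem set_meas (hk : Measurable k) (j : ℕ) : MeasurableSet {x | k x = j} :=
  hk (measurableSet_singleton j)

theorem lt_meas (hk : Measurable k) (j : ℕ) : MeasurableSet {x | k x < j} :=
  measurableSet_lt hk measurable_const

theorem res_nice (hk : Measurable k) {f : ℝ → ℂ} (hf : Nice f) (j : ℕ) : Nice (res k f j) :=
  nice_ind hf (set_meas hk j)

theorem cube_step (hk : Measurable k) {f : ℝ → ℂ} (hf : Nice f) (N : ℕ) :
    N3 ({x | k x < N}.indicator f) ^ 3 + N3 (res k f N) ^ 3 =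
      N3 ({x | k x < N + 1}.indicator f) ^ 3 := by
  have h := N3_cube (nice_ind hf (lt_meas hk (N + 1))) (lt_meas hk N)
  rw [indicator_indicator, indicator_indicator] at h
  have e1 : {x | k x < N} ∩ {x | k x < N + 1} = {x | k x < N} := by
    ext x; simp only [mem_inter_iff, mem_ofPred_eq]; omega
  have e2 : {x | k x < N}ᶜ ∩ {x | k x < N + 1} = {x | k x = N} := by
    ext x; simp only [mem_inter_iff, mem_compl_iff, mem_ofPred_eq]; omega
  rw [e1, e2] at h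
  exact h

theorem sum_prod_le (hk : Measurable k) {f₁ f₂ f₃ : ℝ → ℂ} (h₁ : Nice f₁) (h₂ : Nice f₂)
    (h₃ : Nice f₃) (N : ℕ) :
    ∑ j ∈ Finset.range N, N3 (res k f₁ j) * N3 (res k f₂ j) * N3 (res k f₃ j) ≤
      N3 ({x | k x < N}.indicator f₁) * N3 ({x | k x < N}.indicator f₂) *
        N3 ({x | k x < N}.indicator f₃) := by
  induction N with
  | zero =>
    rw [Finset.range_zero, Finset.sum_empty]
    have := N3_nonneg ({x | k x < 0}.indicator f₁)
    have := N3_nonneg ({x | k x < 0}.indicator f₂)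
    have := N3_nonneg ({x | k x < 0}.indicator f₃)
    positivity
  | succ n ih =>
    rw [Finset.sum_range_succ]
    refine (add_le_add_left ih _).trans ?_
    exact holder_sum (N3_nonneg _) (N3_nonneg _) (N3_nonneg _) (N3_nonneg _) (N3_nonneg _)
      (N3_nonneg _) (N3_nonneg _) (N3_nonneg _) (N3_nonneg _) (cube_step hk h₁ n)
      (cube_step hk h₂ n) (cube_step hk h₃ n)

theorem N3_ind_le {f : ℝ → ℂ} (hf : Nice f) (S : Set ℝ) : N3 (S.indicator f) ≤ N3 f :=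
  ENNReal.toReal_mono (hf.memLp (p := 3) (by norm_num) (by norm_num)).2.ne
    (eLpNorm_indicator_le _)

theorem uu_le (ε R t : ℝ) : ‖uu ε R t‖ₑ ≤ ENNReal.ofReal |t|⁻¹ := by
  rw [← ofReal_norm, uu_norm]
  apply ENNReal.ofReal_le_ofReal
  unfold av
  by_cases ht : t ∈ {t : ℝ | ε < |t| ∧ |t| < R}
  · rw [indicator_of_mem ht]
  · rw [indicator_of_notMem ht]; positivity

/-- the sum of the restricted forms has at most one term -/
theorem one_term {c₁ c₂ c₃ ε R : ℝ} {f₁ f₂ f₃ : ℝ → ℂ} {P : ℕ → ℝ → ℂ} (N : ℕ) (p : ℝ × ℝ) :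
    ∑ j ∈ Finset.range N, P j p.1 *
      ph ε R c₁ c₂ c₃ (res k f₁ j) (res k f₂ j) (res k f₃ j) p.1 p.2 =
    if k (p.1 - c₁ * p.2) < N ∧ k (p.1 - c₂ * p.2) = k (p.1 - c₁ * p.2) ∧
        k (p.1 - c₃ * p.2) = k (p.1 - c₁ * p.2) then
      P (k (p.1 - c₁ * p.2)) p.1 * ph ε R c₁ c₂ c₃ f₁ f₂ f₃ p.1 p.2 else 0 := by
  have hz : ∀ j, j ≠ k (p.1 - c₁ * p.2) →
      P j p.1 * ph ε R c₁ c₂ c₃ (res k f₁ j) (res k f₂ j) (res k f₃ j) p.1 p.2 = 0 := by
    intro j hj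
    unfold ph FF res
    rw [indicator_of_notMem (show p.1 - c₁ * p.2 ∉ {x | k x = j} from fun h => hj h.symm)]
    simp
  by_cases h1 : k (p.1 - c₁ * p.2) < N
  · rw [Finset.sum_eq_single (k (p.1 - c₁ * p.2)) (fun j _ hj => hz j hj)
      (fun h => absurd (Finset.mem_range.2 h1) h)]
    by_cases h2 : k (p.1 - c₂ * p.2) = k (p.1 - c₁ * p.2)
    · by_cases h3 : k (p.1 - c₃ * p.2) = k (p.1 - c₁ * p.2)
      · rw [if_pos ⟨h1, h2, h3⟩]
        unfold ph FF res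
        rw [indicator_of_mem (show p.1 - c₁ * p.2 ∈ {x | k x = k (p.1 - c₁ * p.2)} from rfl),
          indicator_of_mem (show p.1 - c₂ * p.2 ∈ {x | k x = k (p.1 - c₁ * p.2)} from h2),
          indicator_of_mem (show p.1 - c₃ * p.2 ∈ {x | k x = k (p.1 - c₁ * p.2)} from h3)]
      · rw [if_neg (fun h => h3 h.2.2)]
        unfold ph FF res
        rw [indicator_of_notMem (show p.1 - c₃ * p.2 ∉ {x | k x = k (p.1 - c₁ * p.2)} from h3)]
        simp
    · rw [if_neg (fun h => h2 h.2.1)]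
      unfold ph FF res
      rw [indicator_of_notMem (show p.1 - c₂ * p.2 ∉ {x | k x = k (p.1 - c₁ * p.2)} from h2)]
      simp
  · rw [if_neg (fun h => h1 h.1)]
    refine Finset.sum_eq_zero fun j hj => hz j ?_
    rw [Finset.mem_range] at hj
    omega

/-- the pointwise comparison -/
theorem por_pt {c₁ c₂ c₃ κ ε R : ℝ} (h₁ : |c₁| * κ ≤ 1) (h₂ : |c₂| * κ ≤ 1) (h₃ : |c₃| * κ ≤ 1)
    (hloc : ∀ x y, |x - y| < d x → k y = k x) (hd : ∀ x, 0 ≤ d x) (hκ : 0 < κ)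
    {f₁ f₂ f₃ : ℝ → ℂ} {P : ℕ → ℝ → ℂ} (hP : ∀ j x, ‖P j x‖ ≤ 1) (N : ℕ) (p : ℝ × ℝ) :
    ‖(if k p.1 < N then P (k p.1) p.1 else 0) * ph ε R c₁ c₂ c₃ f₁ f₂ f₃ p.1 p.2 -
      ∑ j ∈ Finset.range N, P j p.1 *
        ph ε R c₁ c₂ c₃ (res k f₁ j) (res k f₂ j) (res k f₃ j) p.1 p.2‖ₑ ≤
      2 * (kd d κ p * (‖f₁ (p.1 - c₁ * p.2)‖ₑ * ‖f₂ (p.1 - c₂ * p.2)‖ₑ *
        ‖f₃ (p.1 - c₃ * p.2)‖ₑ)) := by
  rw [one_term]
  by_cases h : κ * d p.1 ≤ |p.2|
  · unfold kd
    rw [indicator_of_mem (show p ∈ {p : ℝ × ℝ | κ * d p.1 ≤ |p.2|} from h)]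
    have hph : ‖ph ε R c₁ c₂ c₃ f₁ f₂ f₃ p.1 p.2‖ₑ ≤ ENNReal.ofReal |p.2|⁻¹ *
        (‖f₁ (p.1 - c₁ * p.2)‖ₑ * ‖f₂ (p.1 - c₂ * p.2)‖ₑ * ‖f₃ (p.1 - c₃ * p.2)‖ₑ) := by
      unfold ph FF
      rw [enorm_mul, enorm_mul, enorm_mul]
      gcongr
      exact uu_le _ _ _
    have hP' : ∀ j x, ‖P j x‖ₑ ≤ 1 := fun j x => by
      rw [← ofReal_norm]
      exact ENNReal.ofReal_le_one.2 (hP j x)
    refine (enorm_sub_le).trans ?_
    rw [two_mul]
    refine add_le_add ?_ ?_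
    · split_ifs
      · rw [enorm_mul]
        calc _ ≤ 1 * _ := mul_le_mul' (hP' _ _) hph
          _ = _ := one_mul _
      · rw [zero_mul, enorm_zero]; exact bot_le
    · split_ifs
      · rw [enorm_mul]
        calc _ ≤ 1 * _ := mul_le_mul' (hP' _ _) hph
          _ = _ := one_mul _
      · rw [enorm_zero]; exact bot_le
  · have ht : |p.2| < κ * d p.1 := not_le.1 h
    have hd0 : 0 < d p.1 := by
      rcases eq_or_lt_of_le (hd p.1) with h0 | h0
      · rw [← h0, mul_zero] at ht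
        exact absurd ht (not_lt.2 (abs_nonneg _))
      · exact h0
    have hc : ∀ c : ℝ, |c| * κ ≤ 1 → k (p.1 - c * p.2) = k p.1 := by
      intro c hc
      apply hloc
      have e : p.1 - (p.1 - c * p.2) = c * p.2 := by ring
      rw [e, abs_mul]
      rcases eq_or_lt_of_le (abs_nonneg c) with h0 | h0
      · rw [← h0, zero_mul]; exact hd0
      · calc |c| * |p.2| < |c| * (κ * d p.1) := mul_lt_mul_of_pos_left ht h0
          _ = (|c| * κ) * d p.1 := by ring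
          _ ≤ 1 * d p.1 := by gcongr
          _ = d p.1 := one_mul _
    rw [hc c₁ h₁, hc c₂ h₂, hc c₃ h₃]
    by_cases hN : k p.1 < N
    · rw [if_pos hN, if_pos ⟨hN, rfl, rfl⟩, sub_self, enorm_zero]
      exact bot_le
    · rw [if_neg hN, if_neg (fun h => hN h.1), zero_mul, sub_self, enorm_zero]
      exact bot_le

/-- **regular off a set of Aikawa type: no loss, any number of pieces** -/
theorem por_form (h : Aik d a K) {c₁ c₂ c₃ : ℝ} (h12 : c₁ ≠ c₂) (h13 : c₁ ≠ c₃)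
    (h23 : c₂ ≠ c₃) : ∃ B : ℝ, 0 ≤ B ∧ ∀ A ε R : ℝ, 0 ≤ A → 0 < ε → ε < R →
      ∀ (k : ℝ → ℕ) (P : ℕ → ℝ → ℂ), Measurable k → (∀ x y, |x - y| < d x → k y = k x) →
      (∀ j, Measurable (P j)) → (∀ j x, ‖P j x‖ ≤ 1) → (∀ j, FormBd (P j) A ε R c₁ c₂ c₃) →
      FormBd (fun x => P (k x) x) (A + B) ε R c₁ c₂ c₃ := by
  set κ : ℝ := (1 + |c₁| + |c₂| + |c₃|)⁻¹ with hκ
  have hκ0 : 0 < κ := by positivity
  have hs : ∀ c : ℝ, |c| ≤ 1 + |c₁| + |c₂| + |c₃| → |c| * κ ≤ 1 := by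
    intro c hc
    rw [hκ, ← div_eq_mul_inv, div_le_one (by positivity)]
    exact hc
  have k₁ := hs c₁ (by have := abs_nonneg c₂; have := abs_nonneg c₃; linarith)
  have k₂ := hs c₂ (by have := abs_nonneg c₁; have := abs_nonneg c₃; linarith)
  have k₃ := hs c₃ (by have := abs_nonneg c₂; have := abs_nonneg c₁; linarith)
  obtain ⟨C₂, hC₂t, hC₂⟩ := hardy_d h hκ0 h12 h13 h23
  refine ⟨2 * C₂.toReal, by positivity, ?_⟩
  intro A ε R hA hε hR k P hk hloc mP bP hPA f₁ f₂ f₃ h₁ h₂ h₃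
  have l₁ := h₁.memLp (p := 3) (by norm_num) (by norm_num)
  have l₂ := h₂.memLp (p := 3) (by norm_num) (by norm_num)
  have l₃ := h₃.memLp (p := 3) (by norm_num) (by norm_num)
  set X : ℝ := (eLpNorm f₁ 3 volume).toReal * (eLpNorm f₂ 3 volume).toReal *
          (eLpNorm f₃ 3 volume).toReal with hX
  have mD : Measurable fun x => P (k x) x := by
    have : Measurable fun z : ℕ × ℝ => P z.1 z.2 :=
      measurable_from_prod_countable_right fun j => mP j
    exact this.comp (hk.prodMk measurable_id)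
  have bD : ∀ x, ‖P (k x) x‖ ≤ 1 := fun x => bP _ x
  -- truncated number of pieces
  have hfin : ∀ N : ℕ, ‖∫ p : ℝ × ℝ, (if k p.1 < N then P (k p.1) p.1 else 0) *
      ph ε R c₁ c₂ c₃ f₁ f₂ f₃ p.1 p.2‖ ≤ (A + 2 * C₂.toReal) * X := by
    intro N
    have mDN : Measurable fun x => (if k x < N then P (k x) x else 0 : ℂ) :=
      Measurable.ite (lt_meas hk N) mD measurable_const
    have bDN : ∀ x, ‖(if k x < N then P (k x) x else 0 : ℂ)‖ ≤ 1 := by
      intro x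
      split_ifs
      · exact bP _ x
      · simp
    have i1 := Dph_int (R := R) (c₁ := c₁) (c₂ := c₂) (c₃ := c₃) mDN bDN hε h₁ h₂ h₃
    have i2 : ∀ j, Integrable (fun p : ℝ × ℝ => P j p.1 *
        ph ε R c₁ c₂ c₃ (res k f₁ j) (res k f₂ j) (res k f₃ j) p.1 p.2) volume := fun j =>
      Dph_int (mP j) (bP j) hε (res_nice hk h₁ j) (res_nice hk h₂ j) (res_nice hk h₃ j)
    have i3 : Integrable (fun p : ℝ × ℝ => ∑ j ∈ Finset.range N, P j p.1 *
        ph ε R c₁ c₂ c₃ (res k f₁ j) (res k f₂ j) (res k f₃ j) p.1 p.2) volume :=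
      integrable_finsetSum _ fun j _ => i2 j
    have b1 : ‖∫ p : ℝ × ℝ, ∑ j ∈ Finset.range N, P j p.1 *
        ph ε R c₁ c₂ c₃ (res k f₁ j) (res k f₂ j) (res k f₃ j) p.1 p.2‖ ≤ A * X := by
      rw [integral_finsetSum _ fun j _ => i2 j]
      calc _ ≤ ∑ j ∈ Finset.range N, ‖∫ p : ℝ × ℝ, P j p.1 *
            ph ε R c₁ c₂ c₃ (res k f₁ j) (res k f₂ j) (res k f₃ j) p.1 p.2‖ := norm_sum_le _ _
        _ ≤ ∑ j ∈ Finset.range N, A * (N3 (res k f₁ j) * N3 (res k f₂ j) * N3 (res k f₃ j)) :=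
            Finset.sum_le_sum fun j _ => hPA j _ _ _ (res_nice hk h₁ j) (res_nice hk h₂ j)
              (res_nice hk h₃ j)
        _ = A * ∑ j ∈ Finset.range N, N3 (res k f₁ j) * N3 (res k f₂ j) * N3 (res k f₃ j) := by
            rw [Finset.mul_sum]
        _ ≤ A * (N3 ({x | k x < N}.indicator f₁) * N3 ({x | k x < N}.indicator f₂) *
              N3 ({x | k x < N}.indicator f₃)) := by
            gcongr
            exact sum_prod_le hk h₁ h₂ h₃ N
        _ ≤ A * X := by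
            have a1 := N3_ind_le h₁ {x | k x < N}
            have a2 := N3_ind_le h₂ {x | k x < N}
            have a3 := N3_ind_le h₃ {x | k x < N}
            have := N3_nonneg ({x | k x < N}.indicator f₁)
            have := N3_nonneg ({x | k x < N}.indicator f₂)
            have := N3_nonneg ({x | k x < N}.indicator f₃)
            have := N3_nonneg f₁
            have := N3_nonneg f₂
            refine mul_le_mul_of_nonneg_left ?_ hA
            show _ ≤ N3 f₁ * N3 f₂ * N3 f₃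
            gcongr
    have b2 : ‖∫ p : ℝ × ℝ, ((if k p.1 < N then P (k p.1) p.1 else 0) *
        ph ε R c₁ c₂ c₃ f₁ f₂ f₃ p.1 p.2 - ∑ j ∈ Finset.range N, P j p.1 *
        ph ε R c₁ c₂ c₃ (res k f₁ j) (res k f₂ j) (res k f₃ j) p.1 p.2)‖ ≤
        2 * C₂.toReal * X := by
      have h0 := (enorm_integral_le_lintegral_enorm (μ := (volume : Measure (ℝ × ℝ)))
        (fun p : ℝ × ℝ => (if k p.1 < N then P (k p.1) p.1 else 0) *
        ph ε R c₁ c₂ c₃ f₁ f₂ f₃ p.1 p.2 - ∑ j ∈ Finset.range N, P j p.1 *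
        ph ε R c₁ c₂ c₃ (res k f₁ j) (res k f₂ j) (res k f₃ j) p.1 p.2)).trans
        (lintegral_mono fun p => por_pt (ε := ε) (R := R) k₁ k₂ k₃ hloc h.nonneg hκ0 bP N p)
      rw [lintegral_const_mul' _ _ (by norm_num)] at h0
      have h0' := h0.trans (mul_le_mul_right (hC₂ f₁ f₂ f₃ h₁.meas h₂.meas h₃.meas) 2)
      have ht : 2 * (C₂ * (eLpNorm f₁ 3 volume * eLpNorm f₂ 3 volume * eLpNorm f₃ 3 volume)) ≠
          ∞ := ENNReal.mul_ne_top (by norm_num) (ENNReal.mul_ne_top hC₂t.ne (ENNReal.mul_ne_top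
            (ENNReal.mul_ne_top l₁.2.ne l₂.2.ne) l₃.2.ne))
      have h2 := ENNReal.toReal_mono ht h0'
      rw [ENNReal.toReal_mul, ENNReal.toReal_mul, ENNReal.toReal_mul, ENNReal.toReal_mul,
        toReal_enorm] at h2
      refine h2.trans (le_of_eq ?_)
      rw [hX]
      norm_num
      ring
    have e : ∫ p : ℝ × ℝ, (if k p.1 < N then P (k p.1) p.1 else 0) *
        ph ε R c₁ c₂ c₃ f₁ f₂ f₃ p.1 p.2 =
        (∫ p : ℝ × ℝ, ∑ j ∈ Finset.range N, P j p.1 *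
          ph ε R c₁ c₂ c₃ (res k f₁ j) (res k f₂ j) (res k f₃ j) p.1 p.2) +
        ∫ p : ℝ × ℝ, ((if k p.1 < N then P (k p.1) p.1 else 0) *
        ph ε R c₁ c₂ c₃ f₁ f₂ f₃ p.1 p.2 - ∑ j ∈ Finset.range N, P j p.1 *
        ph ε R c₁ c₂ c₃ (res k f₁ j) (res k f₂ j) (res k f₃ j) p.1 p.2) := by
      rw [integral_sub i1 i3]
      ring
    rw [e, add_mul]
    exact (norm_add_le _ _).trans (add_le_add b1 b2)
  -- all pieces
  have i0 := Dph_int (R := R) (c₁ := c₁) (c₂ := c₂) (c₃ := c₃) mD bD hε h₁ h₂ h₃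
  have hlim : Tendsto (fun N : ℕ => ∫ p : ℝ × ℝ, (if k p.1 < N then P (k p.1) p.1 else 0) *
      ph ε R c₁ c₂ c₃ f₁ f₂ f₃ p.1 p.2) atTop
      (𝓝 (∫ p : ℝ × ℝ, P (k p.1) p.1 * ph ε R c₁ c₂ c₃ f₁ f₂ f₃ p.1 p.2)) := by
    refine tendsto_integral_of_dominated_convergence
      (fun p => ‖P (k p.1) p.1 * ph ε R c₁ c₂ c₃ f₁ f₂ f₃ p.1 p.2‖) (fun N => ?_) i0.norm
      (fun N => ae_of_all _ fun p => ?_) (ae_of_all _ fun p => ?_)
    · have mDN : Measurable fun x => (if k x < N then P (k x) x else 0 : ℂ) :=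
        Measurable.ite (lt_meas hk N) mD measurable_const
      exact ((mDN.comp measurable_fst).mul (ph_meas h₁.meas h₂.meas h₃.meas)).aestronglyMeasurable
    · split_ifs
      · exact le_rfl
      · rw [zero_mul, norm_zero]; exact norm_nonneg _
    · apply tendsto_const_nhds.congr'
      filter_upwards [eventually_gt_atTop (k p.1)] with N hN
      rw [if_pos hN]
  exact le_of_tendsto hlim.norm (Eventually.of_forall hfin)

end Vale.Agent.P141.R2.H4
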