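import Vale.Agent.P141.Defs

/-!
# Existence of the principal value and passage to the limit (copied from helper106)
-/

namespace Vale.Agent.P141.R2.H4.Pv

open MeasureTheory Set Filter Topology
open scoped ENNReal

/-- the product in the integrand -/
noncomputable def pr (f₁ f₂ f₃ : ℝ → ℂ) (x t : ℝ) : ℂ :=
  f₁ (x - t) * f₂ (x - 2 * t) * f₃ (x - 3 * t)

theorem shell_meas (ε R : ℝ) : MeasurableSet {t : ℝ | ε < |t| ∧ |t| < R} :=
  (measurableSet_lt measurable_const measurable_abs).inter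
    (measurableSet_lt measurable_abs measurable_const)

theorem pr_meas {f₁ f₂ f₃ : ℝ → ℂ} (m₁ : Measurable f₁) (m₂ : Measurable f₂)
    (m₃ : Measurable f₃) (x : ℝ) : Measurable (pr f₁ f₂ f₃ x) :=
  ((m₁.comp (by fun_prop)).mul (m₂.comp (by fun_prop))).mul (m₃.comp (by fun_prop))

/-- the even part of the singular integrand -/
noncomputable def ev (f₁ f₂ f₃ : ℝ → ℂ) (x t : ℝ) : ℂ :=
  (pr f₁ f₂ f₃ x t - pr f₁ f₂ f₃ x (-t)) / (t : ℂ)

theorem trunc_half {f₁ f₂ f₃ : ℝ → ℂ} (m₁ : Measurable f₁) (m₂ : Measurable f₂)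
    (m₃ : Measurable f₃) {x : ℝ} (hi : Integrable (pr f₁ f₂ f₃ x)) {ε R : ℝ} (hε : 0 < ε) :
    truncTHT f₁ f₂ f₃ ε R x =
      (1 / 2 : ℂ) * ∫ t, {t : ℝ | ε < |t| ∧ |t| < R}.indicator (ev f₁ f₂ f₃ x) t := by
  set S : Set ℝ := {t : ℝ | ε < |t| ∧ |t| < R} with hS
  have hSm : MeasurableSet S := shell_meas ε R
  set F : ℝ → ℂ := fun t => pr f₁ f₂ f₃ x t / (t : ℂ) with hF
  have hFo : IntegrableOn F S := by
    have h1 : IntegrableOn (fun t => ‖pr f₁ f₂ f₃ x t‖ * ε⁻¹) S :=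
      (hi.norm.mul_const _).integrableOn
    refine h1.mono' ?_ ?_
    · exact ((pr_meas m₁ m₂ m₃ x).div (by fun_prop)).aestronglyMeasurable
    · refine (ae_restrict_iff' hSm).2 (ae_of_all _ fun t ht => ?_)
      show ‖pr f₁ f₂ f₃ x t / (t : ℂ)‖ ≤ _
      rw [norm_div, Complex.norm_real, Real.norm_eq_abs, div_eq_mul_inv]
      have ht' : ε ≤ |t| := ht.1.le
      gcongr
  have hFi : Integrable (S.indicator F) := hFo.integrable_indicator hSm
  have h1 : truncTHT f₁ f₂ f₃ ε R x = ∫ t, S.indicator F t := by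
    rw [integral_indicator hSm]; rfl
  have h2 : ∫ t, S.indicator F (-t) = ∫ t, S.indicator F t := integral_neg_eq_self _ _
  have h3 : ∫ t, S.indicator (ev f₁ f₂ f₃ x) t =
      (∫ t, S.indicator F t) + (∫ t, S.indicator F (-t)) := by
    rw [← integral_add hFi hFi.comp_neg]
    congr 1
    funext t
    by_cases ht : t ∈ S
    · have ht' : -t ∈ S := by
        show ε < |-t| ∧ |-t| < R
        rw [abs_neg]; exact ht
      rw [indicator_of_mem ht, indicator_of_mem ht, indicator_of_mem ht']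
      simp only [hF, ev]
      push_cast
      rw [div_neg, sub_div, sub_eq_add_neg]
    · have ht' : -t ∉ S := by
        intro h
        apply ht
        have : ε < |-t| ∧ |-t| < R := h
        rwa [abs_neg] at this
      rw [indicator_of_notMem ht, indicator_of_notMem ht, indicator_of_notMem ht', add_zero]
  rw [h3, h2, h1]
  ring

/-- the principal value exists where the three functions are differentiable -/
theorem lim_exists {f₁ f₂ f₃ : ℝ → ℂ} (m₁ : Measurable f₁) (m₂ : Measurable f₂)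
    (m₃ : Measurable f₃) {x : ℝ} (hi : Integrable (pr f₁ f₂ f₃ x))
    (d₁ : DifferentiableAt ℝ f₁ x) (d₂ : DifferentiableAt ℝ f₂ x)
    (d₃ : DifferentiableAt ℝ f₃ x) :
    Tendsto (fun q : ℝ × ℝ => truncTHT f₁ f₂ f₃ q.1 q.2 x) (𝓝[>] (0 : ℝ) ×ˢ atTop)
      (𝓝 (THT f₁ f₂ f₃ x)) := by
  have hd : DifferentiableAt ℝ (pr f₁ f₂ f₃ x) 0 := by
    have k : ∀ (f : ℝ → ℂ) (c : ℝ), DifferentiableAt ℝ f x →
        DifferentiableAt ℝ (fun t => f (x - c * t)) 0 := by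
      intro f c hf
      refine DifferentiableAt.comp (g := f) (f := fun t : ℝ => x - c * t) 0 ?_ (by fun_prop)
      simpa using hf
    have k1 := k f₁ 1 d₁
    simp only [one_mul] at k1
    exact (k1.mul (k f₂ 2 d₂)).mul (k f₃ 3 d₃)
  obtain ⟨c, hc⟩ := hd.isBigO_sub.bound
  rw [Metric.eventually_nhds_iff_ball] at hc
  obtain ⟨δ, hδ, hc⟩ := hc
  set L : ℝ := 2 * |c| with hL
  have hL0 : 0 ≤ L := by positivity
  have hl : ∀ t, |t| < δ → ‖pr f₁ f₂ f₃ x t - pr f₁ f₂ f₃ x (-t)‖ ≤ L * |t| := by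
    intro t ht
    have h1 := hc t (by simpa using ht)
    have h2 := hc (-t) (by simpa using ht)
    simp only [sub_zero, norm_neg, Real.norm_eq_abs] at h1 h2
    have h3 : pr f₁ f₂ f₃ x t - pr f₁ f₂ f₃ x (-t) =
        (pr f₁ f₂ f₃ x t - pr f₁ f₂ f₃ x 0) - (pr f₁ f₂ f₃ x (-t) - pr f₁ f₂ f₃ x 0) := by ring
    rw [h3]
    refine (norm_sub_le _ _).trans ?_
    have h4 : c * |t| ≤ |c| * |t| := mul_le_mul_of_nonneg_right (le_abs_self c) (abs_nonneg t)
    rw [hL]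
    linarith
  have hm : Measurable (ev f₁ f₂ f₃ x) := by
    unfold ev
    exact ((pr_meas m₁ m₂ m₃ x).sub ((pr_meas m₁ m₂ m₃ x).comp measurable_neg)).div (by fun_prop)
  have main : Tendsto (fun q : ℝ × ℝ =>
      ∫ t, {t : ℝ | q.1 < |t| ∧ |t| < q.2}.indicator (ev f₁ f₂ f₃ x) t)
      (𝓝[>] (0 : ℝ) ×ˢ atTop) (𝓝 (∫ t, ev f₁ f₂ f₃ x t)) := by
    refine tendsto_integral_filter_of_dominated_convergence
      (fun t => (Ioo (-δ) δ).indicator (fun _ => L) t +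
        (‖pr f₁ f₂ f₃ x t‖ + ‖pr f₁ f₂ f₃ x (-t)‖) * δ⁻¹) ?_ ?_ ?_ ?_
    · exact Eventually.of_forall fun q =>
        (hm.indicator (shell_meas q.1 q.2)).aestronglyMeasurable
    · refine Eventually.of_forall fun q => ae_of_all _ fun t => ?_
      refine (norm_indicator_le_norm_self _ _).trans ?_
      unfold ev
      rw [norm_div, Complex.norm_real, Real.norm_eq_abs]
      by_cases ht : |t| < δ
      · have hmem : t ∈ Ioo (-δ) δ := abs_lt.1 ht
        rw [indicator_of_mem hmem]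
        have h1 : ‖pr f₁ f₂ f₃ x t - pr f₁ f₂ f₃ x (-t)‖ / |t| ≤ L :=
          div_le_of_le_mul₀ (abs_nonneg _) hL0 (hl t ht)
        have h2 : 0 ≤ (‖pr f₁ f₂ f₃ x t‖ + ‖pr f₁ f₂ f₃ x (-t)‖) * δ⁻¹ := by positivity
        linarith
      · push Not at ht
        have h0 : 0 ≤ (Ioo (-δ) δ).indicator (fun _ => L) t := indicator_nonneg (fun _ _ => hL0) _
        have h1 : ‖pr f₁ f₂ f₃ x t - pr f₁ f₂ f₃ x (-t)‖ / |t| ≤
            ‖pr f₁ f₂ f₃ x t - pr f₁ f₂ f₃ x (-t)‖ * δ⁻¹ := by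
          rw [div_eq_mul_inv]
          gcongr
        have h2 := norm_sub_le (pr f₁ f₂ f₃ x t) (pr f₁ f₂ f₃ x (-t))
        have h3 : ‖pr f₁ f₂ f₃ x t - pr f₁ f₂ f₃ x (-t)‖ * δ⁻¹ ≤
            (‖pr f₁ f₂ f₃ x t‖ + ‖pr f₁ f₂ f₃ x (-t)‖) * δ⁻¹ := by gcongr
        linarith only [h0, h1, h3]
    · refine Integrable.add ?_ ?_
      · exact (integrableOn_const (by rw [Real.volume_Ioo]; exact ENNReal.ofReal_ne_top)
          (by simp)).integrable_indicator measurableSet_Ioo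
      · exact (hi.norm.add hi.comp_neg.norm).mul_const _
    · have h0 : ∀ᵐ t : ℝ, t ≠ 0 := by
        rw [ae_iff]; simp
      filter_upwards [h0] with t ht
      apply tendsto_const_nhds.congr'
      have h1 : ∀ᶠ ε : ℝ in 𝓝[>] (0 : ℝ), ε < |t| :=
        nhdsWithin_le_nhds (Iio_mem_nhds (abs_pos.2 ht))
      have h2 : ∀ᶠ R : ℝ in atTop, |t| < R := eventually_gt_atTop _
      filter_upwards [h1.prod_mk h2] with q hq
      have hmem : t ∈ {t : ℝ | q.1 < |t| ∧ |t| < q.2} := hq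
      rw [indicator_of_mem hmem]
  have h2 : Tendsto (fun q : ℝ × ℝ => truncTHT f₁ f₂ f₃ q.1 q.2 x) (𝓝[>] (0 : ℝ) ×ˢ atTop)
      (𝓝 ((1 / 2 : ℂ) * ∫ t, ev f₁ f₂ f₃ x t)) := by
    refine (main.const_mul (1 / 2 : ℂ)).congr' ?_
    have h1 : ∀ᶠ ε : ℝ in 𝓝[>] (0 : ℝ), 0 < ε := self_mem_nhdsWithin
    filter_upwards [h1.prod_inl (atTop : Filter ℝ)] with q hq
    exact (trunc_half m₁ m₂ m₃ hi hq).symm
  unfold THT
  rw [h2.limUnder_eq]
  exact h2

/-- passage to the limit in the truncations -/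
theorem tht_le {f₁ f₂ f₃ : ℝ → ℂ} (m₁ : Measurable f₁) (m₂ : Measurable f₂)
    (m₃ : Measurable f₃) {p X : ℝ≥0∞}
    (hlim : ∀ᵐ x : ℝ, Tendsto (fun q : ℝ × ℝ => truncTHT f₁ f₂ f₃ q.1 q.2 x)
      (𝓝[>] (0 : ℝ) ×ˢ atTop) (𝓝 (THT f₁ f₂ f₃ x)))
    (H : ∀ ε R : ℝ, 0 < ε → ε < R → eLpNorm (truncTHT f₁ f₂ f₃ ε R) p volume ≤ X) :
    eLpNorm (THT f₁ f₂ f₃) p volume ≤ X := by
  set e : ℕ → ℝ := fun n => 1 / ((n : ℝ) + 1) with he
  set r : ℕ → ℝ := fun n => 2 + n with hr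
  have he0 : ∀ n, 0 < e n := fun n => by rw [he]; positivity
  have her : ∀ n, e n < r n := fun n => by
    have h1 : (1 : ℝ) / ((n : ℝ) + 1) ≤ 1 := by
      rw [div_le_one (by positivity)]; linarith [(Nat.cast_nonneg n : (0 : ℝ) ≤ n)]
    simp only [he, hr]
    linarith [(Nat.cast_nonneg n : (0 : ℝ) ≤ n)]
  have t1 : Tendsto e atTop (𝓝[>] 0) := by
    rw [tendsto_nhdsWithin_iff]
    exact ⟨tendsto_one_div_add_atTop_nhds_zero_nat, Eventually.of_forall he0⟩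
  have t2 : Tendsto r atTop atTop :=
    tendsto_atTop_add_const_left _ _ tendsto_natCast_atTop_atTop
  have hl : ∀ᵐ x : ℝ, Tendsto (fun n => truncTHT f₁ f₂ f₃ (e n) (r n) x) atTop
      (𝓝 (THT f₁ f₂ f₃ x)) := by
    filter_upwards [hlim] with x hx
    exact hx.comp (t1.prodMk t2)
  refine (Lp.eLpNorm_lim_le_liminf_eLpNorm (fun n => ?_) _ hl).trans ?_
  · have hm : Measurable fun z : ℝ × ℝ =>
        f₁ (z.1 - z.2) * f₂ (z.1 - 2 * z.2) * f₃ (z.1 - 3 * z.2) / (z.2 : ℂ) :=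
      (((m₁.comp (by fun_prop)).mul (m₂.comp (by fun_prop))).mul (m₃.comp (by fun_prop))).div
        (by fun_prop)
    exact (hm.stronglyMeasurable.integral_prod_right'
      (ν := volume.restrict {t : ℝ | e n < |t| ∧ |t| < r n})).aestronglyMeasurable
  refine liminf_le_of_le (by isBoundedDefault) fun b hb => ?_
  obtain ⟨n, hn⟩ := hb.exists
  exact hn.trans (H (e n) (r n) (he0 n) (her n))

end Vale.Agent.P141.R2.H4.Pv
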