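import Vale.Agent.P141.MathlibUsed

/-!
# Bounded `q`-variation: a monotone control function
-/

namespace Vale.Agent.P141.R2.H4

open Set

/-- the sums over chains below `x` -/
def chains (q : ℝ) (D : ℝ → ℂ) (x : ℝ) : Set ℝ :=
  {r | ∃ (n : ℕ) (p : ℕ → ℝ), Monotone p ∧ (∀ i, p i ≤ x) ∧
    r = ∑ i ∈ Finset.range n, ‖D (p (i + 1)) - D (p i)‖ ^ q}

theorem qvar {q : ℝ} {D : ℝ → ℂ}
    (H : ∀ (n : ℕ) (x : ℕ → ℝ), Monotone x →
      ∑ i ∈ Finset.range n, ‖D (x (i + 1)) - D (x i)‖ ^ q ≤ 1) :
    ∃ v : ℝ → ℝ, Monotone v ∧ (∀ x, 0 ≤ v x ∧ v x ≤ 1) ∧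
      ∀ x y, x ≤ y → ‖D y - D x‖ ^ q ≤ v y - v x := by
  have hb : ∀ x, BddAbove (chains q D x) := by
    intro x
    refine ⟨1, ?_⟩
    rintro r ⟨n, p, hp, -, rfl⟩
    exact H n p hp
  have h0 : ∀ x, (0 : ℝ) ∈ chains q D x := fun x =>
    ⟨0, fun _ => x, monotone_const, fun _ => le_rfl, by simp⟩
  refine ⟨fun x => sSup (chains q D x), ?_, fun x => ⟨le_csSup (hb x) (h0 x), ?_⟩, ?_⟩
  · intro x y hxy
    refine csSup_le_csSup (hb y) ⟨0, h0 x⟩ ?_
    rintro r ⟨n, p, hp, hx, rfl⟩
    exact ⟨n, p, hp, fun i => (hx i).trans hxy, rfl⟩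
  · refine csSup_le ⟨0, h0 x⟩ ?_
    rintro r ⟨n, p, hp, -, rfl⟩
    exact H n p hp
  · intro x y hxy
    have key : ∀ r ∈ chains q D x, r ≤ sSup (chains q D y) - ‖D y - D x‖ ^ q := by
      rintro r ⟨n, p, hp, hx, rfl⟩
      set p' : ℕ → ℝ := fun i => if i ≤ n then p i else if i = n + 1 then x else y with hp'
      have e1 : ∀ i, i ≤ n → p' i = p i := fun i hi => by rw [hp']; simp only [if_pos hi]
      have e2 : p' (n + 1) = x := by
        rw [hp']; simp only [if_neg (by omega : ¬ n + 1 ≤ n), if_true]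
      have e3 : ∀ i, n + 2 ≤ i → p' i = y := fun i hi => by
        rw [hp']
        simp only [if_neg (by omega : ¬ i ≤ n), if_neg (by omega : ¬ i = n + 1)]
      have hm : Monotone p' := by
        refine monotone_nat_of_le_succ fun i => ?_
        rcases lt_trichotomy i n with h | h | h
        · rw [e1 i h.le, e1 (i + 1) (by omega)]
          exact hp (Nat.le_succ i)
        · subst h
          rw [e1 i le_rfl, e2]
          exact hx i
        · rcases Nat.lt_or_ge i (n + 2) with h2 | h2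
          · have : i = n + 1 := by omega
            subst this
            rw [e2, e3 _ (by omega)]
            exact hxy
          · rw [e3 i h2, e3 _ (by omega)]
      have hy : ∀ i, p' i ≤ y := by
        intro i
        rcases Nat.lt_or_ge i (n + 1) with h | h
        · rw [e1 i (by omega)]
          exact (hx i).trans hxy
        · rcases Nat.lt_or_ge i (n + 2) with h2 | h2
          · have : i = n + 1 := by omega
            subst this
            rw [e2]
            exact hxy
          · rw [e3 i h2]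
      have h1 := le_csSup (hb y) ⟨n + 2, p', hm, hy, rfl⟩
      rw [Finset.sum_range_succ, Finset.sum_range_succ, e2, e3 (n + 1 + 1) (by omega)] at h1
      have h2 : ∑ i ∈ Finset.range n, ‖D (p' (i + 1)) - D (p' i)‖ ^ q =
          ∑ i ∈ Finset.range n, ‖D (p (i + 1)) - D (p i)‖ ^ q := by
        refine Finset.sum_congr rfl fun i hi => ?_
        rw [Finset.mem_range] at hi
        rw [e1 i hi.le, e1 (i + 1) (by omega)]
      rw [h2] at h1
      have h3 : 0 ≤ ‖D x - D (p' n)‖ ^ q := by positivity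
      linarith
    have := csSup_le ⟨0, h0 x⟩ key
    simp only
    linarith

end Vale.Agent.P141.R2.H4
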