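import Vale.Agent.P141.R2.H4.Hol
import Vale.Agent.P141.R2.H4.QVar
import Vale.Agent.P141.R2.H864.Reg

/-!
# Amplitudes of bounded `q`-variation
-/

namespace Vale.Agent.P141.R2.H4

open MeasureTheory Set Filter Topology Vale.Agent.P141.H97 Vale.Agent.P141.R2.H152
open Vale.Agent.P141.H115
open scoped ENNReal SchwartzMap

/-- the `q`-variation is at most one -/
def QV (q : ℝ) (u : ℝ → ℂ) : Prop :=
  ∀ (n : ℕ) (x : ℕ → ℝ), Monotone x → ∑ i ∈ Finset.range n, ‖u (x (i + 1)) - u (x i)‖ ^ q ≤ 1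

/-- an amplitude bounded by one and of `q`-variation at most one, times a quadratic phase -/
def RegQ (q : ℝ) (P : ℝ → ℂ) : Prop :=
  ∃ (u : ℝ → ℂ) (a b : ℝ), (∀ x, ‖u x‖ ≤ 1) ∧ QV q u ∧
    ∀ x, P x = u x * Complex.exp (Complex.I * ((a * x ^ 2 + b * x : ℝ) : ℂ))

theorem QV.hol {q : ℝ} (hq : 1 ≤ q) {u : ℝ → ℂ} (h : QV q u) :
    ∃ v : ℝ → ℝ, Monotone v ∧ (∀ x, 0 ≤ v x) ∧ (∀ x, v x ≤ 1) ∧
      ∀ x y, ‖u x - u y‖ ≤ |v x - v y| ^ (1 / q) := by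
  obtain ⟨v, hv, h01, hd⟩ := qvar h
  have hq0 : 0 < q := by linarith
  have key : ∀ x y, x ≤ y → ‖u y - u x‖ ≤ |v y - v x| ^ (1 / q) := by
    intro x y hxy
    have h1 := hd x y hxy
    have h2 : (‖u y - u x‖ ^ q) ^ (1 / q) ≤ |v y - v x| ^ (1 / q) :=
      Real.rpow_le_rpow (by positivity) (h1.trans (le_abs_self _)) (by positivity)
    rwa [← Real.rpow_mul (norm_nonneg _), mul_one_div_cancel hq0.ne', Real.rpow_one] at h2
  refine ⟨v, hv, fun x => (h01 x).1, fun x => (h01 x).2, fun x y => ?_⟩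
  rcases le_total x y with hxy | hxy
  · rw [norm_sub_rev, abs_sub_comm]
    exact key x y hxy
  · exact key y x hxy

theorem QV.meas {q : ℝ} (hq : 1 ≤ q) {u : ℝ → ℂ} (h : QV q u) : Measurable u := by
  obtain ⟨v, hv, h0, -, hd⟩ := h.hol hq
  exact hol_meas (by positivity) hv h0 hd

theorem RegQ.meas {q : ℝ} (hq : 1 ≤ q) {P : ℝ → ℂ} (h : RegQ q P) : Measurable P := by
  obtain ⟨u, a, b, -, h2, hP⟩ := h
  have : P = fun x => u x * Complex.exp (Complex.I * ((a * x ^ 2 + b * x : ℝ) : ℂ)) := funext hP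
  rw [this]
  have h3 : Measurable fun x : ℝ => Complex.exp (Complex.I * ((a * x ^ 2 + b * x : ℝ) : ℂ)) :=
    Continuous.measurable (by fun_prop)
  exact (h2.meas hq).mul h3

theorem RegQ.le {q : ℝ} {P : ℝ → ℂ} (h : RegQ q P) (x : ℝ) : ‖P x‖ ≤ 1 := by
  obtain ⟨u, a, b, h1, -, hP⟩ := h
  rw [hP, norm_mul, norm_phase, mul_one]
  exact h1 x

theorem LH_mul {f g : ℝ → ℂ} {x s : ℝ} (hf : Pv.LH f x s) (hg : Pv.LH g x s)
    (bf : ∀ y, ‖f y‖ ≤ 1) (bg : ∀ y, ‖g y‖ ≤ 1) : Pv.LH (fun y => f y * g y) x s := by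
  obtain ⟨L₁, δ₁, l₁, d₁, H₁⟩ := hf
  obtain ⟨L₂, δ₂, l₂, d₂, H₂⟩ := hg
  refine ⟨L₁ + L₂, min δ₁ δ₂, by positivity, lt_min d₁ d₂, fun h hh => ?_⟩
  have a1 := H₁ h (hh.trans_le (min_le_left _ _))
  have a2 := H₂ h (hh.trans_le (min_le_right _ _))
  have e : f (x + h) * g (x + h) - f x * g x =
      (f (x + h) - f x) * g (x + h) + f x * (g (x + h) - g x) := by ring
  rw [e]
  refine (norm_add_le _ _).trans ?_
  rw [norm_mul, norm_mul]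
  calc _ ≤ (L₁ * |h| ^ s) * 1 + 1 * (L₂ * |h| ^ s) := by
        gcongr
        · exact bg _
        · exact bf _
    _ = _ := by ring

theorem RegQ.LH {q : ℝ} (hq : 1 ≤ q) {P : ℝ → ℂ} (h : RegQ q P) :
    ∀ᵐ x : ℝ, Pv.LH P x (1 / q) := by
  obtain ⟨u, a, b, h1, h2, hP⟩ := h
  obtain ⟨v, hv, h0, -, hd⟩ := h2.hol hq
  have hq1 : 1 / q ≤ 1 := by rw [div_le_one (by linarith)]; exact hq
  have e : P = fun x => u x * Complex.exp (Complex.I * ((a * x ^ 2 + b * x : ℝ) : ℂ)) := funext hP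
  rw [e]
  filter_upwards [hol_LH (s := 1 / q) (by positivity) hv hd] with x hx
  refine LH_mul hx (Pv.LH.of_diff ?_ hq1) h1 fun y => by rw [norm_phase]
  have hq : DifferentiableAt ℝ (fun x : ℝ => ((a * x ^ 2 + b * x : ℝ) : ℂ)) x :=
    Complex.ofRealCLM.differentiableAt.comp x
      (by fun_prop : DifferentiableAt ℝ (fun x : ℝ => a * x ^ 2 + b * x) x)
  exact (hq.const_mul _).cexp

/-- one piece -/
theorem regq_form {q : ℝ} (hq : 1 ≤ q) {c₁ c₂ c₃ : ℝ} (h12 : c₁ ≠ c₂) (h13 : c₁ ≠ c₃)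
    (h23 : c₂ ≠ c₃) : ∃ A : ℝ, 0 ≤ A ∧ ∀ P : ℝ → ℂ, RegQ q P → ∀ ε R : ℝ, 0 < ε → ε < R →
      FormBd P A ε R c₁ c₂ c₃ := by
  obtain ⟨A, hA0, hA⟩ := hol_form h12 h13 h23 (s := 1 / q) (by positivity)
  refine ⟨A, hA0, fun P hP ε R hε hR => ?_⟩
  obtain ⟨u, a, b, h1, h2, hP⟩ := hP
  obtain ⟨v, hv, h0, h01, hd⟩ := h2.hol hq
  have key := H864.phase h12 h13 h23 a b 0 (hA v u hv h0 h01 h1 hd ε R hε hR)
  have e : P = fun x => u x * Complex.exp (Complex.I * ((a * x ^ 2 + b * x + 0 : ℝ) : ℂ)) := by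
    funext x
    rw [hP x, add_zero]
  rw [e]
  exact key

theorem glue_meas {q : ℝ} (hq : 1 ≤ q) {k : ℝ → ℕ} (hk : Measurable k) {P : ℕ → ℝ → ℂ}
    (hP : ∀ j, RegQ q (P j)) : Measurable fun x => P (k x) x := by
  have : Measurable fun z : ℕ × ℝ => P z.1 z.2 :=
    measurable_from_prod_countable_right fun j => (hP j).meas hq
  exact this.comp (hk.prodMk measurable_id)

theorem glue_LH {q : ℝ} (hq : 1 ≤ q) {k : ℝ → ℕ} {P : ℕ → ℝ → ℂ} (hP : ∀ j, RegQ q (P j))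
    (hk : ∀ᵐ x : ℝ, ∀ᶠ y in 𝓝 x, k y = k x) :
    ∀ᵐ x : ℝ, Pv.LH (fun x => P (k x) x) x (1 / q) := by
  have hall : ∀ᵐ x : ℝ, ∀ j, Pv.LH (P j) x (1 / q) := ae_all_iff.2 fun j => (hP j).LH hq
  filter_upwards [hall, hk] with x hx hkx
  obtain ⟨L, δ, hL, hδ, H⟩ := hx (k x)
  rw [Metric.eventually_nhds_iff] at hkx
  obtain ⟨δ', hδ', H'⟩ := hkx
  refine ⟨L, min δ δ', hL, lt_min hδ hδ', fun h hh => ?_⟩
  have h1 : k (x + h) = k x := H' (by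
    rw [Real.dist_eq]; simpa using hh.trans_le (min_le_right _ _))
  simp only [h1]
  exact H h (hh.trans_le (min_le_left _ _))

/-- **(1)** `N` pieces -/
theorem pieces_q {q : ℝ} (hq : 1 ≤ q) : ∃ C : ℝ, ∀ (N : ℕ) (k : ℝ → ℕ) (P : ℕ → ℝ → ℂ),
    Monotone k → (∀ x, k x < N) → (∀ j, RegQ q (P j)) →
      Bdd4 (C * (1 + Real.log N)) fun x => P (k x) x := by
  have one : ∀ {c₁ c₂ c₃ : ℝ}, c₁ ≠ c₂ → c₁ ≠ c₃ → c₂ ≠ c₃ → ∃ C : ℝ, 0 ≤ C ∧
      ∀ (N : ℕ) (k : ℝ → ℕ) (P : ℕ → ℝ → ℂ), Monotone k → (∀ x, k x < N) →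
      (∀ j, RegQ q (P j)) → ∀ ε R : ℝ, 0 < ε → ε < R →
      FormBd (fun x => P (k x) x) (C * (1 + Real.log N)) ε R c₁ c₂ c₃ := by
    intro c₁ c₂ c₃ h12 h13 h23
    obtain ⟨A, hA0, hA⟩ := regq_form hq h12 h13 h23
    obtain ⟨B, hB0, hB⟩ := H131.pieces h12 h13 h23
    refine ⟨A + 2 * B, by positivity, fun N k P hk hkN hP ε R hε hR => ?_⟩
    have hN : 0 < N := (Nat.zero_le _).trans_lt (hkN 0)
    have key := hB A ε R hA0 hε hR (Nat.log 2 N + 1) k P hk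
      (fun x => (hkN x).trans (Nat.lt_pow_succ_log_self (by norm_num) N))
      (fun j => (hP j).meas hq) (fun j => (hP j).le) (fun j => hA (P j) (hP j) ε R hε hR)
    have hl := log_bd hN
    have hN1 : (1 : ℝ) ≤ N := by exact_mod_cast hN
    have hlog : 0 ≤ Real.log N := Real.log_nonneg hN1
    have hle : A + B * ((Nat.log 2 N + 1 : ℕ) : ℝ) ≤ (A + 2 * B) * (1 + Real.log N) := by
      calc A + B * ((Nat.log 2 N + 1 : ℕ) : ℝ) ≤ A + B * (1 + 2 * Real.log N) := by gcongr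
        _ ≤ _ := by nlinarith [mul_nonneg hA0 hlog]
    intro f₁ f₂ f₃ h₁ h₂ h₃
    exact (key f₁ f₂ f₃ h₁ h₂ h₃).trans (mul_le_mul_of_nonneg_right hle (by positivity))
  obtain ⟨C0, c0, H0⟩ := one (c₁ := 1) (c₂ := 2) (c₃ := 3) (by norm_num) (by norm_num)
    (by norm_num)
  obtain ⟨C1, c1, H1⟩ := one (c₁ := -1) (c₂ := 2 - 1) (c₃ := 3 - 1) (by norm_num) (by norm_num)
    (by norm_num)
  obtain ⟨C2, c2, H2⟩ := one (c₁ := -2) (c₂ := 1 - 2) (c₃ := 3 - 2) (by norm_num) (by norm_num)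
    (by norm_num)
  obtain ⟨C3, c3, H3⟩ := one (c₁ := -3) (c₂ := 1 - 3) (c₃ := 2 - 3) (by norm_num) (by norm_num)
    (by norm_num)
  refine ⟨C0 + C1 + C2 + C3, fun N k P hk hkN hP => ?_⟩
  have hlog : 0 ≤ Real.log N := Real.log_natCast_nonneg N
  have up : ∀ {C C' ε R x y z : ℝ} {D : ℝ → ℂ}, C ≤ C' → FormBd D (C * (1 + Real.log N)) ε R x y z →
      FormBd D (C' * (1 + Real.log N)) ε R x y z := by
    intro C C' ε R x y z D hC h f₁ f₂ f₃ h₁ h₂ h₃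
    exact (h f₁ f₂ f₃ h₁ h₂ h₃).trans (by gcongr)
  have hq1 : 1 / q ≤ 1 := by rw [div_le_one (by linarith)]; exact hq
  exact bdd4' (s := 1 / q) (by positivity) (glue_meas hq hk.measurable hP)
    (fun x => (hP _).le x) (by positivity) hq1 (glue_LH hq hP (mono_loc hk))
    (fun ε R hε hR => up (by linarith) (H0 N k P hk hkN hP ε R hε hR))
    (fun ε R hε hR => up (by linarith) (H1 N k P hk hkN hP ε R hε hR))
    (fun ε R hε hR => up (by linarith) (H2 N k P hk hkN hP ε R hε hR))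
    (fun ε R hε hR => up (by linarith) (H3 N k P hk hkN hP ε R hε hR))

/-- **(2)** regular off a set of Aikawa type -/
theorem porous_q {q : ℝ} (hq : 1 ≤ q) {d : ℝ → ℝ} {a K : ℝ} (h : Aik d a K) : ∃ C : ℝ,
    ∀ (k : ℝ → ℕ) (P : ℕ → ℝ → ℂ), Measurable k → (∀ x y, |x - y| < d x → k y = k x) →
      (∀ j, RegQ q (P j)) → Bdd4 C fun x => P (k x) x := by
  have one : ∀ {c₁ c₂ c₃ : ℝ}, c₁ ≠ c₂ → c₁ ≠ c₃ → c₂ ≠ c₃ → ∃ C : ℝ, 0 ≤ C ∧ ∀ (k : ℝ → ℕ)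
      (P : ℕ → ℝ → ℂ), Measurable k → (∀ x y, |x - y| < d x → k y = k x) →
      (∀ j, RegQ q (P j)) → ∀ ε R : ℝ, 0 < ε → ε < R →
      FormBd (fun x => P (k x) x) C ε R c₁ c₂ c₃ := by
    intro c₁ c₂ c₃ h12 h13 h23
    obtain ⟨A, hA0, hA⟩ := regq_form hq h12 h13 h23
    obtain ⟨B, hB0, hB⟩ := por_form h h12 h13 h23
    refine ⟨A + B, by positivity, fun k P hk hl hP ε R hε hR => ?_⟩
    exact hB A ε R hA0 hε hR k P hk hl (fun j => (hP j).meas hq) (fun j => (hP j).le)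
      (fun j => hA (P j) (hP j) ε R hε hR)
  obtain ⟨C0, c0, H0⟩ := one (c₁ := 1) (c₂ := 2) (c₃ := 3) (by norm_num) (by norm_num)
    (by norm_num)
  obtain ⟨C1, c1, H1⟩ := one (c₁ := -1) (c₂ := 2 - 1) (c₃ := 3 - 1) (by norm_num) (by norm_num)
    (by norm_num)
  obtain ⟨C2, c2, H2⟩ := one (c₁ := -2) (c₂ := 1 - 2) (c₃ := 3 - 2) (by norm_num) (by norm_num)
    (by norm_num)
  obtain ⟨C3, c3, H3⟩ := one (c₁ := -3) (c₂ := 1 - 3) (c₃ := 2 - 3) (by norm_num) (by norm_num)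
    (by norm_num)
  refine ⟨C0 + C1 + C2 + C3, fun k P hk hl hP => ?_⟩
  have up : ∀ {C C' ε R x y z : ℝ} {D : ℝ → ℂ}, C ≤ C' → FormBd D C ε R x y z →
      FormBd D C' ε R x y z := by
    intro C C' ε R x y z D hC h f₁ f₂ f₃ h₁ h₂ h₃
    exact (h f₁ f₂ f₃ h₁ h₂ h₃).trans (by gcongr)
  have hq1 : 1 / q ≤ 1 := by rw [div_le_one (by linarith)]; exact hq
  exact bdd4' (s := 1 / q) (by positivity) (glue_meas hq hk hP)
    (fun x => (hP _).le x) (by positivity) hq1 (glue_LH hq hP (dist_loc h hl))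
    (fun ε R hε hR => up (by linarith) (H0 k P hk hl hP ε R hε hR))
    (fun ε R hε hR => up (by linarith) (H1 k P hk hl hP ε R hε hR))
    (fun ε R hε hR => up (by linarith) (H2 k P hk hl hP ε R hε hR))
    (fun ε R hε hR => up (by linarith) (H3 k P hk hl hP ε R hε hR))

end Vale.Agent.P141.R2.H4
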