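import Vale.Agent.P141.R2.H4.Ops

/-!
# Sums of averages of `T` over intervals
-/

namespace Vale.Agent.P141.R2.H4

open MeasureTheory Set Filter Topology Vale.Agent.P141.H97 Vale.Agent.P141.R2.H152
open Vale.Agent.P141.H115
open scoped ENNReal SchwartzMap

/-- **(3)** `N` arbitrary consecutive intervals -/
theorem sum_log : ∃ C : ℝ, ∀ (N : ℕ) (a : ℕ → ℝ), Monotone a → ∀ (α β : ℕ → ℝ)
    (f g h : 𝓢(ℝ, ℂ)), ∑ k ∈ Finset.range N, ‖∫ x in a k..a (k + 1),
      Complex.exp (Complex.I * ((α k * x ^ 2 + β k * x : ℝ) : ℂ)) * THT f g h x‖ ≤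
      C * (1 + Real.log N) * ((eLpNorm f 3 volume).toReal * (eLpNorm g 3 volume).toReal *
        (eLpNorm h 3 volume).toReal) := by
  obtain ⟨C, c0, H⟩ := pw (c₁ := 1) (c₂ := 2) (c₃ := 3) (by norm_num) (by norm_num) (by norm_num)
  refine ⟨3 * C, fun N a ha α β f g h => ?_⟩
  have hlog : 0 ≤ Real.log N := Real.log_natCast_nonneg N
  rcases Nat.eq_zero_or_pos N with h0 | hN
  · subst h0
    rw [Finset.range_zero, Finset.sum_empty]
    positivity
  · have key := sum_tht (N := N) (A := C * (1 + Real.log ((N + 2 : ℕ) : ℝ))) ha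
      (fun ε R hε hR Q hQ => H (N + 2) _ (pieces_sum N ha Q hQ) ε R hε hR) α β f g h
    refine key.trans ?_
    have hN1 : (1 : ℝ) ≤ N := by exact_mod_cast hN
    have h1 : Real.log ((N + 2 : ℕ) : ℝ) ≤ 2 + Real.log N := by
      calc Real.log ((N + 2 : ℕ) : ℝ) ≤ Real.log (3 * N) := by
            apply Real.log_le_log (by positivity)
            push_cast
            linarith
        _ = Real.log 3 + Real.log N := Real.log_mul (by norm_num) (by positivity)
        _ ≤ 2 + Real.log N := by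
            have : Real.log 3 ≤ 3 - 1 := Real.log_le_sub_one_of_pos (by norm_num)
            linarith
    have h2 : C * (1 + Real.log ((N + 2 : ℕ) : ℝ)) ≤ 3 * C * (1 + Real.log N) := by
      calc C * (1 + Real.log ((N + 2 : ℕ) : ℝ)) ≤ C * (1 + (2 + Real.log N)) := by gcongr
        _ ≤ 3 * C * (1 + Real.log N) := by nlinarith [mul_nonneg c0 hlog]
    gcongr

theorem cnt_local {S : Set ℝ} {N : ℕ} {a : ℕ → ℝ} (haS : ∀ j, a j ∈ S) (x y : ℝ)
    (h : |x - y| < Metric.infDist x S) : cnt N a y = cnt N a x := by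
  unfold cnt
  congr 1
  apply Finset.filter_congr
  intro j _
  have h1 := Metric.infDist_le_dist_of_mem (x := x) (haS j)
  rw [Real.dist_eq] at h1
  have h2 : |x - y| < |x - a j| := h.trans_le h1
  constructor
  · intro h3
    by_contra h4
    have h5 : |x - a j| = a j - x := by rw [abs_of_nonpos (by linarith)]; ring
    have h6 := neg_abs_le (x - y)
    linarith
  · intro h3
    by_contra h4
    have h5 : |x - a j| = x - a j := abs_of_pos (by linarith)
    have h6 := le_abs_self (x - y)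
    linarith

/-- **(4)** intervals with endpoints in a set of Aikawa type, any number of them -/
theorem sum_noloss {S : Set ℝ} {b K : ℝ} (hS : Aik (fun x => Metric.infDist x S) b K) :
    ∃ C : ℝ, ∀ (N : ℕ) (a : ℕ → ℝ), Monotone a → (∀ j, a j ∈ S) → ∀ (α β : ℕ → ℝ)
    (f g h : 𝓢(ℝ, ℂ)), ∑ k ∈ Finset.range N, ‖∫ x in a k..a (k + 1),
      Complex.exp (Complex.I * ((α k * x ^ 2 + β k * x : ℝ) : ℂ)) * THT f g h x‖ ≤
      C * ((eLpNorm f 3 volume).toReal * (eLpNorm g 3 volume).toReal *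
        (eLpNorm h 3 volume).toReal) := by
  obtain ⟨A, hA0, hA⟩ := reg_form (c₁ := 1) (c₂ := 2) (c₃ := 3) (by norm_num) (by norm_num)
    (by norm_num)
  obtain ⟨B, hB0, hB⟩ := por_form hS (c₁ := 1) (c₂ := 2) (c₃ := 3) (by norm_num) (by norm_num)
    (by norm_num)
  refine ⟨A + B, fun N a ha haS α β f g h => ?_⟩
  refine sum_tht (N := N) ha (fun ε R hε hR Q hQ => ?_) α β f g h
  have key := hB A ε R hA0 hε hR (cnt N a) (pc N Q) (cnt_mono N a).measurable (cnt_local haS)
    (fun j => (pc_reg N hQ j).meas) (fun j => (pc_reg N hQ j).le)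
    (fun j => hA _ (pc_reg N hQ j) ε R hε hR)
  have e : (fun x => ∑ j ∈ Finset.range N, (Ioc (a j) (a (j + 1))).indicator (Q j) x) =
      fun x => pc N Q (cnt N a x) x := funext (sum_rep N ha Q)
  rw [e]
  exact key

end Vale.Agent.P141.R2.H4
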