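import Vale.Agent.P141.R2.H4.RegQ

/-!
# Sums of averages of `T` against regular functions
-/

namespace Vale.Agent.P141.R2.H4

open MeasureTheory Set Filter Topology Vale.Agent.P141.H97 Vale.Agent.P141.R2.H152
open Vale.Agent.P141.H115
open scoped ENNReal SchwartzMap

theorem regq_zero {q : ℝ} (hq : 1 ≤ q) : RegQ q fun _ => 0 :=
  ⟨fun _ => 0, 0, 0, fun x => by simp, fun n x _ => by
    have : (0 : ℝ) ^ q = 0 := Real.zero_rpow (by linarith)
    simp [this], fun x => by simp⟩

theorem regq_rot {q : ℝ} {P : ℝ → ℂ} (h : RegQ q P) (φ : ℝ) :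
    RegQ q fun x => Complex.exp (Complex.I * (φ : ℂ)) * P x := by
  obtain ⟨u, a, b, h1, h2, hP⟩ := h
  refine ⟨fun x => Complex.exp (Complex.I * (φ : ℂ)) * u x, a, b, fun x => ?_, fun n x hx => ?_,
    fun x => ?_⟩
  · rw [norm_mul, norm_phase, one_mul]; exact h1 x
  · refine le_trans (le_of_eq (Finset.sum_congr rfl fun i _ => ?_)) (h2 n x hx)
    rw [← mul_sub, norm_mul, norm_phase, one_mul]
  · simp only
    rw [hP]
    ring

theorem pc_regq {q : ℝ} (hq : 1 ≤ q) (N : ℕ) {Q : ℕ → ℝ → ℂ} (hQ : ∀ j, RegQ q (Q j)) (i : ℕ) :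
    RegQ q (pc N Q i) := by
  unfold pc
  by_cases h : i = 0 ∨ i = N + 1
  · rw [if_pos h]; exact regq_zero hq
  · rw [if_neg h]; exact hQ _

/-- the averages over `N` intervals of the truncated operator -/
theorem sum_trunc_q {q : ℝ} (hq : 1 ≤ q) {N : ℕ} {A ε R : ℝ} (hε : 0 < ε) {a : ℕ → ℝ}
    (ha : Monotone a) (H : ∀ Q : ℕ → ℝ → ℂ, (∀ j, RegQ q (Q j)) →
      FormBd (fun x => ∑ j ∈ Finset.range N,
        (Ioc (a j) (a (j + 1))).indicator (Q j) x) A ε R 1 2 3)
    {P : ℕ → ℝ → ℂ} (hP : ∀ j, RegQ q (P j)) (f g h : 𝓢(ℝ, ℂ)) :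
    ∑ k ∈ Finset.range N, ‖∫ x in a k..a (k + 1), P k x * TT ε R 1 2 3 f g h x‖ ≤
      A * ((eLpNorm f 3 volume).toReal * (eLpNorm g 3 volume).toReal *
        (eLpNorm h 3 volume).toReal) := by
  set z : ℕ → ℂ := fun k => ∫ x in a k..a (k + 1), P k x * TT ε R 1 2 3 f g h x with hz
  choose φ hφ using fun k => unimod (z k)
  set Q : ℕ → ℝ → ℂ := fun k x => Complex.exp (Complex.I * (φ k : ℂ)) * P k x with hQ
  have rQ : ∀ j, RegQ q (Q j) := fun j => regq_rot (hP j) (φ j)
  have mD : Measurable fun x => ∑ j ∈ Finset.range N,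
      (Ioc (a j) (a (j + 1))).indicator (Q j) x := by
    have e : (fun x => ∑ j ∈ Finset.range N, (Ioc (a j) (a (j + 1))).indicator (Q j) x) =
      fun x => pc N Q (cnt N a x) x := funext (sum_rep N ha Q)
    rw [e]
    exact glue_meas hq (cnt_mono N a).measurable (pc_regq hq N rQ)
  have bD : ∀ x, ‖∑ j ∈ Finset.range N, (Ioc (a j) (a (j + 1))).indicator (Q j) x‖ ≤ 1 := by
    intro x
    rw [sum_rep N ha Q]
    exact (pc_regq hq N rQ _).le x
  have key := pairing mD bD hε (H _ rQ) (nice_schwartz f) (nice_schwartz g) (nice_schwartz h)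
  have hT := TT_integrable (R := R) (c₁ := 1) (c₂ := 2) (c₃ := 3) hε (nice_schwartz f)
    (nice_schwartz g) (nice_schwartz h)
  have hi : ∀ k, Integrable (fun x => (Ioc (a k) (a (k + 1))).indicator (Q k) x *
      TT ε R 1 2 3 f g h x) volume := by
    intro k
    have hm : Measurable ((Ioc (a k) (a (k + 1))).indicator (Q k)) :=
      ((rQ k).meas hq).indicator measurableSet_Ioc
    refine hT.mono (hm.aestronglyMeasurable.mul hT.1) (ae_of_all _ fun x => ?_)
    rw [norm_mul]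
    refine mul_le_of_le_one_left (norm_nonneg _) ((norm_indicator_le_norm_self _ _).trans ?_)
    exact (rQ k).le x
  have e1 : ∀ k, ∫ x, (Ioc (a k) (a (k + 1))).indicator (Q k) x * TT ε R 1 2 3 f g h x =
      (‖z k‖ : ℂ) := by
    intro k
    rw [← hφ k, hz]
    simp only
    rw [intervalIntegral.integral_of_le (ha (Nat.le_succ k)), ← integral_const_mul,
      ← integral_indicator measurableSet_Ioc]
    congr 1
    funext x
    by_cases hx : x ∈ Ioc (a k) (a (k + 1))
    · rw [indicator_of_mem hx, indicator_of_mem hx, hQ]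
      ring
    · rw [indicator_of_notMem hx, indicator_of_notMem hx, zero_mul]
  have e2 : ∫ x, (∑ k ∈ Finset.range N, (Ioc (a k) (a (k + 1))).indicator (Q k) x) *
      TT ε R 1 2 3 f g h x = ∑ k ∈ Finset.range N, (‖z k‖ : ℂ) := by
    simp only [Finset.sum_mul]
    rw [integral_finsetSum _ fun k _ => hi k]
    exact Finset.sum_congr rfl fun k _ => e1 k
  rw [e2, ← Complex.ofReal_sum, Complex.norm_real, Real.norm_of_nonneg
    (Finset.sum_nonneg fun k _ => norm_nonneg _)] at key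
  exact key

/-- the averages over `N` intervals of `T` -/
theorem sum_tht_q {q : ℝ} (hq : 1 ≤ q) {N : ℕ} {A : ℝ} {a : ℕ → ℝ} (ha : Monotone a)
    (H : ∀ ε R : ℝ, 0 < ε → ε < R → ∀ Q : ℕ → ℝ → ℂ, (∀ j, RegQ q (Q j)) →
      FormBd (fun x => ∑ j ∈ Finset.range N,
        (Ioc (a j) (a (j + 1))).indicator (Q j) x) A ε R 1 2 3)
    {P : ℕ → ℝ → ℂ} (hP : ∀ j, RegQ q (P j)) (f g h : 𝓢(ℝ, ℂ)) :
    ∑ k ∈ Finset.range N, ‖∫ x in a k..a (k + 1), P k x * THT f g h x‖ ≤
      A * ((eLpNorm f 3 volume).toReal * (eLpNorm g 3 volume).toReal *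
        (eLpNorm h 3 volume).toReal) := by
  obtain ⟨e, r, he0, he1, hr1, t1, t2⟩ := seqs 1 1 one_pos
  obtain ⟨K, hK⟩ := TT_unif f g h
  have hl : ∀ k, Tendsto (fun n => ∫ x in a k..a (k + 1),
      P k x * TT (e n) (r n) 1 2 3 f g h x) atTop
      (𝓝 (∫ x in a k..a (k + 1), P k x * THT f g h x)) := by
    intro k
    refine intervalIntegral.tendsto_integral_filter_of_dominated_convergence (fun _ => K)
      (Eventually.of_forall fun n => (((hP k).meas hq).mul (TT_meas (nice_schwartz f)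
        (nice_schwartz g) (nice_schwartz h))).aestronglyMeasurable)
      (Eventually.of_forall fun n => ae_of_all _ fun x _ => ?_)
      intervalIntegrable_const (ae_of_all _ fun x _ => (lim_pt f g h t1 t2 x).const_mul _)
    rw [norm_mul]
    exact (mul_le_of_le_one_left (norm_nonneg _) ((hP k).le x)).trans
      (hK _ _ x (he0 n) ((he1 n).trans (hr1 n)))
  refine le_of_tendsto (tendsto_finsetSum _ fun k _ => (hl k).norm)
    (Eventually.of_forall fun n => ?_)
  exact sum_trunc_q hq (he0 n) ha (H _ _ (he0 n) ((he1 n).trans (hr1 n))) hP f g h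

/-- **(3)** `N` arbitrary consecutive intervals -/
theorem sum_log_q {q : ℝ} (hq : 1 ≤ q) : ∃ C : ℝ, ∀ (N : ℕ) (a : ℕ → ℝ), Monotone a →
    ∀ P : ℕ → ℝ → ℂ, (∀ j, RegQ q (P j)) → ∀ f g h : 𝓢(ℝ, ℂ),
    ∑ k ∈ Finset.range N, ‖∫ x in a k..a (k + 1), P k x * THT f g h x‖ ≤
      C * (1 + Real.log N) * ((eLpNorm f 3 volume).toReal * (eLpNorm g 3 volume).toReal *
        (eLpNorm h 3 volume).toReal) := by
  obtain ⟨A, hA0, hA⟩ := regq_form hq (c₁ := 1) (c₂ := 2) (c₃ := 3) (by norm_num) (by norm_num)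
    (by norm_num)
  obtain ⟨B, hB0, hB⟩ := H131.pieces (c₁ := 1) (c₂ := 2) (c₃ := 3) (by norm_num) (by norm_num)
    (by norm_num)
  refine ⟨3 * (A + 2 * B), fun N a ha P hP f g h => ?_⟩
  have hlog : 0 ≤ Real.log N := Real.log_natCast_nonneg N
  rcases Nat.eq_zero_or_pos N with h0 | hN
  · subst h0
    rw [Finset.range_zero, Finset.sum_empty]
    positivity
  · have key := sum_tht_q hq (N := N) (A := A + B * ((Nat.log 2 (N + 2) + 1 : ℕ) : ℝ)) ha
      (fun ε R hε hR Q hQ => by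
        have e : (fun x => ∑ j ∈ Finset.range N, (Ioc (a j) (a (j + 1))).indicator (Q j) x) =
          fun x => pc N Q (cnt N a x) x := funext (sum_rep N ha Q)
        rw [e]
        exact hB A ε R hA0 hε hR (Nat.log 2 (N + 2) + 1) (cnt N a) (pc N Q) (cnt_mono N a)
          (fun x => (cnt_lt N a x).trans (Nat.lt_pow_succ_log_self (by norm_num) _))
          (fun j => (pc_regq hq N hQ j).meas hq) (fun j => (pc_regq hq N hQ j).le)
          (fun j => hA _ (pc_regq hq N hQ j) ε R hε hR)) hP f g h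
    refine key.trans ?_
    have hN1 : (1 : ℝ) ≤ N := by exact_mod_cast hN
    have h1 : Real.log ((N + 2 : ℕ) : ℝ) ≤ 2 + Real.log N := by
      calc Real.log ((N + 2 : ℕ) : ℝ) ≤ Real.log (3 * N) := by
            apply Real.log_le_log (by positivity)
            push_cast
            linarith
        _ = Real.log 3 + Real.log N := Real.log_mul (by norm_num) (by positivity)
        _ ≤ 2 + Real.log N := by
            have : Real.log 3 ≤ 3 - 1 := Real.log_le_sub_one_of_pos (by norm_num)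
            linarith
    have h3 := log_bd (N := N + 2) (by omega)
    have h2 : A + B * ((Nat.log 2 (N + 2) + 1 : ℕ) : ℝ) ≤
        3 * (A + 2 * B) * (1 + Real.log N) := by
      calc A + B * ((Nat.log 2 (N + 2) + 1 : ℕ) : ℝ) ≤
            A + B * (1 + 2 * (2 + Real.log N)) := by
            gcongr
            refine h3.trans ?_
            linarith
        _ ≤ 3 * (A + 2 * B) * (1 + Real.log N) := by
            nlinarith [mul_nonneg hA0 hlog, mul_nonneg hB0 hlog]
    gcongr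

/-- **(4)** intervals with endpoints in a set of Aikawa type, any number of them -/
theorem sum_noloss_q {q : ℝ} (hq : 1 ≤ q) {S : Set ℝ} {b K : ℝ}
    (hS : Aik (fun x => Metric.infDist x S) b K) :
    ∃ C : ℝ, ∀ (N : ℕ) (a : ℕ → ℝ), Monotone a → (∀ j, a j ∈ S) → ∀ P : ℕ → ℝ → ℂ,
    (∀ j, RegQ q (P j)) → ∀ f g h : 𝓢(ℝ, ℂ),
    ∑ k ∈ Finset.range N, ‖∫ x in a k..a (k + 1), P k x * THT f g h x‖ ≤
      C * ((eLpNorm f 3 volume).toReal * (eLpNorm g 3 volume).toReal *
        (eLpNorm h 3 volume).toReal) := by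
  obtain ⟨A, hA0, hA⟩ := regq_form hq (c₁ := 1) (c₂ := 2) (c₃ := 3) (by norm_num) (by norm_num)
    (by norm_num)
  obtain ⟨B, hB0, hB⟩ := por_form hS (c₁ := 1) (c₂ := 2) (c₃ := 3) (by norm_num) (by norm_num)
    (by norm_num)
  refine ⟨A + B, fun N a ha haS P hP f g h => ?_⟩
  refine sum_tht_q hq (N := N) ha (fun ε R hε hR Q hQ => ?_) hP f g h
  have e : (fun x => ∑ j ∈ Finset.range N, (Ioc (a j) (a (j + 1))).indicator (Q j) x) =
      fun x => pc N Q (cnt N a x) x := funext (sum_rep N ha Q)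
  rw [e]
  exact hB A ε R hA0 hε hR (cnt N a) (pc N Q) (cnt_mono N a).measurable (cnt_local haS)
    (fun j => (pc_regq hq N hQ j).meas hq) (fun j => (pc_regq hq N hQ j).le)
    (fun j => hA _ (pc_regq hq N hQ j) ε R hε hR)

end Vale.Agent.P141.R2.H4
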